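/-
Row 47 (S0066): the uniform core tree of finding #684, in-order integer positions.  (helper31)

A node is a position `k : ℕ`, `k ≠ 0`; `ν k` is the 2-adic valuation, `depth = h + 1 - ν k`.
`Anc u v` : `u` is a strict ancestor of `v`.
-/
import Mathlib

set_option autoImplicit false

namespace S66.Tree

/-- 2-adic valuation. -/
def ν (k : ℕ) : ℕ := padicValNat 2 k

/-- `u` is a strict ancestor of `v`. -/
def Anc (u v : ℕ) : Prop := ν v < ν u ∧ u < v + 2 ^ ν u ∧ v < u + 2 ^ ν u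

/-- Comparable in the ancestor order: the core table `M`. -/
def Cmp (u w : ℕ) : Prop := Anc u w ∨ Anc w u

instance : DecidableRel Anc := fun u v => by unfold Anc; infer_instance
instance : DecidableRel Cmp := fun u v => by unfold Cmp; infer_instance

lemma Cmp.symm {u w : ℕ} (h : Cmp u w) : Cmp w u := Or.symm h

lemma cmp_comm (u w : ℕ) : Cmp u w ↔ Cmp w u := Or.comm

/-! ### Representation -/

lemma rep {k : ℕ} (hk : k ≠ 0) : ∃ m, k = 2 ^ ν k * (2 * m + 1) := by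
  obtain ⟨c, hc⟩ : 2 ^ ν k ∣ k := pow_padicValNat_dvd
  have hnd : ¬ 2 ^ (ν k + 1) ∣ k := pow_succ_padicValNat_not_dvd hk
  generalize ν k = e at hc hnd ⊢
  have hodd : ¬ 2 ∣ c := by
    rintro ⟨c', hc'⟩
    apply hnd
    exact ⟨c', by rw [hc, hc', pow_succ]; ring⟩
  obtain ⟨m, hm⟩ : ∃ m, c = 2 * m + 1 := by
    rcases Nat.even_or_odd c with h | h
    · exact absurd h.two_dvd hodd
    · obtain ⟨m, hm⟩ := h
      exact ⟨m, hm⟩
  exact ⟨m, by rw [← hm]; exact hc⟩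

lemma ν_mk (e m : ℕ) : ν (2 ^ e * (2 * m + 1)) = e := by
  unfold ν
  have : Fact (Nat.Prime 2) := ⟨Nat.prime_two⟩
  rw [padicValNat.mul (by positivity) (by omega), padicValNat.prime_pow,
    padicValNat.eq_zero_of_not_dvd (by omega)]
  rfl

lemma pow_ν_dvd (k : ℕ) : 2 ^ ν k ∣ k := pow_padicValNat_dvd

lemma pos_of_Anc_left {u v : ℕ} (h : Anc u v) : u ≠ 0 := by
  rintro rfl
  have h1 := h.1
  simp [ν] at h1

/-! ### The key arithmetic lemmas -/

section Key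

variable {u v : ℕ}

/-- `f < e`, `u` of valuation `e`, `v` of valuation `f`: the interval of `v` does not cross the
upper end of the interval of `u`. -/
lemma key_up (hu : u ≠ 0) (hv : v ≠ 0) (h : ν v < ν u) (hlt : v < u + 2 ^ ν u) :
    v + 2 ^ ν v ≤ u + 2 ^ ν u := by
  obtain ⟨a, ha⟩ := rep hu
  obtain ⟨b, hb⟩ := rep hv
  obtain ⟨g, hg⟩ : ∃ g, ν u = ν v + 1 + g := ⟨ν u - ν v - 1, by omega⟩
  set e := ν u
  set f := ν v
  have hpe : 2 ^ e = 2 ^ f * (2 * 2 ^ g) := by rw [hg, pow_add, pow_succ]; ring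
  have hf : 0 < 2 ^ f := by positivity
  have h1 : u + 2 ^ e = 2 ^ f * (2 * (2 ^ g * (2 * a + 2))) := by
    rw [ha, hpe]; ring
  rw [h1] at hlt ⊢
  rw [hb] at hlt ⊢
  have h2 : 2 * b + 1 < 2 * (2 ^ g * (2 * a + 2)) := Nat.lt_of_mul_lt_mul_left hlt
  have h3 : 2 * b + 2 ≤ 2 * (2 ^ g * (2 * a + 2)) := by omega
  calc 2 ^ f * (2 * b + 1) + 2 ^ f = 2 ^ f * (2 * b + 2) := by ring
    _ ≤ _ := Nat.mul_le_mul_left _ h3

/-- Slack version: `v < u + 2^e + 2^f` already gives `v < u + 2^e`. -/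
lemma key_up' (hu : u ≠ 0) (hv : v ≠ 0) (h : ν v < ν u) (hlt : v < u + 2 ^ ν u + 2 ^ ν v) :
    v < u + 2 ^ ν u := by
  obtain ⟨a, ha⟩ := rep hu
  obtain ⟨b, hb⟩ := rep hv
  obtain ⟨g, hg⟩ : ∃ g, ν u = ν v + 1 + g := ⟨ν u - ν v - 1, by omega⟩
  set e := ν u
  set f := ν v
  have hpe : 2 ^ e = 2 ^ f * (2 * 2 ^ g) := by rw [hg, pow_add, pow_succ]; ring
  have hf : 0 < 2 ^ f := by positivity
  have h1 : u + 2 ^ e = 2 ^ f * (2 * (2 ^ g * (2 * a + 2))) := by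
    rw [ha, hpe]; ring
  rw [h1] at hlt ⊢
  rw [hb] at hlt ⊢
  have h4 : 2 ^ f * (2 * b + 1) < 2 ^ f * (2 * (2 ^ g * (2 * a + 2)) + 1) := by
    calc _ < 2 ^ f * (2 * (2 ^ g * (2 * a + 2))) + 2 ^ f := hlt
      _ = _ := by ring
  have h2 : 2 * b + 1 < 2 * (2 ^ g * (2 * a + 2)) + 1 := Nat.lt_of_mul_lt_mul_left h4
  have h3 : 2 * b + 1 < 2 * (2 ^ g * (2 * a + 2)) := by omega
  exact Nat.mul_lt_mul_of_pos_left h3 hf

lemma key_down (hu : u ≠ 0) (hv : v ≠ 0) (h : ν v < ν u) (hlt : u < v + 2 ^ ν u) :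
    u + 2 ^ ν v ≤ v + 2 ^ ν u := by
  obtain ⟨a, ha⟩ := rep hu
  obtain ⟨b, hb⟩ := rep hv
  obtain ⟨g, hg⟩ : ∃ g, ν u = ν v + 1 + g := ⟨ν u - ν v - 1, by omega⟩
  set e := ν u
  set f := ν v
  have hpe : 2 ^ e = 2 ^ f * (2 * 2 ^ g) := by rw [hg, pow_add, pow_succ]; ring
  have hf : 0 < 2 ^ f := by positivity
  have h1 : u = 2 ^ e + 2 ^ f * (2 * (2 ^ g * (2 * a))) := by
    rw [ha, hpe]; ring
  have hlt2 : 2 ^ f * (2 * (2 ^ g * (2 * a))) < 2 ^ f * (2 * b + 1) := by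
    have : 2 ^ e + 2 ^ f * (2 * (2 ^ g * (2 * a))) < 2 ^ f * (2 * b + 1) + 2 ^ e := by
      rw [← h1, ← hb]; exact hlt
    omega
  have h2 : 2 * (2 ^ g * (2 * a)) < 2 * b + 1 := Nat.lt_of_mul_lt_mul_left hlt2
  have h3 : 2 * (2 ^ g * (2 * a)) + 1 ≤ 2 * b + 1 := by omega
  have h4 : 2 ^ f * (2 * (2 ^ g * (2 * a)) + 1) ≤ 2 ^ f * (2 * b + 1) := Nat.mul_le_mul_left _ h3
  rw [hb]
  nth_rewrite 1 [h1]
  nlinarith

lemma key_down' (hu : u ≠ 0) (hv : v ≠ 0) (h : ν v < ν u) (hlt : u < v + 2 ^ ν u + 2 ^ ν v) :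
    u < v + 2 ^ ν u := by
  obtain ⟨a, ha⟩ := rep hu
  obtain ⟨b, hb⟩ := rep hv
  obtain ⟨g, hg⟩ : ∃ g, ν u = ν v + 1 + g := ⟨ν u - ν v - 1, by omega⟩
  set e := ν u
  set f := ν v
  have hpe : 2 ^ e = 2 ^ f * (2 * 2 ^ g) := by rw [hg, pow_add, pow_succ]; ring
  have hf : 0 < 2 ^ f := by positivity
  have h1 : u = 2 ^ e + 2 ^ f * (2 * (2 ^ g * (2 * a))) := by
    rw [ha, hpe]; ring
  have hlt2 : 2 ^ f * (2 * (2 ^ g * (2 * a))) < 2 ^ f * (2 * b + 2) := by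
    have : 2 ^ e + 2 ^ f * (2 * (2 ^ g * (2 * a))) < 2 ^ f * (2 * b + 1) + 2 ^ e + 2 ^ f := by
      rw [← h1, ← hb]; exact hlt
    have h5 : 2 ^ f * (2 * b + 2) = 2 ^ f * (2 * b + 1) + 2 ^ f := by ring
    omega
  have h2 : 2 * (2 ^ g * (2 * a)) < 2 * b + 2 := Nat.lt_of_mul_lt_mul_left hlt2
  have h3 : 2 * (2 ^ g * (2 * a)) < 2 * b + 1 := by omega
  have h4 : 2 ^ f * (2 * (2 ^ g * (2 * a))) < 2 ^ f * (2 * b + 1) :=
    Nat.mul_lt_mul_of_pos_left h3 hf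
  rw [h1, hb]
  nth_rewrite 1 [← hb]
  rw [hb]
  omega

/-- Same valuation and close: equal. -/
lemma eq_of_same_val (hu : u ≠ 0) (hv : v ≠ 0) (h : ν u = ν v)
    (h1 : u < v + 2 ^ (ν u + 1)) (h2 : v < u + 2 ^ (ν u + 1)) : u = v := by
  obtain ⟨a, ha⟩ := rep hu
  obtain ⟨b, hb⟩ := rep hv
  rw [← h] at hb
  set e := ν u
  have he : 0 < 2 ^ e := by positivity
  rw [ha, hb, pow_succ] at h1 h2
  have h3 : 2 ^ e * (2 * a + 1) < 2 ^ e * (2 * b + 1 + 2) := by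
    calc _ < 2 ^ e * (2 * b + 1) + 2 ^ e * 2 := h1
      _ = _ := by ring
  have h4 : 2 ^ e * (2 * b + 1) < 2 ^ e * (2 * a + 1 + 2) := by
    calc _ < 2 ^ e * (2 * a + 1) + 2 ^ e * 2 := h2
      _ = _ := by ring
  have h5 := Nat.lt_of_mul_lt_mul_left h3
  have h6 := Nat.lt_of_mul_lt_mul_left h4
  have : a = b := by omega
  rw [ha, hb, this]

/-- Two close multiples of `2^e` coincide: a point within `2^e` of `u` has smaller valuation. -/
lemma val_lt_of_close (hu : u ≠ 0) (hw : v ≠ 0) (hne : v ≠ u) (h1 : v < u + 2 ^ ν u)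
    (h2 : u < v + 2 ^ ν u) : ν v < ν u := by
  by_contra hcon
  push Not at hcon
  obtain ⟨c, hc⟩ : 2 ^ ν u ∣ u := pow_ν_dvd u
  obtain ⟨d, hd⟩ : 2 ^ ν u ∣ v := (pow_dvd_pow 2 hcon).trans (pow_ν_dvd v)
  set e := ν u
  have he : 0 < 2 ^ e := by positivity
  have h3 : 2 ^ e * d < 2 ^ e * (c + 1) := by
    calc 2 ^ e * d = v := hd.symm
      _ < u + 2 ^ e := h1
      _ = _ := by rw [hc]; ring
  have h4 : 2 ^ e * c < 2 ^ e * (d + 1) := by
    calc 2 ^ e * c = u := hc.symm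
      _ < v + 2 ^ e := h2
      _ = _ := by rw [hd]; ring
  have h5 := Nat.lt_of_mul_lt_mul_left h3
  have h6 := Nat.lt_of_mul_lt_mul_left h4
  have : c = d := by omega
  exact hne (by rw [hc, hd, this])

end Key

/-! ### T1–T4 -/

lemma Anc.lt_val {u v : ℕ} (h : Anc u v) : ν v < ν u := h.1

lemma Anc.ne {u v : ℕ} (h : Anc u v) : u ≠ v := by
  rintro rfl
  exact lt_irrefl _ h.1

lemma Anc.asymm {u v : ℕ} (h : Anc u v) : ¬ Anc v u := fun h' => lt_asymm h.1 h'.1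

lemma not_anc_of_same_val {u v : ℕ} (h : ν u = ν v) : ¬ Anc u v := fun h' => by
  have := h'.1
  omega

lemma not_cmp_of_same_val {u v : ℕ} (h : ν u = ν v) : ¬ Cmp u v := by
  rintro (h' | h')
  · exact not_anc_of_same_val h h'
  · exact not_anc_of_same_val h.symm h'

/-- **T1**: `Anc` is transitive (on nonzero positions). -/
theorem Anc.trans {u v w : ℕ} (hu : u ≠ 0) (hv : v ≠ 0) (huv : Anc u v) (hvw : Anc v w) :
    Anc u w := by
  refine ⟨hvw.1.trans huv.1, ?_, ?_⟩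
  · have h1 := key_down hu hv huv.1 huv.2.1
    have h2 := hvw.2.1
    omega
  · have h1 := key_up hu hv huv.1 huv.2.2
    have h3 := hvw.2.2
    omega

/-- **T2**: two ancestors of a node are equal or related. -/
theorem anc_of_anc_of_anc {u v w : ℕ} (hu : u ≠ 0) (hv : v ≠ 0) (huw : Anc u w) (hvw : Anc v w) :
    u = v ∨ Anc u v ∨ Anc v u := by
  rcases lt_trichotomy (ν u) (ν v) with h | h | h
  · right; right
    refine ⟨h, ?_, ?_⟩
    · apply key_down' hv hu h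
      have := hvw.2.1
      have := huw.2.2
      omega
    · apply key_up' hv hu h
      have := hvw.2.2
      have := huw.2.1
      omega
  · left
    refine eq_of_same_val hu hv h ?_ ?_
    · have h1 := huw.2.1
      have h2 := hvw.2.2
      rw [← h] at h2
      rw [pow_succ]
      omega
    · have h1 := huw.2.2
      have h2 := hvw.2.1
      rw [← h] at h2
      rw [pow_succ]
      omega
  · right; left
    refine ⟨h, ?_, ?_⟩
    · apply key_down' hu hv h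
      have := huw.2.1
      have := hvw.2.2
      omega
    · apply key_up' hu hv h
      have := huw.2.2
      have := hvw.2.1
      omega

/-- **T3**: a position strictly between a node and its descendant is a descendant too. -/
theorem Anc.between {u v w : ℕ} (hu : u ≠ 0) (hw : w ≠ 0) (huv : Anc u v)
    (hb : (u < w ∧ w < v) ∨ (v < w ∧ w < u)) : Anc u w := by
  have h1 := huv.2.1
  have h2 := huv.2.2
  have hne : w ≠ u := by omega
  have hlt1 : w < u + 2 ^ ν u := by omega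
  have hlt2 : u < w + 2 ^ ν u := by omega
  exact ⟨val_lt_of_close hu hw hne hlt1 hlt2, hlt2, hlt1⟩

/-- The child position: `r` of valuation `ν X - 1`, below `X`: `r + 2^ν r = X`. -/
lemma child_left {X r : ℕ} (hX : X ≠ 0) (hr : r ≠ 0) (hval : ν r + 1 = ν X) (h : Anc X r)
    (hlt : r < X) : r + 2 ^ ν r = X := by
  obtain ⟨a, ha⟩ := rep hX
  obtain ⟨b, hb⟩ := rep hr
  have h1 := h.2.1
  rw [← hval] at h1 ha
  set f := ν r
  have hf : 0 < 2 ^ f := by positivity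
  have hX2 : X = 2 ^ f * (2 * (2 * a + 1)) := by rw [ha, pow_succ]; ring
  have h2 : 2 ^ f * (2 * (2 * a + 1)) < 2 ^ f * (2 * b + 1 + 2) := by
    calc _ = X := hX2.symm
      _ < r + 2 ^ (f + 1) := h1
      _ = _ := by rw [hb, pow_succ]; ring
  have h3 : 2 ^ f * (2 * b + 1) < 2 ^ f * (2 * (2 * a + 1)) := by
    rw [← hb, ← hX2]; exact hlt
  have h4 := Nat.lt_of_mul_lt_mul_left h2
  have h5 := Nat.lt_of_mul_lt_mul_left h3
  have h6 : 2 * b + 1 + 1 = 2 * (2 * a + 1) := by omega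
  calc r + 2 ^ f = 2 ^ f * (2 * b + 1 + 1) := by rw [hb]; ring
    _ = 2 ^ f * (2 * (2 * a + 1)) := by rw [h6]
    _ = X := hX2.symm

lemma child_right {X r : ℕ} (hX : X ≠ 0) (hr : r ≠ 0) (hval : ν r + 1 = ν X) (h : Anc X r)
    (hlt : X < r) : X + 2 ^ ν r = r := by
  obtain ⟨a, ha⟩ := rep hX
  obtain ⟨b, hb⟩ := rep hr
  have h1 := h.2.2
  rw [← hval] at h1 ha
  set f := ν r
  have hf : 0 < 2 ^ f := by positivity
  have hX2 : X = 2 ^ f * (2 * (2 * a + 1)) := by rw [ha, pow_succ]; ring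
  have h2 : 2 ^ f * (2 * b + 1) < 2 ^ f * (2 * (2 * a + 1) + 2) := by
    calc _ = r := hb.symm
      _ < X + 2 ^ (f + 1) := h1
      _ = _ := by rw [hX2, pow_succ]; ring
  have h3 : 2 ^ f * (2 * (2 * a + 1)) < 2 ^ f * (2 * b + 1) := by
    rw [← hb, ← hX2]; exact hlt
  have h4 := Nat.lt_of_mul_lt_mul_left h2
  have h5 := Nat.lt_of_mul_lt_mul_left h3
  have h6 : 2 * (2 * a + 1) + 1 = 2 * b + 1 := by omega
  calc X + 2 ^ f = 2 ^ f * (2 * (2 * a + 1) + 1) := by rw [hX2]; ring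
    _ = 2 ^ f * (2 * b + 1) := by rw [h6]
    _ = r := hb.symm

/-- **T4**: `r` a child of `X`, `c` a strictly lower descendant of `X` on the same side:
`r` is an ancestor of `c`. -/
theorem Anc.of_child {X r c : ℕ} (hX : X ≠ 0) (hr : r ≠ 0) (hval : ν r + 1 = ν X)
    (hXr : Anc X r) (hXc : Anc X c) (hc : ν c < ν r)
    (hside : (r < X ∧ c < X) ∨ (X < r ∧ X < c)) : Anc r c := by
  have hpow : 2 ^ ν X = 2 * 2 ^ ν r := by rw [← hval, pow_succ]; ring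
  rcases hside with ⟨h1, h2⟩ | ⟨h1, h2⟩
  · have hch := child_left hX hr hval hXr h1
    have h3 := hXc.2.1
    refine ⟨hc, ?_, ?_⟩ <;> omega
  · have hch := child_right hX hr hval hXr h1
    have h3 := hXc.2.2
    refine ⟨hc, ?_, ?_⟩ <;> omega

/-! ### The plus lemma -/

/-- One half of the plus lemma: the case `Anc u₂ w₂`. -/
private lemma plus_aux {u1 u2 u3 w1 w2 w3 : ℕ} (hu1 : u1 ≠ 0) (hu2 : u2 ≠ 0) (hu3 : u3 ≠ 0)
    (hw1 : w1 ≠ 0) (hw2 : w2 ≠ 0) (hw3 : w3 ≠ 0)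
    (hu12 : u1 < u2) (hu23 : u2 < u3)
    (c12 : Cmp u1 w2) (c21 : Cmp u2 w1) (c23 : Cmp u2 w3) (c32 : Cmp u3 w2)
    (n11 : ¬ Cmp u1 w1) (n13 : ¬ Cmp u1 w3) (n31 : ¬ Cmp u3 w1) (n33 : ¬ Cmp u3 w3)
    (h22 : Anc u2 w2) : False := by
  -- `w₁` and `w₃` are not ancestors of `u₂`.
  have hstep : ∀ {w : ℕ}, w ≠ 0 → ¬ Cmp u1 w → ¬ Cmp u3 w → ¬ Anc w u2 := by
    intro w hw n1 n3 hwu
    have hww2 : Anc w w2 := Anc.trans hw hu2 hwu h22
    have key : ∀ {x : ℕ}, x ≠ 0 → Cmp x w2 → ¬ Cmp x w → x = w := by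
      intro x hx cx nx
      rcases cx with h | h
      · rcases anc_of_anc_of_anc hx hw h hww2 with e | e | e
        · exact e
        · exact absurd (Or.inl e) nx
        · exact absurd (Or.inr e) nx
      · exact absurd (Or.inr (Anc.trans hw hw2 hww2 h)) nx
    have e1 := key hu1 c12 n1
    have e3 := key hu3 c32 n3
    omega
  have h21 : Anc u2 w1 := by
    rcases c21 with h | h
    · exact h
    · exact absurd h (hstep hw1 n11 n31)
  have h23 : Anc u2 w3 := by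
    rcases c23 with h | h
    · exact h
    · exact absurd h (hstep hw3 n13 n33)
  have hne : u2 ≠ w2 := h22.ne
  rcases lt_or_gt_of_ne hne with hlt | hlt
  · -- `u₂ < w₂`
    rcases c12 with h | h
    · have h1 : Anc u1 u2 := Anc.between hu1 hu2 h (Or.inl ⟨hu12, hlt⟩)
      exact n11 (Or.inl (Anc.trans hu1 hu2 h1 h21))
    · have h1 : Anc w2 u2 := Anc.between hw2 hu2 h (Or.inr ⟨hu12, hlt⟩)
      exact h22.asymm h1
  · -- `w₂ < u₂`
    rcases c32 with h | h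
    · have h1 : Anc u3 u2 := Anc.between hu3 hu2 h (Or.inr ⟨hlt, hu23⟩)
      exact n31 (Or.inl (Anc.trans hu3 hu2 h1 h21))
    · have h1 : Anc w2 u2 := Anc.between hw2 hu2 h (Or.inl ⟨hlt, hu23⟩)
      exact h22.asymm h1

/-- **The plus lemma**: `M` restricted to three strictly increasing rows and columns is not the
plus pattern `[[0,1,0],[1,1,1],[0,1,0]]`. -/
theorem plus_impossible {u1 u2 u3 w1 w2 w3 : ℕ} (hu1 : u1 ≠ 0) (hu2 : u2 ≠ 0) (hu3 : u3 ≠ 0)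
    (hw1 : w1 ≠ 0) (hw2 : w2 ≠ 0) (hw3 : w3 ≠ 0)
    (hu12 : u1 < u2) (hu23 : u2 < u3) (hw12 : w1 < w2) (hw23 : w2 < w3)
    (c12 : Cmp u1 w2) (c21 : Cmp u2 w1) (c22 : Cmp u2 w2) (c23 : Cmp u2 w3) (c32 : Cmp u3 w2)
    (n11 : ¬ Cmp u1 w1) (n13 : ¬ Cmp u1 w3) (n31 : ¬ Cmp u3 w1) (n33 : ¬ Cmp u3 w3) : False := by
  rcases c22 with h | h
  · exact plus_aux hu1 hu2 hu3 hw1 hw2 hw3 hu12 hu23 c12 c21 c23 c32 n11 n13 n31 n33 h
  · refine plus_aux hw1 hw2 hw3 hu1 hu2 hu3 hw12 hw23 c21.symm c12.symm c32.symm c23.symm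
      (fun h' => n11 h'.symm) (fun h' => n31 h'.symm) (fun h' => n13 h'.symm)
      (fun h' => n33 h'.symm) h

end S66.Tree
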