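/-
Row 47 (S0066): nodes, leaf paths, block sizes of the core tree of #684.  (helper31)

`IsNode h k`: `k` is a node of the tree of height `h + 1`; `pathNode h t i` is the node at depth `i`
on the path of leaf `t < 2^h`; `size k = 2^(ν k - 1)` is the number of lines of node `k`.
-/
import Mathlib
import Crest.Agent.Lib.S66.Tree

set_option autoImplicit false

namespace S66.Tree

/-- `k` is a node of the core tree of parameter `h`. -/
def IsNode (h k : ℕ) : Prop := 1 ≤ k ∧ k < 2 ^ (h + 2) ∧ (ν k = 0 → k % 4 = 3)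

instance (h : ℕ) : DecidablePred (IsNode h) := fun k => by unfold IsNode; infer_instance

/-- The finite set of nodes. -/
def nodes (h : ℕ) : Finset ℕ := (Finset.range (2 ^ (h + 2))).filter (IsNode h)

lemma mem_nodes {h k : ℕ} : k ∈ nodes h ↔ IsNode h k := by
  simp only [nodes, Finset.mem_filter, Finset.mem_range]
  exact ⟨fun h1 => h1.2, fun h1 => ⟨h1.2.1, h1⟩⟩

lemma IsNode.ne_zero {h k : ℕ} (hk : IsNode h k) : k ≠ 0 := by
  have := hk.1; omega

lemma IsNode.ν_le {h k : ℕ} (hk : IsNode h k) : ν k ≤ h + 1 := by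
  have h1 : 2 ^ ν k ≤ k := Nat.le_of_dvd (by have := hk.1; omega) (pow_ν_dvd k)
  have h2 : 2 ^ ν k < 2 ^ (h + 2) := lt_of_le_of_lt h1 hk.2.1
  have h3 := (Nat.pow_lt_pow_iff_right (by norm_num : 1 < 2)).1 h2
  omega

/-- The depth of a node. -/
def depth (h k : ℕ) : ℕ := h + 1 - ν k

/-- The number of lines of a node. -/
def size (k : ℕ) : ℕ := 2 ^ (ν k - 1)

lemma size_pos (k : ℕ) : 0 < size k := by unfold size; positivity

/-- The node of depth `i` on the path of leaf `t`. -/
def pathNode (h t i : ℕ) : ℕ :=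
  if i ≤ h then 2 ^ (h + 1 - i) * (2 * (t / 2 ^ (h - i)) + 1) else 4 * t + 3

lemma pathNode_of_le {h t i : ℕ} (hi : i ≤ h) :
    pathNode h t i = 2 ^ (h + 1 - i) * (2 * (t / 2 ^ (h - i)) + 1) := by
  simp [pathNode, hi]

@[simp] lemma pathNode_last (h t : ℕ) : pathNode h t (h + 1) = 4 * t + 3 := by
  simp [pathNode]

@[simp] lemma pathNode_self (h t : ℕ) : pathNode h t h = 4 * t + 2 := by
  rw [pathNode_of_le le_rfl]
  simp
  ring

lemma pathNode_zero {h t : ℕ} (ht : t < 2 ^ h) : pathNode h t 0 = 2 ^ (h + 1) := by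
  rw [pathNode_of_le (Nat.zero_le _)]
  simp [Nat.div_eq_of_lt ht]

lemma ν_pathNode {h t i : ℕ} (hi : i ≤ h + 1) : ν (pathNode h t i) = h + 1 - i := by
  rcases Nat.lt_or_ge h i with h1 | h1
  · have : i = h + 1 := by omega
    subst this
    rw [pathNode_last]
    have h2 : 4 * t + 3 = 2 ^ 0 * (2 * (2 * t + 1) + 1) := by ring
    rw [h2, ν_mk]
    omega
  · rw [pathNode_of_le h1, ν_mk]

lemma pathNode_ne_zero {h t i : ℕ} : pathNode h t i ≠ 0 := by
  unfold pathNode
  split_ifs
  · positivity
  · omega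

lemma pathNode_lt {h t i : ℕ} (ht : t < 2 ^ h) (hi : i ≤ h + 1) : pathNode h t i < 2 ^ (h + 2) := by
  rcases Nat.lt_or_ge h i with h1 | h1
  · have : i = h + 1 := by omega
    subst this
    rw [pathNode_last, pow_succ, pow_succ]
    omega
  · rw [pathNode_of_le h1]
    obtain ⟨g, hg⟩ : ∃ g, h = i + g := ⟨h - i, by omega⟩
    subst hg
    have h2 : t / 2 ^ (i + g - i) < 2 ^ i := by
      rw [Nat.add_sub_cancel_left]
      apply Nat.div_lt_of_lt_mul
      rw [mul_comm, ← pow_add]
      exact ht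
    have h3 : i + g + 1 - i = g + 1 := by omega
    rw [h3]
    have h4 : 2 * (t / 2 ^ (i + g - i)) + 1 < 2 * 2 ^ i := by omega
    calc 2 ^ (g + 1) * (2 * (t / 2 ^ (i + g - i)) + 1) < 2 ^ (g + 1) * (2 * 2 ^ i) :=
          Nat.mul_lt_mul_of_pos_left h4 (by positivity)
      _ = 2 ^ (i + g + 2) := by ring

lemma isNode_pathNode {h t i : ℕ} (ht : t < 2 ^ h) (hi : i ≤ h + 1) : IsNode h (pathNode h t i) := by
  refine ⟨Nat.one_le_iff_ne_zero.2 pathNode_ne_zero, pathNode_lt ht hi, ?_⟩
  intro h0
  rw [ν_pathNode hi] at h0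
  have : i = h + 1 := by omega
  subst this
  rw [pathNode_last]
  omega

/-- The child relation along a path. -/
lemma pathNode_succ (h t i : ℕ) (hi : i ≤ h) :
    pathNode h t (i + 1) + 2 ^ (h - i) = pathNode h t i ∨
      pathNode h t i + 2 ^ (h - i) = pathNode h t (i + 1) := by
  rcases Nat.lt_or_ge i h with h1 | h1
  · rw [pathNode_of_le hi, pathNode_of_le (show i + 1 ≤ h by omega)]
    obtain ⟨g, hg⟩ : ∃ g, h = i + 1 + g := ⟨h - i - 1, by omega⟩
    subst hg
    have e1 : i + 1 + g + 1 - i = g + 2 := by omega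
    have e2 : i + 1 + g + 1 - (i + 1) = g + 1 := by omega
    have e3 : i + 1 + g - i = g + 1 := by omega
    have e4 : i + 1 + g - (i + 1) = g := by omega
    rw [e1, e2, e3, e4]
    have e5 : t / 2 ^ (g + 1) = (t / 2 ^ g) / 2 := by
      rw [pow_succ, Nat.div_div_eq_div_mul]
    rw [e5]
    set a := t / 2 ^ g
    have hg0 : 0 < 2 ^ (g + 1) := by positivity
    rcases Nat.even_or_odd' a with ⟨m, hm | hm⟩
    · left
      have : a / 2 = m := by omega
      rw [this, hm, pow_succ 2 (g + 1)]
      ring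
    · right
      have : a / 2 = m := by omega
      rw [this, hm, pow_succ 2 (g + 1)]
      ring
  · have : i = h := by omega
    subst this
    right
    simp

lemma anc_pathNode_succ (h t i : ℕ) (hi : i ≤ h) :
    Anc (pathNode h t i) (pathNode h t (i + 1)) := by
  have hv1 := ν_pathNode (h := h) (t := t) (i := i) (by omega)
  have hv2 := ν_pathNode (h := h) (t := t) (i := i + 1) (by omega)
  have hp : 2 ^ (h + 1 - i) = 2 * 2 ^ (h - i) := by
    rw [show h + 1 - i = (h - i) + 1 by omega, pow_succ]; ring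
  have hpos : 0 < 2 ^ (h - i) := by positivity
  refine ⟨by omega, ?_, ?_⟩ <;> rw [hv1, hp] <;>
    rcases pathNode_succ h t i hi with e | e <;> omega

/-- Nodes on a path are pairwise related. -/
theorem anc_pathNode (h t : ℕ) {i j : ℕ} (hij : i < j) (hj : j ≤ h + 1) :
    Anc (pathNode h t i) (pathNode h t j) := by
  induction j, hij using Nat.le_induction with
  | base => exact anc_pathNode_succ h t i (by omega)
  | succ j hj' ih =>
    exact Anc.trans pathNode_ne_zero pathNode_ne_zero (ih (by omega))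
      (anc_pathNode_succ h t j (by omega))

/-- All later nodes of a path are on the same side of an earlier one as the next node. -/
theorem pathNode_side (h t : ℕ) {i j : ℕ} (hij : i < j) (hj : j ≤ h + 1) :
    pathNode h t j < pathNode h t i ↔ pathNode h t (i + 1) < pathNode h t i := by
  rcases Nat.eq_or_lt_of_le (show i + 1 ≤ j from hij) with e | hlt
  · rw [← e]
  · have hanc := anc_pathNode h t hlt hj
    have hv := ν_pathNode (h := h) (t := t) (i := i + 1) (by omega)
    have hv0 := ν_pathNode (h := h) (t := t) (i := i) (by omega)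
    have hsub : h - i = ν (pathNode h t (i + 1)) := by rw [hv]; omega
    have hne := (anc_pathNode h t hij hj).ne
    have h1 := hanc.2.1
    have h2 := hanc.2.2
    rcases pathNode_succ h t i (by omega) with e | e <;> rw [hsub] at e
    · constructor
      · intro _; have : 0 < 2 ^ ν (pathNode h t (i + 1)) := by positivity
        omega
      · intro _; omega
    · constructor
      · intro h3; omega
      · intro h3
        have : 0 < 2 ^ ν (pathNode h t (i + 1)) := by positivity
        omega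

/-! ### Depth `h` and depth `h+1` nodes -/

/-- A depth `h` node and a depth `h+1` node are related iff they belong to the same leaf. -/
theorem cmp_leaf_iff (s t : ℕ) : Cmp (4 * s + 2) (4 * t + 3) ↔ s = t := by
  have h1 : ν (4 * s + 2) = 1 := by
    have : 4 * s + 2 = 2 ^ 1 * (2 * s + 1) := by ring
    rw [this, ν_mk]
  have h2 : ν (4 * t + 3) = 0 := by
    have : 4 * t + 3 = 2 ^ 0 * (2 * (2 * t + 1) + 1) := by ring
    rw [this, ν_mk]
  constructor
  · rintro (h | h)
    · have h3 := h.2.1
      have h4 := h.2.2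
      rw [h1] at h3 h4
      omega
    · exact absurd h.1 (by omega)
  · rintro rfl
    left
    refine ⟨by omega, ?_, ?_⟩ <;> rw [h1] <;> omega

/-! ### Fibres of the path map and the total number of lines -/

/-- The node `v` of depth `i ≤ h` with index `m` is on the path of `t` iff `t / 2^(h-i) = m`. -/
lemma pathNode_eq_iff {h t i e m : ℕ} (hi : i ≤ h) :
    pathNode h t i = 2 ^ e * (2 * m + 1) ↔ (h + 1 - i = e ∧ t / 2 ^ (h - i) = m) := by
  rw [pathNode_of_le hi]
  constructor
  · intro h1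
    have h2 : h + 1 - i = e := by
      have := congrArg ν h1
      rwa [ν_mk, ν_mk] at this
    refine ⟨h2, ?_⟩
    rw [h2] at h1
    have h3 := Nat.eq_of_mul_eq_mul_left (by positivity) h1
    omega
  · rintro ⟨rfl, rfl⟩
    rfl

/-- The fibre of the path map at depth `i ≤ h`. -/
lemma card_path_fiber {h i m : ℕ} (hi : i ≤ h) (hm : m < 2 ^ i) :
    ((Finset.range (2 ^ h)).filter (fun t => t / 2 ^ (h - i) = m)).card = 2 ^ (h - i) := by
  have hpos : 0 < 2 ^ (h - i) := by positivity
  have : (Finset.range (2 ^ h)).filter (fun t => t / 2 ^ (h - i) = m) =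
      Finset.Ico (m * 2 ^ (h - i)) ((m + 1) * 2 ^ (h - i)) := by
    ext t
    simp only [Finset.mem_filter, Finset.mem_range, Finset.mem_Ico]
    have hpow : 2 ^ h = 2 ^ i * 2 ^ (h - i) := by
      rw [← pow_add]; congr 1; omega
    constructor
    · rintro ⟨_, rfl⟩
      exact ⟨Nat.div_mul_le_self t _, by
        have := Nat.lt_div_mul_add hpos (a := t)
        nlinarith⟩
    · rintro ⟨h1, h2⟩
      refine ⟨?_, ?_⟩
      · calc t < (m + 1) * 2 ^ (h - i) := h2
          _ ≤ 2 ^ i * 2 ^ (h - i) := Nat.mul_le_mul_right _ hm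
          _ = 2 ^ h := hpow.symm
      · exact (Nat.div_eq_of_lt_le (by linarith) (by linarith))
  rw [this, Nat.card_Ico]
  have : (m + 1) * 2 ^ (h - i) = m * 2 ^ (h - i) + 2 ^ (h - i) := by ring
  omega

/-- The number of leaves through a node equals its size. -/
theorem card_leaves_through {h v : ℕ} (hv : IsNode h v) :
    ((Finset.range (2 ^ h)).filter (fun t => pathNode h t (h + 1 - ν v) = v)).card = size v := by
  have hle := hv.ν_le
  rcases Nat.eq_zero_or_pos (ν v) with h0 | hpos
  · -- depth `h + 1`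
    have h3 : v % 4 = 3 := hv.2.2 h0
    have e : (Finset.range (2 ^ h)).filter (fun t => pathNode h t (h + 1 - ν v) = v) = {v / 4} := by
      ext t
      simp only [Finset.mem_filter, Finset.mem_range, Finset.mem_singleton, h0, Nat.sub_zero,
        pathNode_last]
      have hlt : v < 2 ^ (h + 2) := hv.2.1
      rw [pow_succ, pow_succ] at hlt
      constructor
      · rintro ⟨_, rfl⟩
        omega
      · rintro rfl
        constructor <;> omega
    rw [e, Finset.card_singleton, size, h0]
    simp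
  · -- depth `≤ h`
    obtain ⟨m, hm⟩ := rep hv.ne_zero
    set e := ν v with he
    have hi : h + 1 - e ≤ h := by omega
    have hmlt : m < 2 ^ (h + 1 - e) := by
      have hlt : v < 2 ^ (h + 2) := hv.2.1
      rw [hm] at hlt
      have hp : 2 ^ (h + 2) = 2 ^ e * (2 * 2 ^ (h + 1 - e)) := by
        rw [← pow_succ', ← pow_add]; congr 1; omega
      rw [hp] at hlt
      have := Nat.lt_of_mul_lt_mul_left hlt
      omega
    have heq : (Finset.range (2 ^ h)).filter (fun t => pathNode h t (h + 1 - e) = v) =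
        (Finset.range (2 ^ h)).filter (fun t => t / 2 ^ (h - (h + 1 - e)) = m) := by
      apply Finset.filter_congr
      intro t _
      rw [hm, pathNode_eq_iff hi]
      constructor
      · exact fun h1 => h1.2
      · exact fun h1 => ⟨by omega, h1⟩
    rw [heq, card_path_fiber hi hmlt, size]
    congr 1
    omega

/-- The depth of a path node. -/
lemma depth_pathNode {h t i : ℕ} (hi : i ≤ h + 1) : h + 1 - ν (pathNode h t i) = i := by
  rw [ν_pathNode hi]; omega

/-- **The total number of core lines** at the group level. -/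
theorem sum_size (h : ℕ) : ∑ v ∈ nodes h, size v = (h + 2) * 2 ^ h := by
  classical
  -- count pairs `(i, t)`
  set P : Finset (ℕ × ℕ) := (Finset.range (h + 2)) ×ˢ (Finset.range (2 ^ h)) with hP
  have hcard : P.card = (h + 2) * 2 ^ h := by simp [hP]
  have hmaps : ∀ x ∈ P, pathNode h x.2 x.1 ∈ nodes h := by
    intro x hx
    simp only [hP, Finset.mem_product, Finset.mem_range] at hx
    exact mem_nodes.2 (isNode_pathNode hx.2 (by omega))
  rw [← hcard, Finset.card_eq_sum_card_fiberwise hmaps]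
  refine Finset.sum_congr rfl fun v hv => ?_
  have hv' := mem_nodes.1 hv
  rw [← card_leaves_through hv']
  -- the fibre is `{h + 1 - ν v} × {t | path t _ = v}`
  refine Finset.card_bij (fun t _ => (h + 1 - ν v, t)) ?_ ?_ ?_
  · intro t ht
    simp only [Finset.mem_filter, Finset.mem_range] at ht
    simp only [hP, Finset.mem_filter, Finset.mem_product, Finset.mem_range]
    refine ⟨⟨?_, ht.1⟩, ht.2⟩
    omega
  · intro a _ b _ h1
    exact (Prod.ext_iff.1 h1).2
  · rintro ⟨i, t⟩ hx
    simp only [hP, Finset.mem_filter, Finset.mem_product, Finset.mem_range] at hx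
    obtain ⟨⟨h1, h2⟩, h3⟩ := hx
    have h4 : h + 1 - ν v = i := by
      rw [← h3]; exact depth_pathNode (by omega)
    refine ⟨t, ?_, ?_⟩
    · simp only [Finset.mem_filter, Finset.mem_range]
      rw [h4]
      exact ⟨h2, h3⟩
    · simp [h4]

/-! ### Mixing: the selected line of a block -/

/-- The leaf index with the top bits of `t` and the low `h - d` bits of `ρ`: a parametrization of the
lines of level `d`. -/
def mix (h d t ρ : ℕ) : ℕ := t / 2 ^ (h - d) * 2 ^ (h - d) + ρ % 2 ^ (h - d)

lemma mix_div (h d t ρ : ℕ) : mix h d t ρ / 2 ^ (h - d) = t / 2 ^ (h - d) := by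
  have hpos : 0 < 2 ^ (h - d) := by positivity
  unfold mix
  rw [mul_comm, Nat.mul_add_div hpos, Nat.div_eq_of_lt (Nat.mod_lt _ hpos), add_zero]

lemma mix_mod (h d t ρ : ℕ) : mix h d t ρ % 2 ^ (h - d) = ρ % 2 ^ (h - d) := by
  unfold mix
  rw [Nat.mul_add_mod_self_right, Nat.mod_mod]

lemma pathNode_mix {h d : ℕ} (hd : d ≤ h) (t ρ : ℕ) :
    pathNode h (mix h d t ρ) d = pathNode h t d := by
  rw [pathNode_of_le hd, pathNode_of_le hd, mix_div]

lemma mix_lt {h d t ρ : ℕ} (hd : d ≤ h) (ht : t < 2 ^ h) : mix h d t ρ < 2 ^ h := by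
  have hpos : 0 < 2 ^ (h - d) := by positivity
  have hpow : 2 ^ h = 2 ^ d * 2 ^ (h - d) := by
    rw [← pow_add]; congr 1; omega
  have h1 : t / 2 ^ (h - d) < 2 ^ d := by
    apply Nat.div_lt_of_lt_mul
    rw [mul_comm, ← hpow]
    exact ht
  have h2 := Nat.mod_lt ρ hpos
  unfold mix
  calc t / 2 ^ (h - d) * 2 ^ (h - d) + ρ % 2 ^ (h - d)
      < t / 2 ^ (h - d) * 2 ^ (h - d) + 2 ^ (h - d) := by omega
    _ = (t / 2 ^ (h - d) + 1) * 2 ^ (h - d) := by ring
    _ ≤ 2 ^ d * 2 ^ (h - d) := Nat.mul_le_mul_right _ h1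
    _ = 2 ^ h := hpow.symm

/-- Each line of level `d` is selected by at most `2^h` of the pairs `(t, ρ)`. -/
theorem card_mix_le {h d : ℕ} (hd : d ≤ h) (x : ℕ) :
    ((Finset.range (2 ^ h) ×ˢ Finset.range (2 ^ h)).filter
      (fun p : ℕ × ℕ => mix h d p.1 p.2 = x)).card ≤ 2 ^ h := by
  classical
  have hpos : 0 < 2 ^ (h - d) := by positivity
  have hpow : 2 ^ h = 2 ^ d * 2 ^ (h - d) := by
    rw [← pow_add]; congr 1; omega
  -- the filter sits in a product
  have hsub : (Finset.range (2 ^ h) ×ˢ Finset.range (2 ^ h)).filter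
      (fun p : ℕ × ℕ => mix h d p.1 p.2 = x) ⊆
      ((Finset.range (2 ^ h)).filter (fun t => t / 2 ^ (h - d) = x / 2 ^ (h - d))) ×ˢ
      ((Finset.range (2 ^ h)).filter (fun ρ => ρ % 2 ^ (h - d) = x % 2 ^ (h - d))) := by
    rintro ⟨t, ρ⟩ hp
    simp only [Finset.mem_filter, Finset.mem_product, Finset.mem_range] at hp ⊢
    obtain ⟨⟨h1, h2⟩, h3⟩ := hp
    refine ⟨⟨h1, ?_⟩, ⟨h2, ?_⟩⟩
    · rw [← h3, mix_div]
    · rw [← h3, mix_mod]
  refine (Finset.card_le_card hsub).trans ?_
  rw [Finset.card_product]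
  -- first factor
  have hc1 : ((Finset.range (2 ^ h)).filter (fun t => t / 2 ^ (h - d) = x / 2 ^ (h - d))).card ≤
      2 ^ (h - d) := by
    by_cases hm : x / 2 ^ (h - d) < 2 ^ d
    · exact (card_path_fiber hd hm).le
    · have : (Finset.range (2 ^ h)).filter (fun t => t / 2 ^ (h - d) = x / 2 ^ (h - d)) = ∅ := by
        apply Finset.filter_eq_empty_iff.2
        intro t ht h1
        apply hm
        rw [← h1]
        apply Nat.div_lt_of_lt_mul
        rw [mul_comm, ← hpow]
        exact Finset.mem_range.1 ht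
      rw [this]
      simp
  -- second factor
  have hc2 : ((Finset.range (2 ^ h)).filter (fun ρ => ρ % 2 ^ (h - d) = x % 2 ^ (h - d))).card ≤
      2 ^ d := by
    have hinj : Set.InjOn (fun ρ => ρ / 2 ^ (h - d))
        (↑((Finset.range (2 ^ h)).filter (fun ρ => ρ % 2 ^ (h - d) = x % 2 ^ (h - d))) : Set ℕ) := by
      intro a ha b hb hab
      have ha' : a % 2 ^ (h - d) = x % 2 ^ (h - d) := (Finset.mem_filter.1 ha).2
      have hb' : b % 2 ^ (h - d) = x % 2 ^ (h - d) := (Finset.mem_filter.1 hb).2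
      have hab' : a / 2 ^ (h - d) = b / 2 ^ (h - d) := hab
      rw [← Nat.div_add_mod a (2 ^ (h - d)), ← Nat.div_add_mod b (2 ^ (h - d)), hab', ha', hb']
    have hmaps : ∀ ρ ∈ (Finset.range (2 ^ h)).filter (fun ρ => ρ % 2 ^ (h - d) = x % 2 ^ (h - d)),
        ρ / 2 ^ (h - d) ∈ Finset.range (2 ^ d) := by
      intro ρ hρ
      have := Finset.mem_range.1 (Finset.mem_filter.1 hρ).1
      apply Finset.mem_range.2
      apply Nat.div_lt_of_lt_mul
      rw [mul_comm, ← hpow]
      exact this
    have := Finset.card_le_card_of_injOn _ hmaps hinj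
    simpa using this
  calc _ ≤ 2 ^ (h - d) * 2 ^ d := Nat.mul_le_mul hc1 hc2
    _ = 2 ^ h := by rw [hpow]; ring

end S66.Tree
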