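/-
Row 47 (S0066): the frame system of finding #684 (helper83).

Core rows `RC h = WithBot (Node h)` (`⊥ = a`), core columns `CC h = WithTop (Node h)` (`⊤ = b`).
`lev` : `a, b ↦ 0`, node of depth `d ↦ d + 1`; i.e. node at `k ↦ h + 2 - ν k`.
A letter set is `{lev = c}` or `{lev ≥ c}`.  A frame is a quadruple of letter sets.
-/
import Crest.Agent.Lib.S66.TreePath

set_option autoImplicit false

namespace S66.Frames

open S66.Tree

/-! ### Nodes -/

/-- Nodes of the core tree. -/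
abbrev Node (h : ℕ) := {k : ℕ // IsNode h k}

instance (h : ℕ) : Fintype (Node h) :=
  Fintype.subtype (nodes h) (fun _ => mem_nodes)

/-- Core rows: the group `a` (`⊥`), then the nodes by position. -/
abbrev RC (h : ℕ) := WithBot (Node h)

/-- Core columns: the nodes by position, then the group `b` (`⊤`). -/
abbrev CC (h : ℕ) := WithTop (Node h)

/-- `a`. -/
def a (h : ℕ) : RC h := ⊥
/-- `b`. -/
def b (h : ℕ) : CC h := ⊤

/-- Level of a node position. -/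
def levN (h k : ℕ) : ℕ := h + 2 - ν k

lemma levN_pos {h k : ℕ} (hk : IsNode h k) : 1 ≤ levN h k := by
  have := hk.ν_le
  unfold levN; omega

/-- Level of a core row. -/
def levR (h : ℕ) : RC h → ℕ
  | ⊥ => 0
  | (k : Node h) => levN h k.1

/-- Level of a core column. -/
def levC (h : ℕ) : CC h → ℕ
  | ⊤ => 0
  | (k : Node h) => levN h k.1

/-- The core table `M`. -/
def M (h : ℕ) : RC h → CC h → Bool
  | ⊥, ⊤ => true
  | ⊥, (_ : Node h) => false
  | (_ : Node h), ⊤ => false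
  | (u : Node h), (w : Node h) => decide (Cmp u.1 w.1)

@[simp] lemma M_a_b (h : ℕ) : M h ⊥ ⊤ = true := rfl
@[simp] lemma M_a_node (h : ℕ) (w : Node h) : M h ⊥ (w : CC h) = false := rfl
@[simp] lemma M_node_b (h : ℕ) (u : Node h) : M h (u : RC h) ⊤ = false := rfl
@[simp] lemma M_node_node (h : ℕ) (u w : Node h) :
    M h (u : RC h) (w : CC h) = decide (Cmp u.1 w.1) := rfl

/-! ### Letter sets -/

/-- Letter sets `{lev = c}` and `{lev ≥ c}`. -/
inductive LSet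
  | eq (c : ℕ)
  | ge (c : ℕ)
  deriving DecidableEq

/-- Membership of a level in a letter set. -/
def LSet.Mem : LSet → ℕ → Prop
  | .eq c, l => l = c
  | .ge c, l => c ≤ l

instance (D : LSet) (l : ℕ) : Decidable (D.Mem l) := by
  cases D <;> unfold LSet.Mem <;> infer_instance

/-- **No cross**: two letter sets cannot separate three lines as in `Q_Y`, `Q_X`:
`l₁, l₂ ∈ D₁ ∌ l₃`, `l₁, l₃ ∈ D₂ ∌ l₂` is impossible. -/
theorem LSet.no_cross {D₁ D₂ : LSet} {l₁ l₂ l₃ : ℕ}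
    (h1 : D₁.Mem l₁) (h2 : D₁.Mem l₂) (h3 : ¬ D₁.Mem l₃)
    (h4 : D₂.Mem l₁) (h5 : D₂.Mem l₃) (h6 : ¬ D₂.Mem l₂) : False := by
  cases D₁ <;> cases D₂ <;> simp only [LSet.Mem] at * <;> omega

/-! ### Frames -/

/-- A frame: four letter sets `(R₁, R₂; C₁, C₂)`. -/
structure Frame where
  R1 : LSet
  R2 : LSet
  C1 : LSet
  C2 : LSet
  deriving DecidableEq

/-- `W1_t = (Y_{t+1}, Y_t; X_{>t+1}, X_t)`. -/
def W1 (t : ℕ) : Frame := ⟨.eq (t + 2), .eq (t + 1), .ge (t + 3), .eq (t + 1)⟩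
/-- `W2_t = (Y_t, Y_{t+1}; X_t, X_{>t+1})`. -/
def W2 (t : ℕ) : Frame := ⟨.eq (t + 1), .eq (t + 2), .eq (t + 1), .ge (t + 3)⟩
/-- `W3_t = (Y_{>t+1}, Y_t; X_{t+1}, X_t)`. -/
def W3 (t : ℕ) : Frame := ⟨.ge (t + 3), .eq (t + 1), .eq (t + 2), .eq (t + 1)⟩
/-- `W4_t = (Y_t, Y_{>t+1}; X_t, X_{t+1})`. -/
def W4 (t : ℕ) : Frame := ⟨.eq (t + 1), .ge (t + 3), .eq (t + 1), .eq (t + 2)⟩
/-- `Z_l = ({a}, Y_l; X_l, {b})`. -/
def Z (l : ℕ) : Frame := ⟨.eq 0, .eq (l + 1), .eq (l + 1), .eq 0⟩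
/-- `C = (Y_h, Y_{h+1}; X_h, X_{h+1})`. -/
def CF (h : ℕ) : Frame := ⟨.eq (h + 1), .eq (h + 2), .eq (h + 1), .eq (h + 2)⟩

/-- The number of frames. -/
abbrev K (h : ℕ) : ℕ := 5 * h + 2

/-- The frame with index `f`: `W1_t,…,W4_t` for `f = 4t + i < 4h`, then `Z_1,…,Z_{h+1}`, then
`C`. -/
def frameOf (h f : ℕ) : Frame :=
  if f < 4 * h then
    match f % 4 with
    | 0 => W1 (f / 4)
    | 1 => W2 (f / 4)
    | 2 => W3 (f / 4)
    | _ => W4 (f / 4)
  else if f < 5 * h + 1 then Z (f - 4 * h + 1)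
  else CF h

lemma frameOf_W1 {h t : ℕ} (ht : t < h) : frameOf h (4 * t) = W1 t := by
  have h1 : 4 * t < 4 * h := by omega
  have h2 : 4 * t % 4 = 0 := by omega
  have h3 : 4 * t / 4 = t := by omega
  simp [frameOf, h1, h2, h3]

lemma frameOf_W2 {h t : ℕ} (ht : t < h) : frameOf h (4 * t + 1) = W2 t := by
  have h1 : 4 * t + 1 < 4 * h := by omega
  have h2 : (4 * t + 1) % 4 = 1 := by omega
  have h3 : (4 * t + 1) / 4 = t := by omega
  simp [frameOf, h1, h2, h3]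

lemma frameOf_W3 {h t : ℕ} (ht : t < h) : frameOf h (4 * t + 2) = W3 t := by
  have h1 : 4 * t + 2 < 4 * h := by omega
  have h2 : (4 * t + 2) % 4 = 2 := by omega
  have h3 : (4 * t + 2) / 4 = t := by omega
  simp [frameOf, h1, h2, h3]

lemma frameOf_W4 {h t : ℕ} (ht : t < h) : frameOf h (4 * t + 3) = W4 t := by
  have h1 : 4 * t + 3 < 4 * h := by omega
  have h2 : (4 * t + 3) % 4 = 3 := by omega
  have h3 : (4 * t + 3) / 4 = t := by omega
  simp [frameOf, h1, h2, h3]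

lemma frameOf_Z {h l : ℕ} (hl : 1 ≤ l) (hl' : l ≤ h + 1) :
    frameOf h (4 * h + (l - 1)) = Z l := by
  have h1 : ¬ 4 * h + (l - 1) < 4 * h := by omega
  have h2 : 4 * h + (l - 1) < 5 * h + 1 := by omega
  have h3 : 4 * h + (l - 1) - 4 * h + 1 = l := by omega
  rw [frameOf, if_neg h1, if_pos h2, h3]

lemma frameOf_CF (h : ℕ) : frameOf h (5 * h + 1) = CF h := by
  have h1 : ¬ 5 * h + 1 < 4 * h := by omega
  rw [frameOf, if_neg h1, if_neg (by omega)]

/-- Case analysis of the frames. -/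
lemma frameOf_cases (h f : ℕ) (hf : f < K h) :
    (∃ t, t < h ∧ frameOf h f = W1 t) ∨ (∃ t, t < h ∧ frameOf h f = W2 t) ∨
    (∃ t, t < h ∧ frameOf h f = W3 t) ∨ (∃ t, t < h ∧ frameOf h f = W4 t) ∨
    (∃ l, 1 ≤ l ∧ l ≤ h + 1 ∧ frameOf h f = Z l) ∨ (f = 5 * h + 1 ∧ frameOf h f = CF h) := by
  by_cases h1 : f < 4 * h
  · have h2 : f % 4 = 0 ∨ f % 4 = 1 ∨ f % 4 = 2 ∨ f % 4 = 3 := by omega
    have ht : f / 4 < h := by omega
    rcases h2 with h2 | h2 | h2 | h2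
    · left; refine ⟨f / 4, ht, ?_⟩; simp [frameOf, h1, h2]
    · right; left; refine ⟨f / 4, ht, ?_⟩; simp [frameOf, h1, h2]
    · right; right; left; refine ⟨f / 4, ht, ?_⟩; simp [frameOf, h1, h2]
    · right; right; right; left; refine ⟨f / 4, ht, ?_⟩; simp [frameOf, h1, h2]
  · by_cases h2 : f < 5 * h + 1
    · right; right; right; right; left
      exact ⟨f - 4 * h + 1, by omega, by omega, by simp [frameOf, h1, h2]⟩
    · right; right; right; right; right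
      have : f = 5 * h + 1 := by unfold K at hf; omega
      exact ⟨this, by simp [frameOf, h1, h2]⟩

/-- In every frame the row letter sets are disjoint and the column letter sets are disjoint. -/
lemma frameOf_disj (h f : ℕ) (hf : f < K h) (l : ℕ) :
    (¬ ((frameOf h f).R1.Mem l ∧ (frameOf h f).R2.Mem l)) ∧
    (¬ ((frameOf h f).C1.Mem l ∧ (frameOf h f).C2.Mem l)) := by
  rcases frameOf_cases h f hf with ⟨t, _, e⟩ | ⟨t, _, e⟩ | ⟨t, _, e⟩ | ⟨t, _, e⟩ | ⟨t, _, _, e⟩ | ⟨_, e⟩ <;>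
    rw [e] <;> simp only [W1, W2, W3, W4, Z, CF, LSet.Mem] <;> omega

/-! ### Product analysis -/

/-- The arithmetic heart of product analysis in the frames `W1`–`W4`. -/
lemma core_contra {X Y r c : ℕ} (hX : X ≠ 0) (hY : Y ≠ 0) (hr : r ≠ 0) (hc : c ≠ 0)
    (hXY : ν X = ν Y) (hAr : Anc X r) (hAc : Anc Y c)
    (side : (r < Y ∧ c < X) ∨ (Y < r ∧ X < c))
    (hν : (ν r + 1 = ν X ∧ ν c < ν r) ∨ (ν c + 1 = ν X ∧ ν r < ν c)) :
    Cmp r c := by
  -- step 1: `X = Y`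
  have hXeqY : X = Y := by
    rcases lt_trichotomy X Y with hlt | he | hlt
    · exfalso
      rcases side with ⟨h1, h2⟩ | ⟨h1, h2⟩
      · have := Anc.between hY hX hAc (Or.inr ⟨h2, hlt⟩)
        exact not_anc_of_same_val hXY.symm this
      · have := Anc.between hX hY hAr (Or.inl ⟨hlt, h1⟩)
        exact not_anc_of_same_val hXY this
    · exact he
    · exfalso
      rcases side with ⟨h1, h2⟩ | ⟨h1, h2⟩
      · have := Anc.between hX hY hAr (Or.inr ⟨h1, hlt⟩)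
        exact not_anc_of_same_val hXY this
      · have := Anc.between hY hX hAc (Or.inl ⟨hlt, h2⟩)
        exact not_anc_of_same_val hXY.symm this
  subst hXeqY
  have hs1 : (r < X ∧ c < X) ∨ (X < r ∧ X < c) := side
  rcases hν with ⟨h1, h2⟩ | ⟨h1, h2⟩
  · exact Or.inl (Anc.of_child hX hr h1 hAr hAc h2 hs1)
  · refine Or.inr (Anc.of_child hX hc h1 hAc hAr h2 ?_)
    rcases hs1 with ⟨a1, a2⟩ | ⟨a1, a2⟩
    · exact Or.inl ⟨a2, a1⟩
    · exact Or.inr ⟨a2, a1⟩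

lemma anc_of_cmp_of_val {u w : ℕ} (hc : Cmp u w) (hv : ν w < ν u) : Anc u w := by
  rcases hc with h | h
  · exact h
  · exact absurd h.1 (by omega)

/-- Positions are determined through `levN`. -/
lemma ν_eq_of_levN {h k c : ℕ} (hk : IsNode h k) (hl : levN h k = c) : ν k + c = h + 2 := by
  have := hk.ν_le
  unfold levN at hl
  omega

/-- **Product analysis, node form**: frames `W1`–`W4` have no solution. -/
lemma no_solution_W {h t : ℕ} {y1 y2 x1 x2 : Node h}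
    {F : Frame} (hF : F = W1 t ∨ F = W2 t ∨ F = W3 t ∨ F = W4 t)
    (hy1 : F.R1.Mem (levN h y1.1)) (hy2 : F.R2.Mem (levN h y2.1))
    (hx1 : F.C1.Mem (levN h x1.1)) (hx2 : F.C2.Mem (levN h x2.1))
    (hy : y1.1 < y2.1) (hx : x1.1 < x2.1)
    (h11 : ¬ Cmp y1.1 x1.1) (h12 : Cmp y1.1 x2.1) (h21 : Cmp y2.1 x1.1) (h22 : ¬ Cmp y2.1 x2.1) :
    False := by
  have vy1 := y1.2.ν_le
  have vy2 := y2.2.ν_le
  have vx1 := x1.2.ν_le
  have vx2 := x2.2.ν_le
  rcases hF with rfl | rfl | rfl | rfl <;>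
    simp only [W1, W2, W3, W4, LSet.Mem, levN] at hy1 hy2 hx1 hx2
  · -- W1: y1 = r, y2 = Y, x1 = c, x2 = X
    have hA1 : Anc x2.1 y1.1 := anc_of_cmp_of_val h12.symm (by omega)
    have hA2 : Anc y2.1 x1.1 := anc_of_cmp_of_val h21 (by omega)
    exact h11 (core_contra x2.2.ne_zero y2.2.ne_zero y1.2.ne_zero x1.2.ne_zero (by omega) hA1 hA2 (Or.inl ⟨hy, hx⟩)
      (Or.inl ⟨by omega, by omega⟩))
  · -- W2: y1 = Y, y2 = r, x1 = X, x2 = c
    have hA1 : Anc x1.1 y2.1 := anc_of_cmp_of_val h21.symm (by omega)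
    have hA2 : Anc y1.1 x2.1 := anc_of_cmp_of_val h12 (by omega)
    exact h22 (core_contra x1.2.ne_zero y1.2.ne_zero y2.2.ne_zero x2.2.ne_zero (by omega) hA1 hA2 (Or.inr ⟨hy, hx⟩)
      (Or.inl ⟨by omega, by omega⟩))
  · -- W3: y1 = r (deep), y2 = Y, x1 = c (child), x2 = X
    have hA1 : Anc x2.1 y1.1 := anc_of_cmp_of_val h12.symm (by omega)
    have hA2 : Anc y2.1 x1.1 := anc_of_cmp_of_val h21 (by omega)
    exact h11 (core_contra x2.2.ne_zero y2.2.ne_zero y1.2.ne_zero x1.2.ne_zero (by omega) hA1 hA2 (Or.inl ⟨hy, hx⟩)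
      (Or.inr ⟨by omega, by omega⟩))
  · -- W4
    have hA1 : Anc x1.1 y2.1 := anc_of_cmp_of_val h21.symm (by omega)
    have hA2 : Anc y1.1 x2.1 := anc_of_cmp_of_val h12 (by omega)
    exact h22 (core_contra x1.2.ne_zero y1.2.ne_zero y2.2.ne_zero x2.2.ne_zero (by omega) hA1 hA2 (Or.inr ⟨hy, hx⟩)
      (Or.inr ⟨by omega, by omega⟩))

/-! ### The leaf lines -/

lemma ν_L1 (t : ℕ) : ν (4 * t + 2) = 1 := by
  have := ν_mk 1 t
  rwa [show 2 ^ 1 * (2 * t + 1) = 4 * t + 2 by ring] at this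

lemma ν_L2 (t : ℕ) : ν (4 * t + 3) = 0 := by
  have := ν_mk 0 (2 * t + 1)
  rwa [show 2 ^ 0 * (2 * (2 * t + 1) + 1) = 4 * t + 3 by ring] at this

lemma valid_L1 {h t : ℕ} (ht : t < 2 ^ h) : IsNode h (4 * t + 2) := by
  refine ⟨by omega, ?_, fun h0 => ?_⟩
  · have : 2 ^ (h + 2) = 4 * 2 ^ h := by rw [pow_add]; ring
    omega
  · rw [ν_L1] at h0; omega

lemma valid_L2 {h t : ℕ} (ht : t < 2 ^ h) : IsNode h (4 * t + 3) := by
  refine ⟨by omega, ?_, fun _ => by omega⟩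
  have : 2 ^ (h + 2) = 4 * 2 ^ h := by rw [pow_add]; ring
  omega

/-- The node of depth `h` of leaf `t`. -/
def L1 {h : ℕ} (t : Fin (2 ^ h)) : Node h := ⟨4 * t.1 + 2, valid_L1 t.2⟩
/-- The node of depth `h + 1` of leaf `t` (the right child of `L1 t`). -/
def L2 {h : ℕ} (t : Fin (2 ^ h)) : Node h := ⟨4 * t.1 + 3, valid_L2 t.2⟩

lemma L1_lt_L2 {h : ℕ} (t : Fin (2 ^ h)) : L1 t < L2 t := by
  show 4 * t.1 + 2 < 4 * t.1 + 3
  omega

lemma levN_L1 {h : ℕ} (t : ℕ) : levN h (4 * t + 2) = h + 1 := by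
  unfold levN; rw [ν_L1]; omega

lemma levN_L2 {h : ℕ} (t : ℕ) : levN h (4 * t + 3) = h + 2 := by
  unfold levN; rw [ν_L2]; omega

/-- A valid position of valuation one is of the form `4 t + 2`, `t < 2 ^ h`. -/
lemma eq_L1_of_ν {h k : ℕ} (hk : IsNode h k) (hν : ν k = 1) :
    ∃ t, t < 2 ^ h ∧ k = 4 * t + 2 := by
  obtain ⟨m, hm⟩ := rep hk.ne_zero
  rw [hν] at hm
  refine ⟨m, ?_, by rw [hm]; ring⟩
  have h2 := hk.2.1
  have : 2 ^ (h + 2) = 4 * 2 ^ h := by rw [pow_add]; ring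
  omega

/-- **Frame `C`**: if `y₁, x₁` have valuation one, `y₂, x₂` valuation zero, `y₁ < y₂`, `x₁ < x₂` and
`y₁ ~ x₂`, `y₂ ~ x₁`, then all come from one leaf. -/
lemma leaf_of_CF {h y1 y2 x1 x2 : ℕ} (v1 : IsNode h y1) (v2 : IsNode h y2) (v3 : IsNode h x1)
    (v4 : IsNode h x2) (h1 : ν y1 = 1) (h2 : ν y2 = 0) (h3 : ν x1 = 1) (h4 : ν x2 = 0)
    (hy : y1 < y2) (hx : x1 < x2) (h12 : Cmp y1 x2) (h21 : Cmp y2 x1) :
    ∃ t, t < 2 ^ h ∧ y1 = 4 * t + 2 ∧ x1 = 4 * t + 2 ∧ y2 = 4 * t + 3 ∧ x2 = 4 * t + 3 := by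
  obtain ⟨t, ht, rfl⟩ := eq_L1_of_ν v1 h1
  obtain ⟨t', _, rfl⟩ := eq_L1_of_ν v3 h3
  have hm1 := v2.2.2 h2
  have hm2 := v4.2.2 h4
  have hA1 : Anc (4 * t + 2) x2 := anc_of_cmp_of_val h12 (by omega)
  have hA2 : Anc (4 * t' + 2) y2 := anc_of_cmp_of_val h21.symm (by omega)
  have b1 := hA1.2.1
  have b2 := hA1.2.2
  have b3 := hA2.2.1
  have b4 := hA2.2.2
  rw [h1] at b1 b2
  rw [h3] at b3 b4
  norm_num at b1 b2 b3 b4
  refine ⟨t, ht, rfl, ?_, ?_, ?_⟩ <;> omega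

/-! ### Product analysis -/

/-- A level `≠ 0` of a core row is a node. -/
lemma exists_node_of_levR {h : ℕ} {r : RC h} (hl : levR h r ≠ 0) : ∃ u : Node h, r = (u : RC h) := by
  cases r using WithBot.recBotCoe with
  | bot => exact absurd rfl hl
  | coe u => exact ⟨u, rfl⟩

/-- A level `≠ 0` of a core column is a node. -/
lemma exists_node_of_levC {h : ℕ} {c : CC h} (hl : levC h c ≠ 0) : ∃ u : Node h, c = (u : CC h) := by
  cases c using WithTop.recTopCoe with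
  | top => exact absurd rfl hl
  | coe u => exact ⟨u, rfl⟩

/-- **Product analysis**: among all frames only `C` has solutions, and these come from a single
leaf. -/
theorem product {h f : ℕ} (hf : f < K h) {y1 y2 : RC h} {x1 x2 : CC h}
    (hy1 : (frameOf h f).R1.Mem (levR h y1)) (hy2 : (frameOf h f).R2.Mem (levR h y2))
    (hx1 : (frameOf h f).C1.Mem (levC h x1)) (hx2 : (frameOf h f).C2.Mem (levC h x2))
    (hy : y1 < y2) (hx : x1 < x2)
    (h11 : M h y1 x1 = false) (h12 : M h y1 x2 = true)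
    (h21 : M h y2 x1 = true) (h22 : M h y2 x2 = false) :
    f = 5 * h + 1 ∧ ∃ t : Fin (2 ^ h), y1 = (L1 t : RC h) ∧ y2 = (L2 t : RC h) ∧
      x1 = (L1 t : CC h) ∧ x2 = (L2 t : CC h) := by
  -- all frames except the `Z` have only node letters
  have hW : ∀ t, (frameOf h f = W1 t ∨ frameOf h f = W2 t ∨ frameOf h f = W3 t ∨
      frameOf h f = W4 t) → False := by
    intro t hF
    have hl : levR h y1 ≠ 0 ∧ levR h y2 ≠ 0 ∧ levC h x1 ≠ 0 ∧ levC h x2 ≠ 0 := by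
      rcases hF with e | e | e | e <;> rw [e] at hy1 hy2 hx1 hx2 <;>
        simp only [W1, W2, W3, W4, LSet.Mem] at hy1 hy2 hx1 hx2 <;> omega
    obtain ⟨u1, rfl⟩ := exists_node_of_levR hl.1
    obtain ⟨u2, rfl⟩ := exists_node_of_levR hl.2.1
    obtain ⟨w1, rfl⟩ := exists_node_of_levC hl.2.2.1
    obtain ⟨w2, rfl⟩ := exists_node_of_levC hl.2.2.2
    have hy' : u1.1 < u2.1 := by exact_mod_cast hy
    have hx' : w1.1 < w2.1 := by exact_mod_cast hx
    simp only [M_node_node, decide_eq_true_eq, decide_eq_false_iff_not] at h11 h12 h21 h22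
    exact no_solution_W hF hy1 hy2 hx1 hx2 hy' hx' h11 h12 h21 h22
  rcases frameOf_cases h f hf with ⟨t, _, e⟩ | ⟨t, _, e⟩ | ⟨t, _, e⟩ | ⟨t, _, e⟩ | ⟨l, _, _, e⟩ | ⟨ef, e⟩
  · exact (hW t (Or.inl e)).elim
  · exact (hW t (Or.inr (Or.inl e))).elim
  · exact (hW t (Or.inr (Or.inr (Or.inl e)))).elim
  · exact (hW t (Or.inr (Or.inr (Or.inr e)))).elim
  · -- `Z_l`: the lower-left corner has two nodes of the same level
    exfalso
    rw [e] at hy2 hx1
    simp only [Z, LSet.Mem] at hy2 hx1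
    obtain ⟨u2, rfl⟩ := exists_node_of_levR (r := y2) (by omega)
    obtain ⟨w1, rfl⟩ := exists_node_of_levC (c := x1) (by omega)
    simp only [M_node_node, decide_eq_true_eq] at h21
    have e1 := ν_eq_of_levN u2.2 hy2
    have e2 := ν_eq_of_levN w1.2 hx1
    exact not_cmp_of_same_val (by omega) h21
  · refine ⟨ef, ?_⟩
    rw [e] at hy1 hy2 hx1 hx2
    simp only [CF, LSet.Mem] at hy1 hy2 hx1 hx2
    obtain ⟨u1, rfl⟩ := exists_node_of_levR (r := y1) (by omega)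
    obtain ⟨u2, rfl⟩ := exists_node_of_levR (r := y2) (by omega)
    obtain ⟨w1, rfl⟩ := exists_node_of_levC (c := x1) (by omega)
    obtain ⟨w2, rfl⟩ := exists_node_of_levC (c := x2) (by omega)
    have hy' : u1.1 < u2.1 := by exact_mod_cast hy
    have hx' : w1.1 < w2.1 := by exact_mod_cast hx
    simp only [M_node_node, decide_eq_true_eq] at h12 h21
    have e1 := ν_eq_of_levN u1.2 hy1
    have e2 := ν_eq_of_levN u2.2 hy2
    have e3 := ν_eq_of_levN w1.2 hx1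
    have e4 := ν_eq_of_levN w2.2 hx2
    obtain ⟨t, ht, a1, a2, a3, a4⟩ := leaf_of_CF u1.2 u2.2 w1.2 w2.2 (by omega) (by omega)
      (by omega) (by omega) hy' hx' h12 h21
    refine ⟨⟨t, ht⟩, ?_, ?_, ?_, ?_⟩
    · exact congrArg _ (Subtype.ext a1)
    · exact congrArg _ (Subtype.ext a3)
    · exact congrArg _ (Subtype.ext a2)
    · exact congrArg _ (Subtype.ext a4)

/-! ### No plus pattern -/

/-- **Plus lemma** for the core table including `a`, `b`. -/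
theorem no_plus {h : ℕ} {r1 r2 r3 : RC h} {c1 c2 c3 : CC h} (hr12 : r1 < r2) (hr23 : r2 < r3)
    (hc12 : c1 < c2) (hc23 : c2 < c3)
    (p12 : M h r1 c2 = true) (p21 : M h r2 c1 = true) (p22 : M h r2 c2 = true)
    (p23 : M h r2 c3 = true) (p32 : M h r3 c2 = true)
    (n11 : M h r1 c1 = false) (n13 : M h r1 c3 = false) (n31 : M h r3 c1 = false)
    (n33 : M h r3 c3 = false) : False := by
  -- `r₂, r₃` are nodes
  obtain ⟨u2, rfl⟩ : ∃ u : Node h, r2 = (u : RC h) := by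
    cases r2 using WithBot.recBotCoe with
    | bot => exact absurd hr12 (by simp)
    | coe u => exact ⟨u, rfl⟩
  obtain ⟨u3, rfl⟩ : ∃ u : Node h, r3 = (u : RC h) := by
    cases r3 using WithBot.recBotCoe with
    | bot => exact absurd hr23 (by simp)
    | coe u => exact ⟨u, rfl⟩
  obtain ⟨w1, rfl⟩ : ∃ u : Node h, c1 = (u : CC h) := by
    cases c1 using WithTop.recTopCoe with
    | top => exact absurd hc12 (by simp)
    | coe u => exact ⟨u, rfl⟩
  obtain ⟨w2, rfl⟩ : ∃ u : Node h, c2 = (u : CC h) := by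
    cases c2 using WithTop.recTopCoe with
    | top => exact absurd hc23 (by simp)
    | coe u => exact ⟨u, rfl⟩
  -- `r₁` is a node: else `M a c₂ = 0`
  obtain ⟨u1, rfl⟩ : ∃ u : Node h, r1 = (u : RC h) := by
    cases r1 using WithBot.recBotCoe with
    | bot => simp at p12
    | coe u => exact ⟨u, rfl⟩
  -- `c₃` is a node: else `M r₂ b = 0`
  obtain ⟨w3, rfl⟩ : ∃ u : Node h, c3 = (u : CC h) := by
    cases c3 using WithTop.recTopCoe with
    | top => simp at p23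
    | coe u => exact ⟨u, rfl⟩
  simp only [M_node_node, decide_eq_true_eq, decide_eq_false_iff_not] at *
  have hu12 : u1.1 < u2.1 := by exact_mod_cast hr12
  have hu23 : u2.1 < u3.1 := by exact_mod_cast hr23
  have hw12 : w1.1 < w2.1 := by exact_mod_cast hc12
  have hw23 : w2.1 < w3.1 := by exact_mod_cast hc23
  exact plus_impossible u1.2.ne_zero u2.2.ne_zero u3.2.ne_zero w1.2.ne_zero w2.2.ne_zero
    w3.2.ne_zero hu12 hu23 hw12 hw23
    p12 p21 p22 p23 p32 n11 n13 n31 n33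

end S66.Frames
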