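import Mathlib
import Crest.Prelude.Def_OrderedMatrix

/-!
# S0066 (row 47): generic blow-up layout

`G` is a finite linear order of *groups*, `s g` the number of lines of the group `g`, and
`∑ g, s g = n`.  Lines are `Fin n`, with the groups laid out in increasing order.
-/

set_option autoImplicit false

open Crest.CombinatoricsR

namespace S66.Layout

variable {G : Type*} [LinearOrder G] [Fintype G] {s : G → ℕ} {n : ℕ}

/-- The order isomorphism between `Fin n` and the lexicographic sum of the groups. -/
noncomputable def lineIso (hs : ∑ g, s g = n) : Fin n ≃o (Σₗ g : G, Fin (s g)) :=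
  Fintype.orderIsoFinOfCardEq _ (by
    have : Fintype.card (Σₗ g : G, Fin (s g)) = Fintype.card (Σ g : G, Fin (s g)) := rfl
    rw [this, Fintype.card_sigma]
    simpa using hs)

/-- The group of a line. -/
noncomputable def grp (hs : ∑ g, s g = n) (i : Fin n) : G := (ofLex (lineIso hs i)).1

/-- The line number `ρ` of the group `g`. -/
noncomputable def sel (hs : ∑ g, s g = n) (g : G) (ρ : Fin (s g)) : Fin n :=
  (lineIso hs).symm (toLex ⟨g, ρ⟩)

theorem grp_mono (hs : ∑ g, s g = n) : Monotone (grp hs) := by
  intro i j hij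
  have h : lineIso hs i ≤ lineIso hs j := (lineIso hs).monotone hij
  rcases (Sigma.Lex.le_def.1 h) with h | ⟨h, _⟩
  · exact le_of_lt h
  · exact le_of_eq h

@[simp] theorem grp_sel (hs : ∑ g, s g = n) (g : G) (ρ : Fin (s g)) : grp hs (sel hs g ρ) = g := by
  simp [grp, sel]

/-- Every line is a selected line of its group. -/
theorem exists_sel (hs : ∑ g, s g = n) (i : Fin n) :
    ∃ ρ : Fin (s (grp hs i)), sel hs (grp hs i) ρ = i := by
  refine ⟨(ofLex (lineIso hs i)).2, ?_⟩
  apply (lineIso hs).injective
  simp only [sel, OrderIso.apply_symm_apply]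
  rfl

theorem sel_injective (hs : ∑ g, s g = n) (g : G) : Function.Injective (sel hs g) := by
  intro ρ ρ' h
  have := (lineIso hs).symm.injective h
  simpa using this

/-- Two lines of one group are comparable as their numbers. -/
theorem sel_lt_sel_same (hs : ∑ g, s g = n) (g : G) {ρ ρ' : Fin (s g)} (h : ρ < ρ') :
    sel hs g ρ < sel hs g ρ' := by
  apply (lineIso hs).symm.strictMono
  exact Sigma.Lex.lt_def.2 (Or.inr ⟨rfl, h⟩)

/-- Lines of a smaller group come first. -/
theorem sel_lt_sel (hs : ∑ g, s g = n) {g g' : G} (h : g < g') (ρ : Fin (s g)) (ρ' : Fin (s g')) :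
    sel hs g ρ < sel hs g' ρ' := by
  apply (lineIso hs).symm.strictMono
  exact Sigma.Lex.lt_def.2 (Or.inl h)

/-- A transversal of a strictly increasing family of groups is strictly increasing. -/
theorem transversal_strictMono (hs : ∑ g, s g = n) {k : ℕ} {φ : Fin k → G} (hφ : StrictMono φ)
    (ρ : ∀ i, Fin (s (φ i))) : StrictMono (fun i => sel hs (φ i) (ρ i)) :=
  fun _ _ hij => sel_lt_sel hs (hφ hij) _ _

/-- Unpacking freeness: a host with no copy has no strictly increasing pair of maps agreeing with
the pattern. -/
theorem no_copy {k m : ℕ} {H : Fin k → Fin k → Bool} {B : Fin m → Fin m → Bool}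
    (hB : OrderedMatrix.orderedCopyCount H B = 0) {r c : Fin k → Fin m}
    (hr : StrictMono r) (hc : StrictMono c) : ¬ ∀ i j, B (r i) (c j) = H i j := by
  intro hrc
  unfold OrderedMatrix.orderedCopyCount at hB
  rw [Fintype.card_eq_zero_iff] at hB
  exact hB.false ⟨(r, c), hr, hc, hrc⟩

/-- The strictly increasing maps `Fin k → Fin m` number `m.choose k`. -/
theorem card_strictMono_le (k m : ℕ) :
    Fintype.card {r : Fin k → Fin m // StrictMono r} ≤ m.choose k := by
  classical
  have hinj : Function.Injective
      (fun r : {r : Fin k → Fin m // StrictMono r} =>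
        (⟨Finset.univ.image r.1, by
          rw [Finset.mem_powersetCard]
          refine ⟨Finset.subset_univ _, ?_⟩
          rw [Finset.card_image_of_injective _ r.2.injective]
          simp⟩ : {S // S ∈ Finset.powersetCard k (Finset.univ : Finset (Fin m))})) := by
    rintro ⟨r, hr⟩ ⟨r', hr'⟩ h
    simp only [Subtype.mk.injEq] at h
    have hrange : Set.range r = Set.range r' := by
      have := congrArg (fun S : Finset (Fin m) => (S : Set (Fin m))) h
      simpa using this
    apply Subtype.ext
    exact StrictMono.range_inj hr hr' |>.1 hrange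
  have := Fintype.card_le_of_injective _ hinj
  simpa using this

/-- A crude count of ordered copies: pairs of strictly increasing maps. -/
theorem orderedCopyCount_le_choose_sq {k m : ℕ} (H : Fin k → Fin k → Bool)
    (A : Fin m → Fin m → Bool) : OrderedMatrix.orderedCopyCount H A ≤ (m.choose k) ^ 2 := by
  classical
  unfold OrderedMatrix.orderedCopyCount
  have hinj : Function.Injective
      (fun rc : {rc : (Fin k → Fin m) × (Fin k → Fin m) //
          StrictMono rc.1 ∧ StrictMono rc.2 ∧ ∀ i j : Fin k, A (rc.1 i) (rc.2 j) = H i j} =>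
        ((⟨rc.1.1, rc.2.1⟩ : {r : Fin k → Fin m // StrictMono r}),
         (⟨rc.1.2, rc.2.2.1⟩ : {r : Fin k → Fin m // StrictMono r}))) := by
    rintro ⟨⟨r, c⟩, h⟩ ⟨⟨r', c'⟩, h'⟩ e
    simp only [Prod.mk.injEq, Subtype.mk.injEq] at e
    apply Subtype.ext
    exact Prod.ext e.1 e.2
  refine (Fintype.card_le_of_injective _ hinj).trans ?_
  rw [Fintype.card_prod, sq]
  exact Nat.mul_le_mul (card_strictMono_le _ _) (card_strictMono_le _ _)

end S66.Layout
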