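import Crest.Agent.Lib.S66.Rigid
import Crest.Agent.Lib.S66.Frames
import Crest.Agent.Lib.S66.Layout

/-!
# S0066: the concrete group-level data (design #684 section 4)

`D h` : the frame system from `Frames`; `rs h`, `cs h` : the sizes of the groups: each frame group has
`2^h` lines, the node `k` has `size k` lines, and `a`, `b` take all the padding.
-/

set_option autoImplicit false

namespace S66.Concrete

open S66.Tree S66.Frames S66.Rigid

/-- The frame system. -/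
def D (h : ℕ) : Data (K h) (RC h) (CC h) where
  M := M h
  R1 f r := decide ((frameOf h f.1).R1.Mem (levR h r))
  R2 f r := decide ((frameOf h f.1).R2.Mem (levR h r))
  C1 f c := decide ((frameOf h f.1).C1.Mem (levC h c))
  C2 f c := decide ((frameOf h f.1).C2.Mem (levC h c))

/-- Row groups. -/
abbrev RowG (h : ℕ) := Grp (K h) (RC h)
/-- Column groups. -/
abbrev ColG (h : ℕ) := Grp (K h) (CC h)

/-- Sizes of the core rows. -/
def rsCore (h : ℕ) : RC h → ℕ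
  | ⊥ => (65 * h - 128) * 2 ^ h
  | (k : Node h) => size k.1

/-- Sizes of the core columns. -/
def csCore (h : ℕ) : CC h → ℕ
  | ⊤ => (65 * h - 128) * 2 ^ h
  | (k : Node h) => size k.1

/-- Sizes of the row groups. -/
def rs (h : ℕ) (g : RowG h) : ℕ :=
  match ofLex g with
  | Sum.inl _ => 2 ^ h
  | Sum.inr r => rsCore h r

/-- Sizes of the column groups. -/
def cs (h : ℕ) (g : ColG h) : ℕ :=
  match ofLex g with
  | Sum.inl _ => 2 ^ h
  | Sum.inr c => csCore h c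

@[simp] lemma rs_fr (h : ℕ) (f : Fin (K h)) (i : Fin 64) : rs h (fr f i) = 2 ^ h := rfl
@[simp] lemma cs_fr (h : ℕ) (f : Fin (K h)) (i : Fin 64) : cs h (fr f i) = 2 ^ h := rfl
@[simp] lemma rs_core (h : ℕ) (r : RC h) : rs h (core r) = rsCore h r := rfl
@[simp] lemma cs_core (h : ℕ) (c : CC h) : cs h (core c) = csCore h c := rfl

lemma sum_node_size (h : ℕ) : ∑ k : Node h, size k.1 = (h + 2) * 2 ^ h := by
  rw [← sum_size h]
  exact Finset.sum_subtype (nodes h) (fun _ => mem_nodes) (fun v => size v) |>.symm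

lemma sum_rsCore (h : ℕ) : ∑ r : RC h, rsCore h r = (65 * h - 128) * 2 ^ h + (h + 2) * 2 ^ h := by
  have := Fintype.sum_option (fun r : Option (Node h) => rsCore h r)
  rw [← sum_node_size h]
  exact this

lemma sum_csCore (h : ℕ) : ∑ c : CC h, csCore h c = (65 * h - 128) * 2 ^ h + (h + 2) * 2 ^ h := by
  have := Fintype.sum_option (fun c : Option (Node h) => csCore h c)
  rw [← sum_node_size h]
  exact this

theorem sum_rs (h : ℕ) (hh : 2 ≤ h) : ∑ g : RowG h, rs h g = (386 * h + 2) * 2 ^ h := by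
  have h1 : ∑ g : RowG h, rs h g =
      ∑ g : (Fin (K h) ×ₗ Fin 64) ⊕ RC h, (match g with | Sum.inl _ => 2 ^ h | Sum.inr r => rsCore h r) :=
    Fintype.sum_equiv ofLex _ _ (fun g => rfl)
  rw [h1, Fintype.sum_sum_type]
  simp only [Finset.sum_const, Finset.card_univ, smul_eq_mul]
  rw [sum_rsCore]
  have hc : Fintype.card (Fin (K h) ×ₗ Fin 64) = (5 * h + 2) * 64 := by
    show Fintype.card (Fin (K h) × Fin 64) = _
    simp [K]
  rw [hc]
  obtain ⟨m, rfl⟩ : ∃ m, h = m + 2 := ⟨h - 2, by omega⟩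
  have : 65 * (m + 2) - 128 = 65 * m + 2 := by omega
  rw [this]
  ring

theorem sum_cs (h : ℕ) (hh : 2 ≤ h) : ∑ g : ColG h, cs h g = (386 * h + 2) * 2 ^ h := by
  have h1 : ∑ g : ColG h, cs h g =
      ∑ g : (Fin (K h) ×ₗ Fin 64) ⊕ CC h, (match g with | Sum.inl _ => 2 ^ h | Sum.inr r => csCore h r) :=
    Fintype.sum_equiv ofLex _ _ (fun g => rfl)
  rw [h1, Fintype.sum_sum_type]
  simp only [Finset.sum_const, Finset.card_univ, smul_eq_mul]
  rw [sum_csCore]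
  have hc : Fintype.card (Fin (K h) ×ₗ Fin 64) = (5 * h + 2) * 64 := by
    show Fintype.card (Fin (K h) × Fin 64) = _
    simp [K]
  rw [hc]
  obtain ⟨m, rfl⟩ : ∃ m, h = m + 2 := ⟨h - 2, by omega⟩
  have : 65 * (m + 2) - 128 = 65 * m + 2 := by omega
  rw [this]
  ring

/-- Row group of a line. -/
noncomputable def gR (h : ℕ) (hh : 2 ≤ h) : Fin ((386 * h + 2) * 2 ^ h) → RowG h :=
  Layout.grp (sum_rs h hh)

/-- Column group of a line. -/
noncomputable def gC (h : ℕ) (hh : 2 ≤ h) : Fin ((386 * h + 2) * 2 ^ h) → ColG h :=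
  Layout.grp (sum_cs h hh)

/-- The matrix `A`. -/
noncomputable def A (h : ℕ) (hh : 2 ≤ h) :
    Fin ((386 * h + 2) * 2 ^ h) → Fin ((386 * h + 2) * 2 ^ h) → Bool :=
  fun i j => (D h).G (gR h hh i) (gC h hh j)

/-! ### The hypotheses of `rigid` -/

lemma hR (h : ℕ) (f : Fin (K h)) (r : RC h) :
    ¬ ((D h).R1 f r = true ∧ (D h).R2 f r = true) := by
  have := (frameOf_disj h f.1 f.2 (levR h r)).1
  simpa [D] using this

lemma hC (h : ℕ) (f : Fin (K h)) (c : CC h) :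
    ¬ ((D h).C1 f c = true ∧ (D h).C2 f c = true) := by
  have := (frameOf_disj h f.1 f.2 (levC h c)).2
  simpa [D] using this

lemma hPlus (h : ℕ) : (D h).NoPlus := by
  intro r1 r2 r3 c1 c2 c3 a1 a2 a3 a4 b1 b2 b3 b4 b5 b6 b7 b8 b9
  exact no_plus a1 a2 a3 a4 b1 b2 b3 b4 b5 b6 b7 b8 b9

lemma hSepR (h : ℕ) : (D h).NoSepR := by
  intro g1 s1 g2 s2 r r' r'' a1 a2 a3 a4 a5 a6
  obtain ⟨D1, hD1⟩ : ∃ D1 : LSet, ∀ r, (D h).RL g1 s1 r = decide (D1.Mem (levR h r)) := by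
    cases s1
    · exact ⟨(frameOf h g1.1).R2, fun r => rfl⟩
    · exact ⟨(frameOf h g1.1).R1, fun r => rfl⟩
  obtain ⟨D2, hD2⟩ : ∃ D2 : LSet, ∀ r, (D h).RL g2 s2 r = decide (D2.Mem (levR h r)) := by
    cases s2
    · exact ⟨(frameOf h g2.1).R2, fun r => rfl⟩
    · exact ⟨(frameOf h g2.1).R1, fun r => rfl⟩
  rw [hD1] at a1 a2 a3
  rw [hD2] at a4 a5 a6
  simp only [decide_eq_true_eq, decide_eq_false_iff_not] at a1 a2 a3 a4 a5 a6
  exact LSet.no_cross a1 a2 a3 a4 a6 a5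

lemma hSepC (h : ℕ) : (D h).NoSepC := by
  intro g1 s1 g2 s2 r r' r'' a1 a2 a3 a4 a5 a6
  obtain ⟨D1, hD1⟩ : ∃ D1 : LSet, ∀ r, (D h).CL g1 s1 r = decide (D1.Mem (levC h r)) := by
    cases s1
    · exact ⟨(frameOf h g1.1).C2, fun r => rfl⟩
    · exact ⟨(frameOf h g1.1).C1, fun r => rfl⟩
  obtain ⟨D2, hD2⟩ : ∃ D2 : LSet, ∀ r, (D h).CL g2 s2 r = decide (D2.Mem (levC h r)) := by
    cases s2
    · exact ⟨(frameOf h g2.1).C2, fun r => rfl⟩
    · exact ⟨(frameOf h g2.1).C1, fun r => rfl⟩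
  rw [hD1] at a1 a2 a3
  rw [hD2] at a4 a5 a6
  simp only [decide_eq_true_eq, decide_eq_false_iff_not] at a1 a2 a3 a4 a5 a6
  exact LSet.no_cross a1 a2 a3 a4 a6 a5

/-- Rigidity for the concrete system. -/
theorem rigid_concrete (h : ℕ) {φ : Fin 66 → RowG h} {ψ : Fin 66 → ColG h} (hφ : Monotone φ)
    (hψ : Monotone ψ) (hG : ∀ i j, (D h).G (φ i) (ψ j) = H i j) :
    ∃ (t : Fin (2 ^ h)) (f : Fin (K h)), (∀ i : Fin 64, φ (pos i) = fr f i) ∧
      (∀ j : Fin 64, ψ (pos j) = fr f j) ∧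
      φ 64 = core (L1 t : RC h) ∧ φ 65 = core (L2 t : RC h) ∧
      ψ 64 = core (L1 t : CC h) ∧ ψ 65 = core (L2 t : CC h) := by
  obtain ⟨f, y1, y2, x1, x2, hc⟩ := rigid (D h) (hR h) (hC h) (hPlus h) (hSepR h) (hSepC h) hφ hψ hG
  have m1 : (frameOf h f.1).R1.Mem (levR h y1) := by simpa [D] using hc.y1_mem
  have m2 : (frameOf h f.1).R2.Mem (levR h y2) := by simpa [D] using hc.y2_mem
  have m3 : (frameOf h f.1).C1.Mem (levC h x1) := by simpa [D] using hc.x1_mem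
  have m4 : (frameOf h f.1).C2.Mem (levC h x2) := by simpa [D] using hc.x2_mem
  obtain ⟨_, t, e1, e2, e3, e4⟩ := product f.2 m1 m2 m3 m4 hc.y_lt hc.x_lt hc.M11 hc.M12 hc.M21 hc.M22
  refine ⟨t, f, hc.rows, hc.cols, ?_, ?_, ?_, ?_⟩
  · rw [hc.y1_eq, e1]
  · rw [hc.y2_eq, e2]
  · rw [hc.x1_eq, e3]
  · rw [hc.x2_eq, e4]

end S66.Concrete
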