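import Mathlib
import Crest.Prelude.Def_OrderedMatrix

/-!
# S0066: counting ordered copies

Abstract counting lemma: if every ordered copy of `H` in `A` has its last two rows and last two
columns determined by a parameter `t : Fin N`, then there are at most `N * n ^ 128` copies.
Plus the arithmetic of the second conjunct of S0066.
-/

set_option autoImplicit false

namespace S66.Count

open Crest.CombinatoricsR.OrderedMatrix

/-- The set of ordered copies as a type. -/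
abbrev CopyT {n : ℕ} (H : Fin 66 → Fin 66 → Bool) (A : Fin n → Fin n → Bool) :=
  {rc : (Fin 66 → Fin n) × (Fin 66 → Fin n) //
    StrictMono rc.1 ∧ StrictMono rc.2 ∧ ∀ i j : Fin 66, A (rc.1 i) (rc.2 j) = H i j}

/-- Abstract count: the last two rows and columns of each copy are determined by `t : Fin N`. -/
theorem count_le {n N : ℕ} (H : Fin 66 → Fin 66 → Bool) (A : Fin n → Fin n → Bool)
    (y1 y2 x1 x2 : Fin N → Fin n)
    (hcopy : ∀ (ρ κ : Fin 66 → Fin n), StrictMono ρ → StrictMono κ →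
      (∀ i j, A (ρ i) (κ j) = H i j) →
      ∃ t : Fin N, ρ 64 = y1 t ∧ ρ 65 = y2 t ∧ κ 64 = x1 t ∧ κ 65 = x2 t) :
    orderedCopyCount H A ≤ N * n ^ 128 := by
  classical
  -- injection into `Fin N × (Fin 64 → Fin n) × (Fin 64 → Fin n)`
  have hex : ∀ c : CopyT H A, ∃ t : Fin N, c.1.1 64 = y1 t ∧ c.1.1 65 = y2 t ∧
      c.1.2 64 = x1 t ∧ c.1.2 65 = x2 t := fun c =>
    hcopy c.1.1 c.1.2 c.2.1 c.2.2.1 c.2.2.2
  choose τ hτ using hex
  let emb : Fin 64 → Fin 66 := Fin.castLE (by norm_num)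
  let f : CopyT H A → Fin N × (Fin 64 → Fin n) × (Fin 64 → Fin n) := fun c =>
    (τ c, c.1.1 ∘ emb, c.1.2 ∘ emb)
  have hf : Function.Injective f := by
    intro c c' hcc
    have h1 : τ c = τ c' := congrArg Prod.fst hcc
    have h2 : c.1.1 ∘ emb = c'.1.1 ∘ emb := congrArg (fun z => z.2.1) hcc
    have h3 : c.1.2 ∘ emb = c'.1.2 ∘ emb := congrArg (fun z => z.2.2) hcc
    obtain ⟨a1, a2, a3, a4⟩ := hτ c
    obtain ⟨b1, b2, b3, b4⟩ := hτ c'
    have key : ∀ (u v : Fin 66 → Fin n), u ∘ emb = v ∘ emb → u 64 = v 64 → u 65 = v 65 → u = v := by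
      intro u v h h64 h65
      funext i
      by_cases hi : i.val < 64
      · have := congrFun h ⟨i.val, hi⟩
        simpa [emb, Fin.castLE] using this
      · have hi' : i = 64 ∨ i = 65 := by
          have := i.isLt
          rcases Nat.lt_or_ge i.val 65 with h' | h'
          · left; ext; simp; omega
          · right; ext; simp; omega
        rcases hi' with rfl | rfl
        · exact h64
        · exact h65
    apply Subtype.ext
    apply Prod.ext
    · apply key _ _ h2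
      · rw [a1, b1, h1]
      · rw [a2, b2, h1]
    · apply key _ _ h3
      · rw [a3, b3, h1]
      · rw [a4, b4, h1]
  have hcard := Fintype.card_le_of_injective f hf
  unfold orderedCopyCount
  refine hcard.trans ?_
  simp only [Fintype.card_prod, Fintype.card_fin, Fintype.card_fun]
  have : n ^ 64 * n ^ 64 = n ^ 128 := by rw [← pow_add]
  rw [this]

/-- The arithmetic of the second conjunct of S0066. -/
theorem second_conjunct (h : ℕ) (c : ℕ)
    (hc : c ≤ 2 ^ h * ((386 * h + 2) * 2 ^ h) ^ 128) :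
    (c : ℝ) / (((386 * h + 2) * 2 ^ h : ℕ) : ℝ) ^ 132 ≤
      ((386 * (h : ℝ) + 2) ^ 2)⁻¹ * (2 : ℝ)⁻¹ ^ h := by
  have hL : (0 : ℝ) < 386 * (h : ℝ) + 2 := by positivity
  have hN : (0 : ℝ) < (2 : ℝ) ^ h := by positivity
  have hcast : (((386 * h + 2) * 2 ^ h : ℕ) : ℝ) = (386 * (h : ℝ) + 2) * 2 ^ h := by
    push_cast; ring
  rw [hcast]
  set L : ℝ := 386 * (h : ℝ) + 2 with hLdef
  set N : ℝ := (2 : ℝ) ^ h with hNdef
  have hc' : (c : ℝ) ≤ N * (L * N) ^ 128 := by
    have : ((c : ℕ) : ℝ) ≤ ((2 ^ h * ((386 * h + 2) * 2 ^ h) ^ 128 : ℕ) : ℝ) := by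
      exact_mod_cast hc
    refine this.trans (le_of_eq ?_)
    push_cast
    simp [hLdef, hNdef]
  have hn : (0 : ℝ) < L * N := by positivity
  rw [div_le_iff₀ (by positivity)]
  have hinv : (2 : ℝ)⁻¹ ^ h = N⁻¹ := by
    rw [inv_pow]
  rw [hinv]
  have hL1 : (1 : ℝ) ≤ L := by
    have : (0 : ℝ) ≤ (h : ℝ) := Nat.cast_nonneg h
    rw [hLdef]; linarith
  have hN1 : (1 : ℝ) ≤ N := one_le_pow₀ (by norm_num)
  have hLN1 : (1 : ℝ) ≤ L * N := by nlinarith
  have hLpos : (0 : ℝ) < L := hL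
  have hNpos : (0 : ℝ) < N := hN
  generalize hx : (L * N) ^ 128 = x at hc'
  have hxnn : (0 : ℝ) ≤ x := by rw [← hx]; positivity
  have e132 : (L * N) ^ 132 = x * (L * N) ^ 4 := by
    rw [← hx, ← pow_add]
  rw [e132]
  have e2 : (L ^ 2)⁻¹ * N⁻¹ * (x * (L * N) ^ 4) = x * (L ^ 2 * N ^ 3) := by
    field_simp
  rw [e2]
  have hge : N ≤ L ^ 2 * N ^ 3 := by
    have h1 : (1 : ℝ) ≤ L ^ 2 := one_le_pow₀ hL1
    have h2 : (1 : ℝ) ≤ N ^ 2 := one_le_pow₀ hN1
    have h3 : (1 : ℝ) ≤ L ^ 2 * N ^ 2 := by nlinarith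
    calc N = 1 * N := by ring
      _ ≤ (L ^ 2 * N ^ 2) * N := by
        exact mul_le_mul_of_nonneg_right h3 hNpos.le
      _ = L ^ 2 * N ^ 3 := by ring
  calc (c : ℝ) ≤ N * x := hc'
    _ = x * N := by ring
    _ ≤ x * (L ^ 2 * N ^ 3) := mul_le_mul_of_nonneg_left hge hxnn

end S66.Count
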