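import Mathlib
import Crest.Prelude.Def_OrderedMatrix
import Crest.Agent.Lib.S66.Layout

/-!
# S0066 section 7: far-ness: double counting and Boolean propagation (abstract parts)
-/

set_option autoImplicit false

namespace S66.Far

open Finset

/-- Double counting: seeds `(t, ρ, σ)`; each flipped cell touching a thick line is exposed by at most `N`
seeds; so fewer than `N²` flips leave a clean seed. -/
theorem exists_clean_seed {Rl Cl T P Q : Type*} [Fintype Rl] [Fintype Cl] [Fintype T] [Fintype P]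
    [Fintype Q] [DecidableEq Rl] [DecidableEq Cl] [DecidableEq T] [DecidableEq P] [DecidableEq Q]
    (N : ℕ) (hT : Fintype.card T = N) (hP : Fintype.card P = N) (hQ : Fintype.card Q = N)
    (selR : T → P → Rl → Prop) (selC : T → Q → Cl → Prop)
    (thR : Rl → Prop) (thC : Cl → Prop)
    (h1 : ∀ r, thR r → ∀ t t' ρ ρ', selR t ρ r → selR t' ρ' r → ρ = ρ')
    (h1' : ∀ c, thC c → ∀ t t' σ σ', selC t σ c → selC t' σ' c → σ = σ')
    (h2 : ∀ r, ∀ S : Finset (T × P), (∀ p ∈ S, selR p.1 p.2 r) → S.card ≤ N)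
    (h2' : ∀ c, ∀ S : Finset (T × Q), (∀ p ∈ S, selC p.1 p.2 c) → S.card ≤ N)
    (F : Finset (Rl × Cl)) (hF : F.card < N ^ 2) :
    ∃ t ρ σ, ∀ r c, selR t ρ r → selC t σ c → (thR r ∨ thC c) → (r, c) ∉ F := by
  classical
  by_contra hcon
  push Not at hcon
  -- each seed exposes a cell of F
  choose! wr wc hw1 hw2 hw3 hw4 using hcon
  have hN : 0 < N := by
    by_contra h0
    have : N = 0 := by omega
    subst this
    simp at hF
  -- the map seed ↦ exposed cell
  let S : Finset (T × P × Q) := Finset.univ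
  have hS : S.card = N ^ 3 := by
    simp [S, hT, hP, hQ]
    ring
  let w : T × P × Q → Rl × Cl := fun s => (wr s.1 s.2.1 s.2.2, wc s.1 s.2.1 s.2.2)
  have hw : ∀ s ∈ S, w s ∈ F := fun s _ => hw4 s.1 s.2.1 s.2.2
  have hfib : ∀ c ∈ F, (S.filter (fun s => w s = c)).card ≤ N := by
    rintro ⟨r, c⟩ -
    by_cases hr : thR r
    · -- ρ determined
      have hinj : Set.InjOn (fun s : T × P × Q => (s.1, s.2.2)) (S.filter (fun s => w s = (r, c))) := by
        rintro ⟨t, ρ, σ⟩ hs ⟨t', ρ', σ'⟩ hs' heq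
        simp only [Finset.coe_filter, Set.mem_ofPred_eq, S, Finset.mem_univ, true_and, w,
          Prod.mk.injEq] at hs hs' heq
        obtain ⟨rfl, rfl⟩ := heq
        have h1a := hw1 t ρ σ
        have h1b := hw1 t ρ' σ
        rw [hs.1] at h1a
        rw [hs'.1] at h1b
        have := h1 r hr t t ρ ρ' h1a h1b
        subst this
        rfl
      rw [← Finset.card_image_of_injOn hinj]
      apply h2' c
      intro p hp
      rw [Finset.mem_image] at hp
      obtain ⟨⟨t, ρ, σ⟩, hs, rfl⟩ := hp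
      simp only [Finset.mem_filter, S, Finset.mem_univ, true_and, w, Prod.mk.injEq] at hs
      have := hw2 t ρ σ
      rw [hs.2] at this
      exact this
    · by_cases hc : thC c
      · have hinj : Set.InjOn (fun s : T × P × Q => (s.1, s.2.1)) (S.filter (fun s => w s = (r, c))) := by
          rintro ⟨t, ρ, σ⟩ hs ⟨t', ρ', σ'⟩ hs' heq
          simp only [Finset.coe_filter, Set.mem_ofPred_eq, S, Finset.mem_univ, true_and, w,
            Prod.mk.injEq] at hs hs' heq
          obtain ⟨rfl, rfl⟩ := heq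
          have h1a := hw2 t ρ σ
          have h1b := hw2 t ρ σ'
          rw [hs.2] at h1a
          rw [hs'.2] at h1b
          have := h1' c hc t t σ σ' h1a h1b
          subst this
          rfl
        rw [← Finset.card_image_of_injOn hinj]
        apply h2 r
        intro p hp
        rw [Finset.mem_image] at hp
        obtain ⟨⟨t, ρ, σ⟩, hs, rfl⟩ := hp
        simp only [Finset.mem_filter, S, Finset.mem_univ, true_and, w, Prod.mk.injEq] at hs
        have := hw1 t ρ σ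
        rw [hs.1] at this
        exact this
      · -- empty fibre
        rw [Finset.card_eq_zero.mpr]
        · exact Nat.zero_le _
        · apply Finset.filter_eq_empty_iff.mpr
          rintro ⟨t, ρ, σ⟩ - hs
          simp only [w, Prod.mk.injEq] at hs
          have := hw3 t ρ σ
          rw [hs.1, hs.2] at this
          exact this.elim hr hc
  have hcard : S.card ≤ F.card * N := by
    have := Finset.card_le_mul_card_image_of_maps_to (f := w) (s := S) (t := F) hw N hfib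
    rw [mul_comm]
    exact this
  rw [hS] at hcard
  have : F.card * N < N ^ 2 * N := Nat.mul_lt_mul_of_pos_right hF hN
  have h3 : N ^ 2 * N = N ^ 3 := by ring
  omega

/-- Boolean propagation along a path. `B i j` is the value on the selected path lines. -/
theorem propagate (h : ℕ) (B : ℕ → ℕ → Bool)
    (h00 : B 0 0 = false)
    (h0j : ∀ j, 1 ≤ j → j ≤ h + 1 → B 0 j = true)
    (hi0 : ∀ i, 1 ≤ i → i ≤ h + 1 → B i 0 = true)
    (hZ : ∀ i, 1 ≤ i → i ≤ h + 1 → B i i = false)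
    (hW : ∀ p, p < h → ∀ i j, p + 1 ≤ i → p + 1 ≤ j → i ≤ h + 1 → j ≤ h + 1 → i ≠ j →
      (i = p + 1 ∨ j = p + 1) →
      B p p = false → B i p = true → B p j = true → B i j = true) :
    B h h = false ∧ B h (h + 1) = true ∧ B (h + 1) h = true ∧ B (h + 1) (h + 1) = false := by
  have hdiag : ∀ i, i ≤ h + 1 → B i i = false := by
    intro i hi
    rcases Nat.eq_zero_or_pos i with rfl | hpos
    · exact h00
    · exact hZ i hpos hi
  have key : ∀ m i j, i ≤ h + 1 → j ≤ h + 1 → i ≠ j → min i j = m → B i j = true := by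
    intro m
    induction m using Nat.strong_induction_on with
    | _ m ih =>
      intro i j hi hj hij hm
      rcases Nat.eq_zero_or_pos m with rfl | hmpos
      · -- m = 0
        rcases Nat.eq_zero_or_pos i with rfl | hipos
        · exact h0j j (by omega) hj
        · have hj0 : j = 0 := by omega
          subst hj0
          exact hi0 i hipos hi
      · obtain ⟨p, rfl⟩ : ∃ p, m = p + 1 := ⟨m - 1, by omega⟩
        have hph : p < h := by omega
        apply hW p hph i j (by omega) (by omega) hi hj hij (by omega) (hdiag p (by omega))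
        · exact ih p (by omega) i p hi (by omega) (by omega) (by omega)
        · exact ih p (by omega) p j (by omega) hj (by omega) (by omega)
  exact ⟨hdiag h (by omega), key h h (h + 1) (by omega) (by omega) (by omega) (by omega),
    key h (h + 1) h (by omega) (by omega) (by omega) (by omega), hdiag (h + 1) le_rfl⟩


/-! ### Abstract far-ness -/

/-- Indexing of the first 64 lines of the pattern. -/
abbrev c64 (i : Fin 64) : Fin 66 := Fin.castLE (by norm_num) i

lemma fin66_cases (i : Fin 66) : (∃ i' : Fin 64, i = c64 i') ∨ i = 64 ∨ i = 65 := by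
  by_cases h : i.val < 64
  · exact Or.inl ⟨⟨i.val, h⟩, by ext; simp⟩
  · right
    have := i.isLt
    by_cases h' : i.val = 64
    · left; ext; simpa using h'
    · right; ext; simp; omega

/-- rows of the copy assembled from a frame and two more lines -/
def assemble {n : ℕ} (l : Fin 64 → Fin n) (u v : Fin n) : Fin 66 → Fin n := fun i =>
  if h : i.val < 64 then l ⟨i.val, h⟩ else if i.val = 64 then u else v

@[simp] lemma assemble_c64 {n : ℕ} (l : Fin 64 → Fin n) (u v : Fin n) (i : Fin 64) :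
    assemble l u v (c64 i) = l i := by
  simp [assemble, c64]

@[simp] lemma assemble_64 {n : ℕ} (l : Fin 64 → Fin n) (u v : Fin n) :
    assemble l u v 64 = u := by
  simp [assemble]

@[simp] lemma assemble_65 {n : ℕ} (l : Fin 64 → Fin n) (u v : Fin n) :
    assemble l u v 65 = v := by
  simp [assemble]

lemma assemble_strictMono {n : ℕ} (l : Fin 64 → Fin n) (u v : Fin n) (hl : StrictMono l)
    (hlu : ∀ i, l i < u) (huv : u < v) : StrictMono (assemble l u v) := by
  intro i j hij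
  rcases fin66_cases i with ⟨i', rfl⟩ | rfl | rfl <;> rcases fin66_cases j with ⟨j', rfl⟩ | rfl | rfl
  · simp only [assemble_c64]
    apply hl
    exact hij
  · simpa using hlu i'
  · simpa using (hlu i').trans huv
  · exfalso
    have := j'.isLt
    change 64 < j'.val at hij
    omega
  · exact absurd hij (lt_irrefl _)
  · simpa using huv
  · exfalso
    have := j'.isLt
    change 65 < j'.val at hij
    omega
  · exact absurd hij (by decide)
  · exact absurd hij (lt_irrefl _)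

/-- An element of the copy type forbids the matrix `B` from being free of `H`. -/
lemma no_copy_of_count_zero {n : ℕ} {H : Fin 66 → Fin 66 → Bool} {B : Fin n → Fin n → Bool}
    (hB : Crest.CombinatoricsR.OrderedMatrix.orderedCopyCount H B = 0)
    (r c : Fin 66 → Fin n) (hr : StrictMono r) (hc : StrictMono c)
    (hrc : ∀ i j, B (r i) (c j) = H i j) : False := by
  unfold Crest.CombinatoricsR.OrderedMatrix.orderedCopyCount at hB
  rw [Fintype.card_eq_zero_iff] at hB
  exact hB.false ⟨(r, c), hr, hc, hrc⟩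

section Abstract

variable {n N K h : ℕ} {H : Fin 66 → Fin 66 → Bool}
  {GR GC CR CC : Type*} [LinearOrder GR] [LinearOrder GC] [LinearOrder CR] [LinearOrder CC]

/-- The data of a clean seed: the lines chosen in the groups by the seed; the matrix `B` agrees with the
group matrix on each cell touching a thick line. Then no near-copy of H can be completed. -/
theorem no_near_copy
    {frR : Fin K → Fin 64 → GR} {coreR : CR → GR} {frC : Fin K → Fin 64 → GC} {coreC : CC → GC}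
    {grpR : Fin n → GR} {grpC : Fin n → GC} (hmR : Monotone grpR) (hmC : Monotone grpC)
    {sR : GR → Fin n} {sC : GC → Fin n} (hsR : ∀ g, grpR (sR g) = g) (hsC : ∀ g, grpC (sC g) = g)
    {B : Fin n → Fin n → Bool}
    (hB : Crest.CombinatoricsR.OrderedMatrix.orderedCopyCount H B = 0)
    (hfrMonoR : ∀ f, StrictMono (frR f)) (hfrMonoC : ∀ f, StrictMono (frC f))
    (hfrltR : ∀ f i r, frR f i < coreR r) (hfrltC : ∀ f i r, frC f i < coreC r)
    (hcoreMonoR : StrictMono coreR) (hcoreMonoC : StrictMono coreC)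
    (f : Fin K) (Y1 Y2 : CR) (X1 X2 : CC) (hY : Y1 < Y2) (hX : X1 < X2)
    -- frame × frame
    (hFF : ∀ i j, B (sR (frR f i)) (sC (frC f j)) = H (c64 i) (c64 j))
    (hFX1 : ∀ i, B (sR (frR f i)) (sC (coreC X1)) = H (c64 i) 64)
    (hFX2 : ∀ i, B (sR (frR f i)) (sC (coreC X2)) = H (c64 i) 65)
    (hY1F : ∀ j, B (sR (coreR Y1)) (sC (frC f j)) = H 64 (c64 j))
    (hY2F : ∀ j, B (sR (coreR Y2)) (sC (frC f j)) = H 65 (c64 j))
    (h11 : B (sR (coreR Y1)) (sC (coreC X1)) = H 64 64)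
    (h12 : B (sR (coreR Y1)) (sC (coreC X2)) = H 64 65)
    (h21 : B (sR (coreR Y2)) (sC (coreC X1)) = H 65 64)
    (h22 : B (sR (coreR Y2)) (sC (coreC X2)) = H 65 65) : False := by
  have liftR : ∀ {g g' : GR}, g < g' → sR g < sR g' := by
    intro g g' hgg
    by_contra hcon
    have h1 := hmR (not_lt.mp hcon)
    rw [hsR, hsR] at h1
    exact absurd hgg (not_lt.mpr h1)
  have liftC : ∀ {g g' : GC}, g < g' → sC g < sC g' := by
    intro g g' hgg
    by_contra hcon
    have h1 := hmC (not_lt.mp hcon)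
    rw [hsC, hsC] at h1
    exact absurd hgg (not_lt.mpr h1)
  refine no_copy_of_count_zero hB
    (assemble (fun i => sR (frR f i)) (sR (coreR Y1)) (sR (coreR Y2)))
    (assemble (fun j => sC (frC f j)) (sC (coreC X1)) (sC (coreC X2)))
    (assemble_strictMono _ _ _ (fun i j hij => liftR (hfrMonoR f hij))
      (fun i => liftR (hfrltR f i Y1)) (liftR (hcoreMonoR hY)))
    (assemble_strictMono _ _ _ (fun i j hij => liftC (hfrMonoC f hij))
      (fun i => liftC (hfrltC f i X1)) (liftC (hcoreMonoC hX))) ?_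
  intro i j
  rcases fin66_cases i with ⟨i', rfl⟩ | rfl | rfl <;> rcases fin66_cases j with ⟨j', rfl⟩ | rfl | rfl <;>
    simp only [assemble_c64, assemble_64, assemble_65]
  · exact hFF i' j'
  · exact hFX1 i'
  · exact hFX2 i'
  · exact hY1F j'
  · exact h11
  · exact h12
  · exact hY2F j'
  · exact h21
  · exact h22

/-- Abstract far-ness.  Seeds `(t, ρ, σ)`, lines chosen by `LR`, `LC`; `SelR t`, `SelC t` are the
groups exposed for leaf `t`; thick groups determine the seed; frames, `a`, `b` and the root are thick.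
The conclusion is the number of flips. -/
theorem far_abstract [Fintype GR] [Fintype GC] {G : GR → GC → Bool}
    {frR : Fin K → Fin 64 → GR} {coreR : CR → GR} {frC : Fin K → Fin 64 → GC} {coreC : CC → GC}
    {A B : Fin n → Fin n → Bool}
    {grpR : Fin n → GR} {grpC : Fin n → GC} (hmR : Monotone grpR) (hmC : Monotone grpC)
    (hA : ∀ r c, A r c = G (grpR r) (grpC c))
    (hB : Crest.CombinatoricsR.OrderedMatrix.orderedCopyCount H B = 0)
    {LR : GR → Fin N → Fin n} {LC : GC → Fin N → Fin n}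
    (hLR : ∀ g ρ, grpR (LR g ρ) = g) (hLC : ∀ g σ, grpC (LC g σ) = g)
    (SelR : Fin N → GR → Prop) (SelC : Fin N → GC → Prop)
    (thickR : GR → Prop) (thickC : GC → Prop)
    (hinjR : ∀ g, thickR g → Function.Injective (LR g))
    (hinjC : ∀ g, thickC g → Function.Injective (LC g))
    (hcntR : ∀ g r, ∀ S : Finset (Fin N × Fin N), (∀ p ∈ S, SelR p.1 g ∧ LR g p.2 = r) → S.card ≤ N)
    (hcntC : ∀ g c, ∀ S : Finset (Fin N × Fin N), (∀ p ∈ S, SelC p.1 g ∧ LC g p.2 = c) → S.card ≤ N)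
    -- frames
    (hfrSelR : ∀ t f i, SelR t (frR f i)) (hfrSelC : ∀ t f i, SelC t (frC f i))
    (hfrThR : ∀ f i, thickR (frR f i)) (hfrThC : ∀ f i, thickC (frC f i))
    (hfrMonoR : ∀ f, StrictMono (frR f)) (hfrMonoC : ∀ f, StrictMono (frC f))
    (hfrltR : ∀ f i r, frR f i < coreR r) (hfrltC : ∀ f i r, frC f i < coreC r)
    (hcoreMonoR : StrictMono coreR) (hcoreMonoC : StrictMono coreC)
    -- the letter sets
    (R1 R2 : Fin K → Set CR) (C1 C2 : Fin K → Set CC)
    (hGP : ∀ f i j, G (frR f i) (frC f j) = H (c64 i) (c64 j))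
    (hGU1 : ∀ f y j, y ∈ R1 f → G (coreR y) (frC f j) = H 64 (c64 j))
    (hGU2 : ∀ f y j, y ∈ R2 f → G (coreR y) (frC f j) = H 65 (c64 j))
    (hGV1 : ∀ f x i, x ∈ C1 f → G (frR f i) (coreC x) = H (c64 i) 64)
    (hGV2 : ∀ f x i, x ∈ C2 f → G (frR f i) (coreC x) = H (c64 i) 65)
    (hH : H 64 64 = false ∧ H 64 65 = true ∧ H 65 64 = true ∧ H 65 65 = false)
    -- the thick core lines a and b
    (a : CR) (b : CC) (haTh : thickR (coreR a)) (hbTh : thickC (coreC b))
    (haSel : ∀ t, SelR t (coreR a)) (hbSel : ∀ t, SelC t (coreC b))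
    -- the paths
    (pR : Fin N → ℕ → CR) (pC : Fin N → ℕ → CC)
    (hpSelR : ∀ t i, i ≤ h + 1 → SelR t (coreR (pR t i)))
    (hpSelC : ∀ t i, i ≤ h + 1 → SelC t (coreC (pC t i)))
    (hrR : ∀ t, thickR (coreR (pR t 0))) (hrC : ∀ t, thickC (coreC (pC t 0)))
    (h00 : ∀ t, G (coreR (pR t 0)) (coreC (pC t 0)) = false)
    (h0j : ∀ t j, 1 ≤ j → j ≤ h + 1 → G (coreR (pR t 0)) (coreC (pC t j)) = true)
    (hi0 : ∀ t i, 1 ≤ i → i ≤ h + 1 → G (coreR (pR t i)) (coreC (pC t 0)) = true)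
    (hZ : ∀ t i, 1 ≤ i → i ≤ h + 1 → ∃ f, a ∈ R1 f ∧ pR t i ∈ R2 f ∧ pC t i ∈ C1 f ∧ b ∈ C2 f ∧
      a < pR t i ∧ pC t i < b ∧ G (coreR a) (coreC (pC t i)) = false ∧
      G (coreR a) (coreC b) = true ∧ G (coreR (pR t i)) (coreC b) = false)
    (hW : ∀ t p, p < h → ∀ i j, p + 1 ≤ i → p + 1 ≤ j → i ≤ h + 1 → j ≤ h + 1 → i ≠ j →
      (i = p + 1 ∨ j = p + 1) → ∃ f,
      (pR t i ∈ R1 f ∧ pR t p ∈ R2 f ∧ pC t j ∈ C1 f ∧ pC t p ∈ C2 f ∧
        pR t i < pR t p ∧ pC t j < pC t p) ∨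
      (pR t p ∈ R1 f ∧ pR t i ∈ R2 f ∧ pC t p ∈ C1 f ∧ pC t j ∈ C2 f ∧
        pR t p < pR t i ∧ pC t p < pC t j))
    (hC : ∀ t, ∃ f, pR t h ∈ R1 f ∧ pR t (h + 1) ∈ R2 f ∧ pC t h ∈ C1 f ∧ pC t (h + 1) ∈ C2 f ∧
      pR t h < pR t (h + 1) ∧ pC t h < pC t (h + 1)) :
    N ^ 2 ≤ (Finset.univ.filter (fun rc : Fin n × Fin n => A rc.1 rc.2 ≠ B rc.1 rc.2)).card := by
  classical
  by_contra hcon
  push Not at hcon
  obtain ⟨t, ρ, σ, hclean⟩ := exists_clean_seed (T := Fin N) (P := Fin N) (Q := Fin N)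
    N (by simp) (by simp) (by simp)
    (fun t ρ r => SelR t (grpR r) ∧ LR (grpR r) ρ = r)
    (fun t σ c => SelC t (grpC c) ∧ LC (grpC c) σ = c)
    (fun r => thickR (grpR r)) (fun c => thickC (grpC c))
    (fun r hr t t' ρ ρ' h1 h2 => hinjR _ hr (h1.2.trans h2.2.symm))
    (fun c hc t t' σ σ' h1 h2 => hinjC _ hc (h1.2.trans h2.2.symm))
    (fun r S hS => hcntR (grpR r) r S hS)
    (fun c S hS => hcntC (grpC c) c S hS)
    _ hcon
  -- the chosen lines
  have clean : ∀ g g', SelR t g → SelC t g' → (thickR g ∨ thickC g') →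
      B (LR g ρ) (LC g' σ) = G g g' := by
    intro g g' hg hg' hth
    have h1 := hclean (LR g ρ) (LC g' σ) ⟨by rwa [hLR], by rw [hLR]⟩ ⟨by rwa [hLC], by rw [hLC]⟩
      (by rwa [hLR, hLC])
    simp only [Finset.mem_filter, Finset.mem_univ, true_and, not_not] at h1
    rw [← h1, hA, hLR, hLC]
  -- no near copy
  have nn : ∀ (f : Fin K) (Y1 Y2 : CR) (X1 X2 : CC), SelR t (coreR Y1) → SelR t (coreR Y2) →
      SelC t (coreC X1) → SelC t (coreC X2) → Y1 ∈ R1 f → Y2 ∈ R2 f → X1 ∈ C1 f → X2 ∈ C2 f →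
      Y1 < Y2 → X1 < X2 →
      B (LR (coreR Y1) ρ) (LC (coreC X1) σ) = false →
      B (LR (coreR Y1) ρ) (LC (coreC X2) σ) = true →
      B (LR (coreR Y2) ρ) (LC (coreC X1) σ) = true →
      B (LR (coreR Y2) ρ) (LC (coreC X2) σ) = false → False := by
    intro f Y1 Y2 X1 X2 s1 s2 s3 s4 m1 m2 m3 m4 hY hX b11 b12 b21 b22
    refine no_near_copy (sR := fun g => LR g ρ) (sC := fun g => LC g σ) hmR hmC
      (fun g => hLR g ρ) (fun g => hLC g σ) hB hfrMonoR hfrMonoC hfrltR hfrltC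
      hcoreMonoR hcoreMonoC f Y1 Y2 X1 X2 hY hX ?_ ?_ ?_ ?_ ?_ ?_ ?_ ?_ ?_
    · intro i j
      rw [clean _ _ (hfrSelR t f i) (hfrSelC t f j) (Or.inl (hfrThR f i)), hGP]
    · intro i
      rw [clean _ _ (hfrSelR t f i) s3 (Or.inl (hfrThR f i)), hGV1 f X1 i m3]
    · intro i
      rw [clean _ _ (hfrSelR t f i) s4 (Or.inl (hfrThR f i)), hGV2 f X2 i m4]
    · intro j
      rw [clean _ _ s1 (hfrSelC t f j) (Or.inr (hfrThC f j)), hGU1 f Y1 j m1]
    · intro j
      rw [clean _ _ s2 (hfrSelC t f j) (Or.inr (hfrThC f j)), hGU2 f Y2 j m2]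
    · rw [hH.1]; exact b11
    · rw [hH.2.1]; exact b12
    · rw [hH.2.2.1]; exact b21
    · rw [hH.2.2.2]; exact b22
  -- propagation
  obtain ⟨p1, p2, p3, p4⟩ := propagate h
    (fun i j => B (LR (coreR (pR t i)) ρ) (LC (coreC (pC t j)) σ))
    (by
      show B _ _ = false
      rw [clean _ _ (hpSelR t 0 (by omega)) (hpSelC t 0 (by omega)) (Or.inl (hrR t)), h00])
    (by
      intro j hj1 hj2
      show B _ _ = true
      rw [clean _ _ (hpSelR t 0 (by omega)) (hpSelC t j hj2) (Or.inl (hrR t)), h0j t j hj1 hj2])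
    (by
      intro i hi1 hi2
      show B _ _ = true
      rw [clean _ _ (hpSelR t i hi2) (hpSelC t 0 (by omega)) (Or.inr (hrC t)), hi0 t i hi1 hi2])
    (by
      intro i hi1 hi2
      show B _ _ = false
      obtain ⟨f, m1, m2, m3, m4, lt1, lt2, e1, e2, e3⟩ := hZ t i hi1 hi2
      by_contra hne
      have hne' : B (LR (coreR (pR t i)) ρ) (LC (coreC (pC t i)) σ) = true := by
        simpa using hne
      refine nn f a (pR t i) (pC t i) b (haSel t) (hpSelR t i hi2) (hpSelC t i hi2) (hbSel t)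
        m1 m2 m3 m4 lt1 lt2 ?_ ?_ hne' ?_
      · rw [clean _ _ (haSel t) (hpSelC t i hi2) (Or.inl haTh), e1]
      · rw [clean _ _ (haSel t) (hbSel t) (Or.inl haTh), e2]
      · rw [clean _ _ (hpSelR t i hi2) (hbSel t) (Or.inr hbTh), e3])
    (by
      intro p hp i j hi hj hi2 hj2 hij hor b1 b2 b3
      show B _ _ = true
      by_contra hne
      have hne' : B (LR (coreR (pR t i)) ρ) (LC (coreC (pC t j)) σ) = false := by
        simpa using hne
      obtain ⟨f, ⟨m1, m2, m3, m4, lt1, lt2⟩ | ⟨m1, m2, m3, m4, lt1, lt2⟩⟩ :=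
        hW t p hp i j hi hj hi2 hj2 hij hor
      · exact nn f (pR t i) (pR t p) (pC t j) (pC t p) (hpSelR t i hi2) (hpSelR t p (by omega))
          (hpSelC t j hj2) (hpSelC t p (by omega)) m1 m2 m3 m4 lt1 lt2 hne' b2 b3 b1
      · exact nn f (pR t p) (pR t i) (pC t p) (pC t j) (hpSelR t p (by omega)) (hpSelR t i hi2)
          (hpSelC t p (by omega)) (hpSelC t j hj2) m1 m2 m3 m4 lt1 lt2 b1 b3 b2 hne')
  obtain ⟨f, m1, m2, m3, m4, lt1, lt2⟩ := hC t
  exact nn f (pR t h) (pR t (h + 1)) (pC t h) (pC t (h + 1)) (hpSelR t h (by omega))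
    (hpSelR t (h + 1) le_rfl) (hpSelC t h (by omega)) (hpSelC t (h + 1) le_rfl)
    m1 m2 m3 m4 lt1 lt2 p1 p2 p3 p4

/-- `far_abstract` over the generic layout: the line of seed `ρ` in the group `g` is line number
`ρ % s g` of `g`.  Thick groups are those with at least `N` lines. -/
theorem far_layout [Fintype GR] [Fintype GC] {G : GR → GC → Bool}
    {frR : Fin K → Fin 64 → GR} {coreR : CR → GR} {frC : Fin K → Fin 64 → GC} {coreC : CC → GC}
    {A B : Fin n → Fin n → Bool}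
    {rs : GR → ℕ} {cs : GC → ℕ} (hrs : ∑ g, rs g = n) (hcs : ∑ g, cs g = n)
    (hrpos : ∀ g, 0 < rs g) (hcpos : ∀ g, 0 < cs g)
    (hA : ∀ r c, A r c = G (Layout.grp hrs r) (Layout.grp hcs c))
    (hB : Crest.CombinatoricsR.OrderedMatrix.orderedCopyCount H B = 0)
    (SelR : Fin N → GR → Prop) (SelC : Fin N → GC → Prop)
    (hcntR : ∀ g k, ∀ (T P : Finset (Fin N)), (∀ t ∈ T, SelR t g) → (∀ ρ ∈ P, ρ.val % rs g = k) →
      T.card * P.card ≤ N)
    (hcntC : ∀ g k, ∀ (T P : Finset (Fin N)), (∀ t ∈ T, SelC t g) → (∀ σ ∈ P, σ.val % cs g = k) →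
      T.card * P.card ≤ N)
    -- frames
    (hfrSelR : ∀ t f i, SelR t (frR f i)) (hfrSelC : ∀ t f i, SelC t (frC f i))
    (hfrThR : ∀ f i, N ≤ rs (frR f i)) (hfrThC : ∀ f i, N ≤ cs (frC f i))
    (hfrMonoR : ∀ f, StrictMono (frR f)) (hfrMonoC : ∀ f, StrictMono (frC f))
    (hfrltR : ∀ f i r, frR f i < coreR r) (hfrltC : ∀ f i r, frC f i < coreC r)
    (hcoreMonoR : StrictMono coreR) (hcoreMonoC : StrictMono coreC)
    -- the letter sets
    (R1 R2 : Fin K → Set CR) (C1 C2 : Fin K → Set CC)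
    (hGP : ∀ f i j, G (frR f i) (frC f j) = H (c64 i) (c64 j))
    (hGU1 : ∀ f y j, y ∈ R1 f → G (coreR y) (frC f j) = H 64 (c64 j))
    (hGU2 : ∀ f y j, y ∈ R2 f → G (coreR y) (frC f j) = H 65 (c64 j))
    (hGV1 : ∀ f x i, x ∈ C1 f → G (frR f i) (coreC x) = H (c64 i) 64)
    (hGV2 : ∀ f x i, x ∈ C2 f → G (frR f i) (coreC x) = H (c64 i) 65)
    (hH : H 64 64 = false ∧ H 64 65 = true ∧ H 65 64 = true ∧ H 65 65 = false)
    -- the thick core lines a and b
    (a : CR) (b : CC) (haTh : N ≤ rs (coreR a)) (hbTh : N ≤ cs (coreC b))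
    (haSel : ∀ t, SelR t (coreR a)) (hbSel : ∀ t, SelC t (coreC b))
    -- the paths
    (pR : Fin N → ℕ → CR) (pC : Fin N → ℕ → CC)
    (hpSelR : ∀ t i, i ≤ h + 1 → SelR t (coreR (pR t i)))
    (hpSelC : ∀ t i, i ≤ h + 1 → SelC t (coreC (pC t i)))
    (hrR : ∀ t, N ≤ rs (coreR (pR t 0))) (hrC : ∀ t, N ≤ cs (coreC (pC t 0)))
    (h00 : ∀ t, G (coreR (pR t 0)) (coreC (pC t 0)) = false)
    (h0j : ∀ t j, 1 ≤ j → j ≤ h + 1 → G (coreR (pR t 0)) (coreC (pC t j)) = true)
    (hi0 : ∀ t i, 1 ≤ i → i ≤ h + 1 → G (coreR (pR t i)) (coreC (pC t 0)) = true)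
    (hZ : ∀ t i, 1 ≤ i → i ≤ h + 1 → ∃ f, a ∈ R1 f ∧ pR t i ∈ R2 f ∧ pC t i ∈ C1 f ∧ b ∈ C2 f ∧
      a < pR t i ∧ pC t i < b ∧ G (coreR a) (coreC (pC t i)) = false ∧
      G (coreR a) (coreC b) = true ∧ G (coreR (pR t i)) (coreC b) = false)
    (hW : ∀ t p, p < h → ∀ i j, p + 1 ≤ i → p + 1 ≤ j → i ≤ h + 1 → j ≤ h + 1 → i ≠ j →
      (i = p + 1 ∨ j = p + 1) → ∃ f,
      (pR t i ∈ R1 f ∧ pR t p ∈ R2 f ∧ pC t j ∈ C1 f ∧ pC t p ∈ C2 f ∧
        pR t i < pR t p ∧ pC t j < pC t p) ∨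
      (pR t p ∈ R1 f ∧ pR t i ∈ R2 f ∧ pC t p ∈ C1 f ∧ pC t j ∈ C2 f ∧
        pR t p < pR t i ∧ pC t p < pC t j))
    (hC : ∀ t, ∃ f, pR t h ∈ R1 f ∧ pR t (h + 1) ∈ R2 f ∧ pC t h ∈ C1 f ∧ pC t (h + 1) ∈ C2 f ∧
      pR t h < pR t (h + 1) ∧ pC t h < pC t (h + 1)) :
    N ^ 2 ≤ (Finset.univ.filter (fun rc : Fin n × Fin n => A rc.1 rc.2 ≠ B rc.1 rc.2)).card := by
  classical
  -- the chosen lines
  let LR : GR → Fin N → Fin n := fun g ρ => Layout.sel hrs g ⟨ρ.val % rs g, Nat.mod_lt _ (hrpos g)⟩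
  let LC : GC → Fin N → Fin n := fun g σ => Layout.sel hcs g ⟨σ.val % cs g, Nat.mod_lt _ (hcpos g)⟩
  have LReq : ∀ g ρ ρ', LR g ρ = LR g ρ' → ρ.val % rs g = ρ'.val % rs g := by
    intro g ρ ρ' e
    have := Layout.sel_injective hrs g e
    simpa using this
  have LCeq : ∀ g ρ ρ', LC g ρ = LC g ρ' → ρ.val % cs g = ρ'.val % cs g := by
    intro g ρ ρ' e
    have := Layout.sel_injective hcs g e
    simpa using this
  refine far_abstract (h := h) (H := H) (G := G) (frR := frR) (coreR := coreR) (frC := frC)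
    (coreC := coreC) (Layout.grp_mono hrs) (Layout.grp_mono hcs) hA hB
    (LR := LR) (LC := LC)
    (fun g ρ => Layout.grp_sel hrs g _) (fun g σ => Layout.grp_sel hcs g _)
    SelR SelC (fun g => N ≤ rs g) (fun g => N ≤ cs g) ?_ ?_ ?_ ?_
    hfrSelR hfrSelC hfrThR hfrThC hfrMonoR hfrMonoC hfrltR hfrltC hcoreMonoR hcoreMonoC
    R1 R2 C1 C2 hGP hGU1 hGU2 hGV1 hGV2 hH a b haTh hbTh haSel hbSel pR pC hpSelR hpSelC hrR hrC
    h00 h0j hi0 hZ hW hC
  · intro g hg ρ ρ' e
    have := LReq g ρ ρ' e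
    rw [Nat.mod_eq_of_lt (lt_of_lt_of_le ρ.isLt hg), Nat.mod_eq_of_lt (lt_of_lt_of_le ρ'.isLt hg)]
      at this
    exact Fin.ext this
  · intro g hg ρ ρ' e
    have := LCeq g ρ ρ' e
    rw [Nat.mod_eq_of_lt (lt_of_lt_of_le ρ.isLt hg), Nat.mod_eq_of_lt (lt_of_lt_of_le ρ'.isLt hg)]
      at this
    exact Fin.ext this
  · intro g r S hS
    rcases S.eq_empty_or_nonempty with rfl | ⟨p0, hp0⟩
    · simp
    · have hsub : S ⊆ (S.image Prod.fst) ×ˢ (S.image Prod.snd) := by
        intro p hp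
        exact Finset.mem_product.2 ⟨Finset.mem_image_of_mem _ hp, Finset.mem_image_of_mem _ hp⟩
      refine (Finset.card_le_card hsub).trans ?_
      rw [Finset.card_product]
      apply hcntR g (p0.2.val % rs g)
      · intro t ht
        obtain ⟨p, hp, rfl⟩ := Finset.mem_image.1 ht
        exact (hS p hp).1
      · intro ρ hρ
        obtain ⟨p, hp, rfl⟩ := Finset.mem_image.1 hρ
        exact LReq g _ _ ((hS p hp).2.trans (hS p0 hp0).2.symm)
  · intro g r S hS
    rcases S.eq_empty_or_nonempty with rfl | ⟨p0, hp0⟩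
    · simp
    · have hsub : S ⊆ (S.image Prod.fst) ×ˢ (S.image Prod.snd) := by
        intro p hp
        exact Finset.mem_product.2 ⟨Finset.mem_image_of_mem _ hp, Finset.mem_image_of_mem _ hp⟩
      refine (Finset.card_le_card hsub).trans ?_
      rw [Finset.card_product]
      apply hcntC g (p0.2.val % cs g)
      · intro t ht
        obtain ⟨p, hp, rfl⟩ := Finset.mem_image.1 ht
        exact (hS p hp).1
      · intro ρ hρ
        obtain ⟨p, hp, rfl⟩ := Finset.mem_image.1 hρ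
        exact LCeq g _ _ ((hS p hp).2.trans (hS p0 hp0).2.symm)

end Abstract

end S66.Far
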