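import Crest.Agent.Lib.S66.Concrete
import Crest.Agent.Lib.S66.Far

/-!
# S0066: the far-ness of the concrete matrix
-/

set_option autoImplicit false

namespace S66.FarConcrete

open S66.Tree S66.Frames S66.Rigid S66.Concrete

/-- The node of depth `i` on the path of leaf `t`. -/
def pn {h : ℕ} (t : Fin (2 ^ h)) (i : ℕ) : Node h :=
  ⟨pathNode h t.1 (min i (h + 1)), isNode_pathNode t.2 (by omega)⟩

lemma pn_val {h : ℕ} (t : Fin (2 ^ h)) {i : ℕ} (hi : i ≤ h + 1) :
    (pn t i).1 = pathNode h t.1 i := by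
  simp only [pn]
  rw [min_eq_left hi]

lemma lev_pn {h : ℕ} (t : Fin (2 ^ h)) {i : ℕ} (hi : i ≤ h + 1) :
    levN h (pn t i).1 = i + 1 := by
  rw [pn_val t hi]
  unfold levN
  rw [ν_pathNode hi]
  omega

/-- Selected row groups of leaf `t`. -/
def SelR {h : ℕ} (t : Fin (2 ^ h)) (g : RowG h) : Prop :=
  ∀ k : Node h, g = core (k : RC h) → ∃ i, i ≤ h + 1 ∧ k = pn t i

/-- Selected column groups of leaf `t`. -/
def SelC {h : ℕ} (t : Fin (2 ^ h)) (g : ColG h) : Prop :=
  ∀ k : Node h, g = core (k : CC h) → ∃ i, i ≤ h + 1 ∧ k = pn t i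

/-- Few seeds with a given residue. -/
lemma card_residue_le (s M k : ℕ) (P : Finset (Fin (s * M)))
    (hP : ∀ ρ ∈ P, ρ.val % s = k) : P.card ≤ M := by
  have hinj : Set.InjOn (fun ρ : Fin (s * M) => ρ.val / s) (P : Set (Fin (s * M))) := by
    intro a ha b hb hab
    have ha' := hP a ha
    have hb' := hP b hb
    have hab' : a.val / s = b.val / s := hab
    apply Fin.ext
    rw [← Nat.div_add_mod a.val s, ← Nat.div_add_mod b.val s, hab', ha', hb']
  have hmaps : ∀ ρ ∈ P, ρ.val / s ∈ Finset.range M := by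
    intro ρ _
    apply Finset.mem_range.2
    apply Nat.div_lt_of_lt_mul
    exact ρ.isLt
  have := Finset.card_le_card_of_injOn _ hmaps hinj
  simpa using this

/-- Few leaves through a node. -/
lemma card_leaves_le {h : ℕ} (k : Node h) (T : Finset (Fin (2 ^ h)))
    (hT : ∀ t ∈ T, ∃ i, i ≤ h + 1 ∧ k = pn t i) : T.card ≤ size k.1 := by
  rw [← card_leaves_through k.2]
  have hinj : Set.InjOn (fun t : Fin (2 ^ h) => t.val) (T : Set (Fin (2 ^ h))) := by
    intro a _ b _ hab
    exact Fin.ext hab
  refine Finset.card_le_card_of_injOn _ ?_ hinj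
  intro t ht
  obtain ⟨i, hi, e⟩ := hT t ht
  have e1 : k.1 = pathNode h t.1 i := by rw [e, pn_val t hi]
  simp only [Finset.mem_coe, Finset.mem_filter, Finset.mem_range]
  refine ⟨t.2, ?_⟩
  rw [e1, depth_pathNode hi]

lemma size_le_of_node {h : ℕ} (k : Node h) : size k.1 * 2 ^ (h - (ν k.1 - 1)) = 2 ^ h := by
  have := k.2.ν_le
  unfold size
  rw [← pow_add]
  congr 1
  omega

/-- The count for a group of at least `2^h` lines. -/
lemma cnt_thick {h : ℕ} (s k : ℕ) (hs : 2 ^ h ≤ s) (T P : Finset (Fin (2 ^ h)))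
    (hP : ∀ ρ ∈ P, ρ.val % s = k) : T.card * P.card ≤ 2 ^ h := by
  have h1 : P.card ≤ 1 := by
    rw [Finset.card_le_one]
    intro a ha b hb
    have ha' := hP a ha
    have hb' := hP b hb
    rw [Nat.mod_eq_of_lt (lt_of_lt_of_le a.isLt hs)] at ha'
    rw [Nat.mod_eq_of_lt (lt_of_lt_of_le b.isLt hs)] at hb'
    exact Fin.ext (ha'.trans hb'.symm)
  have h2 : T.card ≤ 2 ^ h := by
    have := Finset.card_le_univ T
    simpa using this
  calc T.card * P.card ≤ 2 ^ h * 1 := Nat.mul_le_mul h2 h1
    _ = 2 ^ h := by ring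

/-- The count for a node. -/
lemma cnt_node {h : ℕ} (v : Node h) (k : ℕ) (T P : Finset (Fin (2 ^ h)))
    (hT : ∀ t ∈ T, ∃ i, i ≤ h + 1 ∧ v = pn t i)
    (hP : ∀ ρ ∈ P, ρ.val % size v.1 = k) : T.card * P.card ≤ 2 ^ h := by
  have e := size_le_of_node v
  have h1 : T.card ≤ size v.1 := card_leaves_le v T hT
  have h2 : P.card ≤ 2 ^ (h - (ν v.1 - 1)) := by
    have hc : Finset.card (P.map (Fin.castOrderIso e.symm).toEquiv.toEmbedding) = P.card :=
      Finset.card_map _
    rw [← hc]
    apply card_residue_le (size v.1) _ k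
    intro ρ hρ
    obtain ⟨a, ha, rfl⟩ := Finset.mem_map.1 hρ
    exact hP a ha
  calc T.card * P.card ≤ size v.1 * 2 ^ (h - (ν v.1 - 1)) := Nat.mul_le_mul h1 h2
    _ = 2 ^ h := e

lemma cntR {h : ℕ} (hh : 2 ≤ h) (g : RowG h) (k : ℕ) (T P : Finset (Fin (2 ^ h)))
    (hT : ∀ t ∈ T, SelR t g) (hP : ∀ ρ ∈ P, ρ.val % rs h g = k) : T.card * P.card ≤ 2 ^ h := by
  rcases grp_cases g with ⟨f, i, rfl⟩ | ⟨r, rfl⟩
  · exact cnt_thick _ k (by simp) T P hP
  · cases r using WithBot.recBotCoe with
    | bot =>
      refine cnt_thick _ k ?_ T P hP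
      show 2 ^ h ≤ (65 * h - 128) * 2 ^ h
      exact Nat.le_mul_of_pos_left _ (by omega)
    | coe v =>
      exact cnt_node v k T P (fun t ht => hT t ht v rfl) hP

lemma cntC {h : ℕ} (hh : 2 ≤ h) (g : ColG h) (k : ℕ) (T P : Finset (Fin (2 ^ h)))
    (hT : ∀ t ∈ T, SelC t g) (hP : ∀ ρ ∈ P, ρ.val % cs h g = k) : T.card * P.card ≤ 2 ^ h := by
  rcases grp_cases g with ⟨f, i, rfl⟩ | ⟨r, rfl⟩
  · exact cnt_thick _ k (by simp) T P hP
  · cases r using WithTop.recTopCoe with
    | top =>
      refine cnt_thick _ k ?_ T P hP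
      show 2 ^ h ≤ (65 * h - 128) * 2 ^ h
      exact Nat.le_mul_of_pos_left _ (by omega)
    | coe v =>
      exact cnt_node v k T P (fun t ht => hT t ht v rfl) hP

lemma rs_pos {h : ℕ} (hh : 2 ≤ h) (g : RowG h) : 0 < rs h g := by
  rcases grp_cases g with ⟨f, i, rfl⟩ | ⟨r, rfl⟩
  · simp
  · cases r using WithBot.recBotCoe with
    | bot =>
      show 0 < (65 * h - 128) * 2 ^ h
      exact Nat.mul_pos (by omega) (by positivity)
    | coe v => exact size_pos _

lemma cs_pos {h : ℕ} (hh : 2 ≤ h) (g : ColG h) : 0 < cs h g := by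
  rcases grp_cases g with ⟨f, i, rfl⟩ | ⟨r, rfl⟩
  · simp
  · cases r using WithTop.recTopCoe with
    | top =>
      show 0 < (65 * h - 128) * 2 ^ h
      exact Nat.mul_pos (by omega) (by positivity)
    | coe v => exact size_pos _

lemma fr_strict {K : ℕ} {C : Type*} [LinearOrder C] (f : Fin K) :
    StrictMono (fr f : Fin 64 → Grp K C) := by
  intro i j hij
  exact fr_lt_fr.2 (Or.inr ⟨rfl, hij⟩)

lemma fr_lt_core {K : ℕ} {C : Type*} [LinearOrder C] (f : Fin K) (i : Fin 64) (r : C) :
    (fr f i : Grp K C) < core r :=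
  lt_of_le_of_ne fr_le_core (by
    intro e
    have := le_of_eq e.symm
    exact not_core_le_fr this)

lemma core_strict {K : ℕ} {C : Type*} [LinearOrder C] :
    StrictMono (core : C → Grp K C) := fun _ _ hrs => core_lt_core.2 hrs

lemma cmp_path {h : ℕ} (t : Fin (2 ^ h)) {i j : ℕ} (hij : i < j) (hj : j ≤ h + 1) :
    Cmp (pathNode h t.1 i) (pathNode h t.1 j) :=
  Or.inl (anc_pathNode h t.1 hij hj)

/-- The first conjunct: far-ness of the concrete matrix. -/
theorem far (h : ℕ) (hh : 2 ≤ h) (B : Fin ((386 * h + 2) * 2 ^ h) → Fin ((386 * h + 2) * 2 ^ h) → Bool)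
    (hB : Crest.CombinatoricsR.OrderedMatrix.orderedCopyCount H B = 0) :
    (2 ^ h) ^ 2 ≤ (Finset.univ.filter (fun rc : Fin ((386 * h + 2) * 2 ^ h) × Fin ((386 * h + 2) * 2 ^ h) =>
      A h hh rc.1 rc.2 ≠ B rc.1 rc.2)).card := by
  have hth : 2 ^ h ≤ (65 * h - 128) * 2 ^ h := Nat.le_mul_of_pos_left _ (by omega)
  refine S66.Far.far_layout (K := K h) (N := 2 ^ h) (h := h) (H := H) (G := (D h).G)
    (frR := fr) (coreR := core) (frC := fr) (coreC := core) (A := A h hh) (B := B)
    (rs := rs h) (cs := cs h) (sum_rs h hh) (sum_cs h hh) (rs_pos hh) (cs_pos hh)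
    (fun r c => rfl) hB SelR SelC (cntR hh) (cntC hh) ?_ ?_ ?_ ?_ fr_strict fr_strict
    fr_lt_core fr_lt_core core_strict core_strict
    (fun f r => (D h).R1 f r = true) (fun f r => (D h).R2 f r = true)
    (fun f c => (D h).C1 f c = true) (fun f c => (D h).C2 f c = true)
    ?_ ?_ ?_ ?_ ?_ H_corner (⊥ : RC h) (⊤ : CC h) hth hth ?_ ?_
    (fun t i => ((pn t i : Node h) : RC h)) (fun t i => ((pn t i : Node h) : CC h)) ?_ ?_ ?_ ?_
    ?_ ?_ ?_ ?_ ?_ ?_
  · -- frames are selected
    intro t f i k e
    exact absurd (le_of_eq e.symm) not_core_le_fr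
  · intro t f i k e
    exact absurd (le_of_eq e.symm) not_core_le_fr
  · intro f i; simp
  · intro f i; simp
  · -- frame × frame
    intro f i j
    rw [G_fr_fr]
    simp only [lt_self_iff_false, if_false]
    rfl
  · -- row y1
    intro f y j hy
    have hy' : (D h).R2 f y = false := by
      by_contra hc
      exact S66.Concrete.hR h f y ⟨hy, by simpa using hc⟩
    have e := H_row64 (pos j) (by simp)
    change (D h).G (core y) (fr f j) = H 64 (pos j)
    rw [G_core_fr, e, hy, hy']
    by_cases h0 : j.val = 0 <;> simp [h0]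
  · intro f y j hy
    have hy' : (D h).R1 f y = false := by
      by_contra hc
      exact S66.Concrete.hR h f y ⟨by simpa using hc, hy⟩
    have e := H_row65 (pos j) (by simp)
    change (D h).G (core y) (fr f j) = H 65 (pos j)
    rw [G_core_fr, e, hy, hy']
    by_cases h0 : j.val = 1 <;> simp [h0]
  · intro f x i hx
    have hx' : (D h).C2 f x = false := by
      by_contra hc
      exact S66.Concrete.hC h f x ⟨hx, by simpa using hc⟩
    have e := H_col64 (pos i) (by simp)
    change (D h).G (fr f i) (core x) = H (pos i) 64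
    rw [G_fr_core, e, hx, hx']
    by_cases h0 : i.val = 0 <;> simp [h0]
  · intro f x i hx
    have hx' : (D h).C1 f x = false := by
      by_contra hc
      exact S66.Concrete.hC h f x ⟨by simpa using hc, hx⟩
    have e := H_col65 (pos i) (by simp)
    change (D h).G (fr f i) (core x) = H (pos i) 65
    rw [G_fr_core, e, hx, hx']
    by_cases h0 : i.val = 1 <;> simp [h0]
  · -- a selected
    intro t k e
    exact absurd (core_inj e) (by simp)
  · intro t k e
    exact absurd (core_inj e) (by simp)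
  · -- path selected
    intro t i hi k e
    have := core_inj e
    exact ⟨i, hi, (WithBot.coe_injective this).symm⟩
  · intro t i hi k e
    have := core_inj e
    exact ⟨i, hi, (WithTop.coe_injective this).symm⟩
  · -- root is thick
    intro t
    show 2 ^ h ≤ size (pn t 0).1
    rw [pn_val t (by omega), size, ν_pathNode (by omega)]
    simp
  · intro t
    show 2 ^ h ≤ size (pn t 0).1
    rw [pn_val t (by omega), size, ν_pathNode (by omega)]
    simp
  · -- h00
    intro t
    show M h ((pn t 0 : Node h) : RC h) ((pn t 0 : Node h) : CC h) = false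
    rw [M_node_node]
    simp only [decide_eq_false_iff_not]
    exact not_cmp_of_same_val rfl
  · intro t j hj1 hj2
    show M h ((pn t 0 : Node h) : RC h) ((pn t j : Node h) : CC h) = true
    rw [M_node_node]
    simp only [decide_eq_true_eq]
    rw [pn_val t (by omega), pn_val t hj2]
    exact cmp_path t (by omega) hj2
  · intro t i hi1 hi2
    show M h ((pn t i : Node h) : RC h) ((pn t 0 : Node h) : CC h) = true
    rw [M_node_node]
    simp only [decide_eq_true_eq]
    rw [pn_val t hi2, pn_val t (by omega)]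
    exact (cmp_path t (by omega) hi2).symm
  · -- hZ
    intro t i hi1 hi2
    refine ⟨⟨4 * h + (i - 1), by unfold K; omega⟩, ?_, ?_, ?_, ?_, ?_, ?_, ?_, ?_, ?_⟩
    · show decide ((frameOf h (4 * h + (i - 1))).R1.Mem 0) = true
      rw [frameOf_Z hi1 hi2]
      simp [Z, LSet.Mem]
    · show decide ((frameOf h (4 * h + (i - 1))).R2.Mem (levN h (pn t i).1)) = true
      rw [frameOf_Z hi1 hi2, lev_pn t hi2]
      simp [Z, LSet.Mem]
    · show decide ((frameOf h (4 * h + (i - 1))).C1.Mem (levN h (pn t i).1)) = true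
      rw [frameOf_Z hi1 hi2, lev_pn t hi2]
      simp [Z, LSet.Mem]
    · show decide ((frameOf h (4 * h + (i - 1))).C2.Mem 0) = true
      rw [frameOf_Z hi1 hi2]
      simp [Z, LSet.Mem]
    · exact WithBot.bot_lt_coe _
    · exact WithTop.coe_lt_top _
    · rfl
    · rfl
    · rfl
  · -- hW
    intro t p hp i j hi hj hi2 hj2 hij hor
    have hplt : p < h + 1 := by omega
    have hne := (anc_pathNode h t.1 (show p < p + 1 by omega) (show p + 1 ≤ h + 1 by omega)).ne
    have sideI := pathNode_side h t.1 (show p < i by omega) hi2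
    have sideJ := pathNode_side h t.1 (show p < j by omega) hj2
    have ltR : ∀ u v, u ≤ h + 1 → v ≤ h + 1 → pathNode h t.1 u < pathNode h t.1 v →
        ((pn t u : Node h) : RC h) < ((pn t v : Node h) : RC h) := by
      intro u v hu hv hlt
      apply WithBot.coe_lt_coe.2
      show (pn t u).1 < (pn t v).1
      rwa [pn_val t hu, pn_val t hv]
    have ltC : ∀ u v, u ≤ h + 1 → v ≤ h + 1 → pathNode h t.1 u < pathNode h t.1 v →
        ((pn t u : Node h) : CC h) < ((pn t v : Node h) : CC h) := by
      intro u v hu hv hlt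
      apply WithTop.coe_lt_coe.2
      show (pn t u).1 < (pn t v).1
      rwa [pn_val t hu, pn_val t hv]
    by_cases hleft : pathNode h t.1 (p + 1) < pathNode h t.1 p
    · have hiL := ltR i p hi2 (by omega) (sideI.2 hleft)
      have hjL := ltC j p hj2 (by omega) (sideJ.2 hleft)
      rcases hor with rfl | rfl
      · -- W1_p
        refine ⟨⟨4 * p, by unfold K; omega⟩, Or.inl ⟨?_, ?_, ?_, ?_, hiL, hjL⟩⟩
        · show decide ((frameOf h (4 * p)).R1.Mem (levN h (pn t (p + 1)).1)) = true
          rw [frameOf_W1 hp, lev_pn t hi2]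
          simp [W1, LSet.Mem]
        · show decide ((frameOf h (4 * p)).R2.Mem (levN h (pn t p).1)) = true
          rw [frameOf_W1 hp, lev_pn t (by omega)]
          simp [W1, LSet.Mem]
        · show decide ((frameOf h (4 * p)).C1.Mem (levN h (pn t j).1)) = true
          rw [frameOf_W1 hp, lev_pn t hj2]
          simp only [W1, LSet.Mem, decide_eq_true_eq]
          omega
        · show decide ((frameOf h (4 * p)).C2.Mem (levN h (pn t p).1)) = true
          rw [frameOf_W1 hp, lev_pn t (by omega)]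
          simp [W1, LSet.Mem]
      · -- W3_p
        refine ⟨⟨4 * p + 2, by unfold K; omega⟩, Or.inl ⟨?_, ?_, ?_, ?_, hiL, hjL⟩⟩
        · show decide ((frameOf h (4 * p + 2)).R1.Mem (levN h (pn t i).1)) = true
          rw [frameOf_W3 hp, lev_pn t hi2]
          simp only [W3, LSet.Mem, decide_eq_true_eq]
          omega
        · show decide ((frameOf h (4 * p + 2)).R2.Mem (levN h (pn t p).1)) = true
          rw [frameOf_W3 hp, lev_pn t (by omega)]
          simp [W3, LSet.Mem]
        · show decide ((frameOf h (4 * p + 2)).C1.Mem (levN h (pn t (p + 1)).1)) = true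
          rw [frameOf_W3 hp, lev_pn t hj2]
          simp [W3, LSet.Mem]
        · show decide ((frameOf h (4 * p + 2)).C2.Mem (levN h (pn t p).1)) = true
          rw [frameOf_W3 hp, lev_pn t (by omega)]
          simp [W3, LSet.Mem]
    · have hright : pathNode h t.1 p < pathNode h t.1 (p + 1) := by omega
      have hiR : pathNode h t.1 p < pathNode h t.1 i := by
        by_contra hc
        have hne2 := (anc_pathNode h t.1 (show p < i by omega) hi2).ne
        exact hleft (sideI.1 (by omega))
      have hjR : pathNode h t.1 p < pathNode h t.1 j := by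
        by_contra hc
        have hne2 := (anc_pathNode h t.1 (show p < j by omega) hj2).ne
        exact hleft (sideJ.1 (by omega))
      have hiL := ltR p i (by omega) hi2 hiR
      have hjL := ltC p j (by omega) hj2 hjR
      rcases hor with rfl | rfl
      · -- W2_p
        refine ⟨⟨4 * p + 1, by unfold K; omega⟩, Or.inr ⟨?_, ?_, ?_, ?_, hiL, hjL⟩⟩
        · show decide ((frameOf h (4 * p + 1)).R1.Mem (levN h (pn t p).1)) = true
          rw [frameOf_W2 hp, lev_pn t (by omega)]
          simp [W2, LSet.Mem]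
        · show decide ((frameOf h (4 * p + 1)).R2.Mem (levN h (pn t (p + 1)).1)) = true
          rw [frameOf_W2 hp, lev_pn t hi2]
          simp [W2, LSet.Mem]
        · show decide ((frameOf h (4 * p + 1)).C1.Mem (levN h (pn t p).1)) = true
          rw [frameOf_W2 hp, lev_pn t (by omega)]
          simp [W2, LSet.Mem]
        · show decide ((frameOf h (4 * p + 1)).C2.Mem (levN h (pn t j).1)) = true
          rw [frameOf_W2 hp, lev_pn t hj2]
          simp only [W2, LSet.Mem, decide_eq_true_eq]
          omega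
      · -- W4_p
        refine ⟨⟨4 * p + 3, by unfold K; omega⟩, Or.inr ⟨?_, ?_, ?_, ?_, hiL, hjL⟩⟩
        · show decide ((frameOf h (4 * p + 3)).R1.Mem (levN h (pn t p).1)) = true
          rw [frameOf_W4 hp, lev_pn t (by omega)]
          simp [W4, LSet.Mem]
        · show decide ((frameOf h (4 * p + 3)).R2.Mem (levN h (pn t i).1)) = true
          rw [frameOf_W4 hp, lev_pn t hi2]
          simp only [W4, LSet.Mem, decide_eq_true_eq]
          omega
        · show decide ((frameOf h (4 * p + 3)).C1.Mem (levN h (pn t p).1)) = true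
          rw [frameOf_W4 hp, lev_pn t (by omega)]
          simp [W4, LSet.Mem]
        · show decide ((frameOf h (4 * p + 3)).C2.Mem (levN h (pn t (p + 1)).1)) = true
          rw [frameOf_W4 hp, lev_pn t hj2]
          simp [W4, LSet.Mem]
  · -- hC
    intro t
    refine ⟨⟨5 * h + 1, by unfold K; omega⟩, ?_, ?_, ?_, ?_, ?_, ?_⟩
    · show decide ((frameOf h (5 * h + 1)).R1.Mem (levN h (pn t h).1)) = true
      rw [frameOf_CF, lev_pn t (by omega)]
      simp [CF, LSet.Mem]
    · show decide ((frameOf h (5 * h + 1)).R2.Mem (levN h (pn t (h + 1)).1)) = true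
      rw [frameOf_CF, lev_pn t (by omega)]
      simp [CF, LSet.Mem]
    · show decide ((frameOf h (5 * h + 1)).C1.Mem (levN h (pn t h).1)) = true
      rw [frameOf_CF, lev_pn t (by omega)]
      simp [CF, LSet.Mem]
    · show decide ((frameOf h (5 * h + 1)).C2.Mem (levN h (pn t (h + 1)).1)) = true
      rw [frameOf_CF, lev_pn t (by omega)]
      simp [CF, LSet.Mem]
    · apply WithBot.coe_lt_coe.2
      show (pn t h).1 < (pn t (h + 1)).1
      rw [pn_val t (by omega), pn_val t le_rfl, pathNode_self, pathNode_last]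
      omega
    · apply WithTop.coe_lt_coe.2
      show (pn t h).1 < (pn t (h + 1)).1
      rw [pn_val t (by omega), pn_val t le_rfl, pathNode_self, pathNode_last]
      omega

end S66.FarConcrete
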