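import Crest.Agent.Lib.S66.Layout

/-!
# S0066 (row 47): the case `h = 1`, for an arbitrary pattern

`A` is a blow-up of `H` with all groups of size at least `2`: four clean seeds, each cell exposed
by at most one of them, so at least four flips are needed.  The count is the crude `C(776,66)²`.
-/

set_option autoImplicit false

open Crest.CombinatoricsR

namespace S66.SmallH

open S66.Layout

/-- The group sizes of the blow-up: all at least `2`. -/
def sz (n : ℕ) (i : Fin 66) : ℕ := if i = 0 then n - 130 else 2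

theorem sz_sum {n : ℕ} (hn : 132 ≤ n) : ∑ i, sz n i = n := by
  rw [Fin.sum_univ_succ]
  have : ∀ i : Fin 65, sz n i.succ = 2 := fun i => by simp [sz, Fin.succ_ne_zero]
  simp only [this]
  simp [sz]
  omega

theorem two_le_sz {n : ℕ} (hn : 132 ≤ n) (i : Fin 66) : 2 ≤ sz n i := by
  unfold sz
  split_ifs <;> omega

/-- Seeds: every blow-up of `H` with groups of size at least two needs four flips. -/
theorem four_le_flips {n : ℕ} (hn : 132 ≤ n) (H : Fin 66 → Fin 66 → Bool)
    (A B : Fin n → Fin n → Bool)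
    (hA : ∀ i j, A i j = H (grp (sz_sum hn) i) (grp (sz_sum hn) j))
    (hB : OrderedMatrix.orderedCopyCount H B = 0) :
    4 ≤ (Finset.univ.filter (fun rc : Fin n × Fin n => A rc.1 rc.2 ≠ B rc.1 rc.2)).card := by
  classical
  set hs := sz_sum hn
  -- the transversal of a seed
  let r : Fin 2 → Fin 66 → Fin n := fun a i => sel hs i (Fin.castLE (two_le_sz hn i) a)
  have hr : ∀ a, StrictMono (r a) := fun a =>
    transversal_strictMono hs (φ := id) strictMono_id (fun i => Fin.castLE (two_le_sz hn i) a)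
  have hgrp : ∀ a i, grp hs (r a i) = i := fun a i => by simp [r]
  have hcell : ∀ p : Fin 2 × Fin 2, ∃ ij : Fin 66 × Fin 66,
      B (r p.1 ij.1) (r p.2 ij.2) ≠ H ij.1 ij.2 := by
    intro p
    by_contra hcon
    push Not at hcon
    exact no_copy hB (hr p.1) (hr p.2) (fun i j => hcon (i, j))
  choose ij hij using hcell
  let cell : Fin 2 × Fin 2 → Fin n × Fin n := fun p => (r p.1 (ij p).1, r p.2 (ij p).2)
  have hmem : ∀ p, cell p ∈ Finset.univ.filter (fun rc : Fin n × Fin n => A rc.1 rc.2 ≠ B rc.1 rc.2) := by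
    intro p
    simp only [Finset.mem_filter, Finset.mem_univ, true_and, cell, hA, hgrp]
    exact fun h => hij p h.symm
  have hinj : Function.Injective cell := by
    intro p q hpq
    simp only [cell, Prod.mk.injEq] at hpq
    obtain ⟨h1, h2⟩ := hpq
    have g1 : (ij p).1 = (ij q).1 := by
      have := congrArg (grp hs) h1
      simpa [hgrp] using this
    have g2 : (ij p).2 = (ij q).2 := by
      have := congrArg (grp hs) h2
      simpa [hgrp] using this
    have a1 : p.1 = q.1 := by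
      simp only [r] at h1
      rw [g1] at h1
      have := sel_injective hs _ h1
      exact Fin.castLE_injective _ this
    have a2 : p.2 = q.2 := by
      simp only [r] at h2
      rw [g2] at h2
      have := sel_injective hs _ h2
      exact Fin.castLE_injective _ this
    exact Prod.ext a1 a2
  have := Finset.card_le_card_of_injOn (s := (Finset.univ : Finset (Fin 2 × Fin 2))) cell
    (fun p _ => hmem p) hinj.injOn
  simpa using this

/-- `C(n,66)²` is small enough for `n = 776`. -/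
theorem choose_bound {n : ℕ} (hn : (n : ℝ) = 776) :
    (((n.choose 66) ^ 2 : ℕ) : ℝ) / (n : ℝ) ^ 132 ≤ (1 / 776) ^ 2 := by
  have h1 : ((n.choose 66 : ℕ) : ℝ) ≤ (n : ℝ) ^ 66 / (Nat.factorial 66 : ℝ) :=
    Nat.choose_le_pow_div 66 n
  have h3 : (776 : ℝ) ≤ (Nat.factorial 66 : ℝ) := by
    have : 776 ≤ Nat.factorial 66 := by
      have h := Nat.factorial_le (show 7 ≤ 66 by norm_num)
      have h7 : Nat.factorial 7 = 5040 := by decide
      omega
    exact_mod_cast this
  have hpos : (0 : ℝ) < (776 : ℝ) ^ 66 := by positivity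
  rw [hn] at h1 ⊢
  push_cast
  have h1' : ((n.choose 66 : ℕ) : ℝ) ≤ (776 : ℝ) ^ 66 / 776 :=
    h1.trans (div_le_div_of_nonneg_left hpos.le (by norm_num) h3)
  have hnn : (0 : ℝ) ≤ ((n.choose 66 : ℕ) : ℝ) := Nat.cast_nonneg _
  have hsq : ((n.choose 66 : ℕ) : ℝ) ^ 2 ≤ ((776 : ℝ) ^ 66 / 776) ^ 2 :=
    pow_le_pow_left₀ hnn h1' 2
  have hx : ((776 : ℝ) ^ 66 / 776) ^ 2 / (776 : ℝ) ^ 132 = (1 / 776) ^ 2 := by
    field_simp
  calc ((n.choose 66 : ℕ) : ℝ) ^ 2 / (776 : ℝ) ^ 132
      ≤ ((776 : ℝ) ^ 66 / 776) ^ 2 / (776 : ℝ) ^ 132 :=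
        div_le_div_of_nonneg_right hsq (by positivity)
    _ = (1 / 776) ^ 2 := hx

/-- The case `n = 776`, in plain numbers. -/
theorem small_general {n : ℕ} (hn : n = 776) (H : Fin 66 → Fin 66 → Bool) :
    ∃ A : Fin n → Fin n → Bool,
      (∀ B : Fin n → Fin n → Bool, OrderedMatrix.orderedCopyCount H B = 0 →
        (4 : ℝ) ≤ ((Finset.univ.filter (fun rc : Fin n × Fin n =>
              A rc.1 rc.2 ≠ B rc.1 rc.2)).card : ℝ)) ∧
      (OrderedMatrix.orderedCopyCount H A : ℝ) / (n : ℝ) ^ 132 ≤ (1 / 776) ^ 2 := by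
  have hn' : 132 ≤ n := by omega
  have hcast : (n : ℝ) = 776 := by rw [hn]; norm_num
  refine ⟨fun i j => H (grp (sz_sum hn') i) (grp (sz_sum hn') j), ?_, ?_⟩
  · intro B hB
    have h4 := four_le_flips hn' H _ B (fun _ _ => rfl) hB
    exact_mod_cast h4
  · have hc := orderedCopyCount_le_choose_sq H
      (fun i j : Fin n => H (grp (sz_sum hn') i) (grp (sz_sum hn') j))
    have hc' : (OrderedMatrix.orderedCopyCount H
        (fun i j : Fin n => H (grp (sz_sum hn') i) (grp (sz_sum hn') j)) : ℝ)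
        ≤ (((n.choose 66) ^ 2 : ℕ) : ℝ) := by
      exact_mod_cast hc
    refine le_trans ?_ (choose_bound hcast)
    exact div_le_div_of_nonneg_right hc' (by positivity)

/-- The statement of S0066 at `h = 1`, for any pattern. -/
theorem small (H : Fin 66 → Fin 66 → Bool) (h : ℕ) (hh : h = 1) :
    ∃ A : Fin ((386 * h + 2) * 2 ^ h) → Fin ((386 * h + 2) * 2 ^ h) → Bool,
      (∀ B : Fin ((386 * h + 2) * 2 ^ h) → Fin ((386 * h + 2) * 2 ^ h) → Bool,
        OrderedMatrix.orderedCopyCount H B = 0 →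
          ((386 * (h : ℝ) + 2) ^ 2)⁻¹ * (((386 * h + 2) * 2 ^ h : ℕ) : ℝ) ^ 2 ≤
            ((Finset.univ.filter (fun rc : Fin ((386 * h + 2) * 2 ^ h) × Fin ((386 * h + 2) * 2 ^ h) =>
              A rc.1 rc.2 ≠ B rc.1 rc.2)).card : ℝ)) ∧
      (OrderedMatrix.orderedCopyCount H A : ℝ) /
          (((386 * h + 2) * 2 ^ h : ℕ) : ℝ) ^ 132 ≤
        ((386 * (h : ℝ) + 2) ^ 2)⁻¹ * (2 : ℝ)⁻¹ ^ h := by
  subst hh
  obtain ⟨A, hA1, hA2⟩ := small_general (n := (386 * 1 + 2) * 2 ^ 1) (by norm_num) H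
  refine ⟨A, fun B hB => le_trans (le_of_eq ?_) (hA1 B hB), le_trans hA2 ?_⟩
  · norm_num
  · norm_num

end S66.SmallH
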