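import Crest.Agent.Lib.S66.Concrete
import Crest.Agent.Lib.S66.FarConcrete
import Crest.Agent.Lib.S66.SmallH
import Crest.Agent.Lib.S66.Count

/-!
# S0066: final assembly
-/

set_option autoImplicit false

namespace S66.Final

open S66.Tree S66.Frames S66.Rigid S66.Concrete
open Crest.CombinatoricsR.OrderedMatrix

/-- Two lines of a group of size one are equal. -/
lemma line_unique {G : Type*} [LinearOrder G] [Fintype G] {s : G → ℕ} {n : ℕ} (hs : ∑ g, s g = n)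
    {g : G} (hg : s g = 1) {i j : Fin n} (hi : Layout.grp hs i = g) (hj : Layout.grp hs j = g) :
    i = j := by
  subst hi
  obtain ⟨ρ, hρ⟩ := Layout.exists_sel hs i
  obtain ⟨ρ', hρ'⟩ := Layout.exists_sel hs j
  have e : Layout.grp hs j = Layout.grp hs i := hj
  have hsub : Subsingleton (Fin (s (Layout.grp hs i))) := by
    rw [hg]; infer_instance
  -- transport
  have key : ∀ (g' : G) (he : g' = Layout.grp hs i) (σ : Fin (s g')),
      Layout.sel hs g' σ = Layout.sel hs (Layout.grp hs i) (he ▸ σ) := by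
    intro g' he σ
    subst he
    rfl
  rw [← hρ, ← hρ', key _ e ρ']
  congr 1
  exact Subsingleton.elim _ _

lemma rs_L1 (h : ℕ) (t : Fin (2 ^ h)) : rs h (core (L1 t : RC h)) = 1 := by
  change size (4 * t.1 + 2) = 1
  simp [size, ν_L1]

lemma rs_L2 (h : ℕ) (t : Fin (2 ^ h)) : rs h (core (L2 t : RC h)) = 1 := by
  change size (4 * t.1 + 3) = 1
  simp [size, ν_L2]

lemma cs_L1 (h : ℕ) (t : Fin (2 ^ h)) : cs h (core (L1 t : CC h)) = 1 := by
  change size (4 * t.1 + 2) = 1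
  simp [size, ν_L1]

lemma cs_L2 (h : ℕ) (t : Fin (2 ^ h)) : cs h (core (L2 t : CC h)) = 1 := by
  change size (4 * t.1 + 3) = 1
  simp [size, ν_L2]

/-- The count for `h ≥ 2`. -/
theorem count_main (h : ℕ) (hh : 2 ≤ h) :
    orderedCopyCount H (A h hh) ≤ 2 ^ h * ((386 * h + 2) * 2 ^ h) ^ 128 := by
  let n := (386 * h + 2) * 2 ^ h
  have hR1 : ∀ t : Fin (2 ^ h), 0 < rs h (core (L1 t : RC h)) := fun t => by rw [rs_L1]; norm_num
  have hR2 : ∀ t : Fin (2 ^ h), 0 < rs h (core (L2 t : RC h)) := fun t => by rw [rs_L2]; norm_num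
  have hC1 : ∀ t : Fin (2 ^ h), 0 < cs h (core (L1 t : CC h)) := fun t => by rw [cs_L1]; norm_num
  have hC2 : ∀ t : Fin (2 ^ h), 0 < cs h (core (L2 t : CC h)) := fun t => by rw [cs_L2]; norm_num
  refine S66.Count.count_le (N := 2 ^ h) H (A h hh)
    (fun t => Layout.sel (sum_rs h hh) _ ⟨0, hR1 t⟩)
    (fun t => Layout.sel (sum_rs h hh) _ ⟨0, hR2 t⟩)
    (fun t => Layout.sel (sum_cs h hh) _ ⟨0, hC1 t⟩)
    (fun t => Layout.sel (sum_cs h hh) _ ⟨0, hC2 t⟩) ?_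
  intro ρ κ hρ hκ hcopy
  have hφ : Monotone (fun i => gR h hh (ρ i)) := (Layout.grp_mono _).comp hρ.monotone
  have hψ : Monotone (fun i => gC h hh (κ i)) := (Layout.grp_mono _).comp hκ.monotone
  obtain ⟨t, f, -, -, e1, e2, e3, e4⟩ :=
    rigid_concrete h hφ hψ (fun i j => hcopy i j)
  refine ⟨t, ?_, ?_, ?_, ?_⟩
  · exact line_unique (sum_rs h hh) (rs_L1 h t) e1 (Layout.grp_sel _ _ _)
  · exact line_unique (sum_rs h hh) (rs_L2 h t) e2 (Layout.grp_sel _ _ _)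
  · exact line_unique (sum_cs h hh) (cs_L1 h t) e3 (Layout.grp_sel _ _ _)
  · exact line_unique (sum_cs h hh) (cs_L2 h t) e4 (Layout.grp_sel _ _ _)

/-- The arithmetic of the first conjunct. -/
lemma first_arith (h c : ℕ) (hc : (2 ^ h) ^ 2 ≤ c) :
    ((386 * (h : ℝ) + 2) ^ 2)⁻¹ * (((386 * h + 2) * 2 ^ h : ℕ) : ℝ) ^ 2 ≤ (c : ℝ) := by
  have hL : (0 : ℝ) < 386 * (h : ℝ) + 2 := by positivity
  have hcast : (((386 * h + 2) * 2 ^ h : ℕ) : ℝ) = (386 * (h : ℝ) + 2) * 2 ^ h := by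
    push_cast; ring
  rw [hcast]
  have e : ((386 * (h : ℝ) + 2) ^ 2)⁻¹ * ((386 * (h : ℝ) + 2) * 2 ^ h) ^ 2 = ((2 : ℝ) ^ h) ^ 2 := by
    field_simp
  rw [e]
  exact_mod_cast hc

/-- S0066. -/
theorem main :
    ∃ H : Fin 66 → Fin 66 → Bool, ∀ h : ℕ, 1 ≤ h →
      ∃ A : Fin ((386 * h + 2) * 2 ^ h) → Fin ((386 * h + 2) * 2 ^ h) → Bool,
        (∀ B : Fin ((386 * h + 2) * 2 ^ h) → Fin ((386 * h + 2) * 2 ^ h) → Bool,
          orderedCopyCount H B = 0 →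
            ((386 * (h : ℝ) + 2) ^ 2)⁻¹ * (((386 * h + 2) * 2 ^ h : ℕ) : ℝ) ^ 2 ≤
              ((Finset.univ.filter (fun rc : Fin ((386 * h + 2) * 2 ^ h) × Fin ((386 * h + 2) * 2 ^ h) =>
                A rc.1 rc.2 ≠ B rc.1 rc.2)).card : ℝ)) ∧
        (orderedCopyCount H A : ℝ) /
            (((386 * h + 2) * 2 ^ h : ℕ) : ℝ) ^ 132 ≤
          ((386 * (h : ℝ) + 2) ^ 2)⁻¹ * (2 : ℝ)⁻¹ ^ h := by
  refine ⟨H, fun h hh1 => ?_⟩
  rcases Nat.lt_or_ge h 2 with h2 | h2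
  · have : h = 1 := by omega
    exact S66.SmallH.small H h this
  · refine ⟨A h h2, fun B hB => ?_, ?_⟩
    · exact first_arith h _ (S66.FarConcrete.far h h2 B hB)
    · exact S66.Count.second_conjunct h _ (count_main h h2)

end S66.Final
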