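import Mathlib

/-!
# S0066: the pattern `H` and abstract group-level rigidity

Sections 3, 4 and 5 of the design (finding 684).  Indices are 0-based here.

* `Hn`, `H`: the `66 × 66` pattern;
* `Grp K C = (Fin K ×ₗ Fin 64) ⊕ₗ C`: frame groups (lexicographic) followed by the core lines `C`;
* `Data`: core table and letter sets; `Data.G`: the group-level matrix;
* `rigid`: a monotone group-level copy is the identity on a single frame plus four core lines
  in the letter sets of that frame with core pattern `[[0,1],[1,0]]`;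
* `G_copy`: the converse, used for the farness part.
-/

set_option autoImplicit false
set_option linter.unusedSectionVars false
set_option linter.unusedVariables false

namespace S66.Rigid

/-- The pattern, 1-indexed as in the design. -/
def Hn (i j : ℕ) : Bool :=
  if i ≤ 64 ∧ j ≤ 64 then
    if i = 1 ∧ j = 1 then true
    -- Q_Y: rows 3,4,5 × cols 3,4 = [[1,1],[1,0],[0,1]]
    else if i = 4 ∧ j = 4 then false
    else if i = 5 ∧ j = 3 then false
    else if i = 5 ∧ j = 4 then true
    else if i = 3 ∧ j = 3 then true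
    else if i = 3 ∧ j = 4 then true
    else if i = 4 ∧ j = 3 then true
    -- Q_X: rows 3,4 × cols 5,6,7 = [[0,0,1],[0,1,0]]
    else if i = 3 ∧ j = 5 then false
    else if i = 3 ∧ j = 6 then false
    else if i = 3 ∧ j = 7 then true
    else if i = 4 ∧ j = 5 then false
    else if i = 4 ∧ j = 6 then true
    else if i = 4 ∧ j = 7 then false
    -- Q_M: rows 62,63,64 × cols 62,63,64 = plus
    else if 62 ≤ i ∧ 62 ≤ j then (i == 63 || j == 63)
    else decide (j < i)
  else if i ≤ 64 then
    if j = 65 then decide (i ≠ 1) else decide (i ≠ 2)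
  else if j ≤ 64 then
    if i = 65 then decide (j = 1) else decide (j = 2)
  else decide (i ≠ j)

/-- The pattern as a matrix on `Fin 66`. -/
def H : Fin 66 → Fin 66 → Bool := fun i j => Hn (i.val + 1) (j.val + 1)

/-- Frame positions, embedded in `Fin 66`. -/
def pos (i : Fin 64) : Fin 66 := Fin.castLE (by norm_num) i

@[simp] theorem pos_val (i : Fin 64) : (pos i).val = i.val := rfl

section HFacts

theorem H_adj_rows : ∀ i : Fin 65, ∃ j : Fin 66, H i.castSucc j ≠ H i.succ j := by
  decide +kernel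

theorem H_adj_cols : ∀ j : Fin 65, ∃ i : Fin 66, H i j.castSucc ≠ H i j.succ := by
  decide +kernel

theorem H_00 : H 0 0 = true := by decide +kernel
theorem H_0j : ∀ j : Fin 66, 1 ≤ j.val → j.val ≤ 64 → H 0 j = false := by decide +kernel
theorem H_i0 : ∀ i : Fin 66, i.val ≤ 64 → H i 0 = true := by decide +kernel
theorem H_63_1 : H 63 1 = true := by decide +kernel
theorem H_1_63 : H 1 63 = false := by decide +kernel
theorem H_65_1 : H 65 1 = true := by decide +kernel
theorem H_1_65 : H 1 65 = false := by decide +kernel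
theorem H_QY : H 2 2 = true ∧ H 3 2 = true ∧ H 4 2 = false ∧
    H 2 3 = true ∧ H 3 3 = false ∧ H 4 3 = true := by decide +kernel
theorem H_QX : H 2 4 = false ∧ H 2 5 = false ∧ H 2 6 = true ∧
    H 3 4 = false ∧ H 3 5 = true ∧ H 3 6 = false := by decide +kernel
theorem H_QM : H 61 61 = false ∧ H 61 62 = true ∧ H 61 63 = false ∧
    H 62 61 = true ∧ H 62 62 = true ∧ H 62 63 = true ∧
    H 63 61 = false ∧ H 63 62 = true ∧ H 63 63 = false := by decide +kernel
theorem H_corner : H 64 64 = false ∧ H 64 65 = true ∧ H 65 64 = true ∧ H 65 65 = false := by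
  decide +kernel
/-- Column 65 (1-indexed) on rows of `P`. -/
theorem H_col64 : ∀ i : Fin 66, i.val < 64 → H i 64 = decide (i.val ≠ 0) := by decide +kernel
/-- Column 66 (1-indexed) on rows of `P`. -/
theorem H_col65 : ∀ i : Fin 66, i.val < 64 → H i 65 = decide (i.val ≠ 1) := by decide +kernel
/-- Row 65 (1-indexed) on columns of `P`. -/
theorem H_row64 : ∀ j : Fin 66, j.val < 64 → H 64 j = decide (j.val = 0) := by decide +kernel
/-- Row 66 (1-indexed) on columns of `P`. -/
theorem H_row65 : ∀ j : Fin 66, j.val < 64 → H 65 j = decide (j.val = 1) := by decide +kernel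

end HFacts

/-- Groups: frame groups `(f, i)` in lexicographic order, followed by the core lines. -/
abbrev Grp (K : ℕ) (C : Type*) := (Fin K ×ₗ Fin 64) ⊕ₗ C

section Order

variable {K : ℕ} {C : Type*} [LinearOrder C]

/-- A frame group. -/
def fr (f : Fin K) (i : Fin 64) : Grp K C := Sum.inlₗ (toLex (f, i))

/-- A core line. -/
def core (r : C) : Grp K C := Sum.inrₗ r

theorem grp_cases (x : Grp K C) : (∃ f i, x = fr f i) ∨ ∃ r, x = core r := by
  rcases h : ofLex x with p | r
  · left
    refine ⟨(ofLex p).1, (ofLex p).2, ?_⟩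
    apply ofLex.injective
    simp [fr, h]
  · right
    refine ⟨r, ?_⟩
    apply ofLex.injective
    simp [core, h]

theorem fr_le_fr {f g : Fin K} {i j : Fin 64} :
    (fr f i : Grp K C) ≤ fr g j ↔ f < g ∨ (f = g ∧ i ≤ j) := by
  simp only [fr, Sum.Lex.inl_le_inl_iff, Prod.Lex.le_iff, ofLex_toLex]

theorem fr_lt_fr {f g : Fin K} {i j : Fin 64} :
    (fr f i : Grp K C) < fr g j ↔ f < g ∨ (f = g ∧ i < j) := by
  simp only [fr, Sum.Lex.inl_lt_inl_iff, Prod.Lex.lt_iff, ofLex_toLex]

theorem fr_le_core {f : Fin K} {i : Fin 64} {r : C} : (fr f i : Grp K C) ≤ core r :=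
  Sum.Lex.inl_le_inr _ _

theorem not_core_le_fr {f : Fin K} {i : Fin 64} {r : C} : ¬ (core r : Grp K C) ≤ fr f i :=
  Sum.Lex.not_inr_le_inl

theorem core_le_core {r s : C} : (core r : Grp K C) ≤ core s ↔ r ≤ s :=
  Sum.Lex.inr_le_inr_iff

theorem core_lt_core {r s : C} : (core r : Grp K C) < core s ↔ r < s :=
  Sum.Lex.inr_lt_inr_iff

theorem fr_inj {f g : Fin K} {i j : Fin 64} (h : (fr f i : Grp K C) = fr g j) : f = g ∧ i = j := by
  have h2 := Sum.inl_injective (ofLex.injective h)
  have h3 : (f, i) = (g, j) := ofLex.injective h2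
  exact Prod.mk.inj h3

theorem core_inj {r s : C} (h : (core r : Grp K C) = core s) : r = s :=
  Sum.inr_injective (ofLex.injective h)

/-- In a strictly monotone chain of frame groups of one frame, positions grow. -/
theorem frame_lower (φ : Fin 66 → Grp K C) (hφ : StrictMono φ) (f : Fin K) (n : ℕ) (hn : n < 66)
    (h : ∀ i : Fin 66, i.val ≤ n → ∃ p, φ i = fr f p) :
    ∀ i : Fin 66, i.val ≤ n → ∀ p, φ i = fr f p → i.val ≤ p.val := by
  intro i
  induction' hi : i.val with m ih generalizing i
  · intro _ p _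
    exact Nat.zero_le _
  · intro hm p hp
    have hm' : m < 66 := by omega
    obtain ⟨p', hp'⟩ := h ⟨m, hm'⟩ (by simp; omega)
    have h1 := ih ⟨m, hm'⟩ rfl (by omega) p' hp'
    have hlt : φ ⟨m, hm'⟩ < φ i := hφ (by simp [Fin.lt_def]; omega)
    rw [hp', hp, fr_lt_fr] at hlt
    rcases hlt with hlt | ⟨_, hlt⟩
    · exact absurd hlt (lt_irrefl _)
    · have : p'.val < p.val := hlt
      omega

/-- A strictly monotone chain cannot stay in one frame for 65 steps. -/
theorem frame_no65 (φ : Fin 66 → Grp K C) (hφ : StrictMono φ) (f : Fin K)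
    (h : ∀ i : Fin 66, i.val ≤ 64 → ∃ p, φ i = fr f p) : False := by
  obtain ⟨p, hp⟩ := h 64 (by simp)
  have := frame_lower φ hφ f 64 (by norm_num) h 64 (by simp) p hp
  have hp' := p.isLt
  simp at this
  omega

/-- In a strictly monotone chain of frame groups of one frame, positions are bounded from above. -/
theorem frame_upper (φ : Fin 66 → Grp K C) (hφ : StrictMono φ) (f : Fin K)
    (h : ∀ i : Fin 66, i.val ≤ 63 → ∃ p, φ i = fr f p) :
    ∀ k : ℕ, ∀ i : Fin 66, i.val + k = 63 → ∀ p, φ i = fr f p → p.val ≤ i.val := by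
  intro k
  induction' k with k ih
  · intro i hi p _
    have := p.isLt
    omega
  · intro i hi p hp
    have hm' : i.val + 1 < 66 := by omega
    obtain ⟨p', hp'⟩ := h ⟨i.val + 1, hm'⟩ (by simp; omega)
    have h1 := ih ⟨i.val + 1, hm'⟩ (by simp; omega) p' hp'
    have hlt : φ i < φ ⟨i.val + 1, hm'⟩ := hφ (by simp [Fin.lt_def])
    rw [hp', hp, fr_lt_fr] at hlt
    rcases hlt with hlt | ⟨_, hlt⟩
    · exact absurd hlt (lt_irrefl _)
    · have : p.val < p'.val := hlt
      simp at h1
      omega

/-- A strictly monotone chain of length 64 in one frame is the identity. -/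
theorem frame_id (φ : Fin 66 → Grp K C) (hφ : StrictMono φ) (f : Fin K)
    (h : ∀ i : Fin 66, i.val ≤ 63 → ∃ p, φ i = fr f p) (i : Fin 64) : φ (pos i) = fr f i := by
  have hi := i.isLt
  obtain ⟨p, hp⟩ := h (pos i) (by simp; omega)
  have h1 := frame_lower φ hφ f 63 (by norm_num) h (pos i) (by simp; omega) p hp
  have h2 := frame_upper φ hφ f h (63 - i.val) (pos i) (by simp; omega) p hp
  have : p = i := by
    apply Fin.ext
    simp at h1 h2
    omega
  rw [hp, this]

end Order

/-- The data of the group-level matrix. -/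
structure Data (K : ℕ) (CR CC : Type*) where
  /-- core table -/
  M : CR → CC → Bool
  /-- letter sets of the frame rows `y1`,`y2` -/
  R1 : Fin K → CR → Bool
  R2 : Fin K → CR → Bool
  /-- letter sets of the frame columns `x1`,`x2` -/
  C1 : Fin K → CC → Bool
  C2 : Fin K → CC → Bool

variable {K : ℕ} {CR CC : Type*}

/-- The letter set selected by a Boolean (`true`: first). -/
def Data.RL (D : Data K CR CC) (g : Fin K) (s : Bool) : CR → Bool := if s then D.R1 g else D.R2 g

/-- The letter set selected by a Boolean (`true`: first). -/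
def Data.CL (D : Data K CR CC) (g : Fin K) (s : Bool) : CC → Bool := if s then D.C1 g else D.C2 g

/-- The group-level matrix (section 4 of the design). -/
def Data.G (D : Data K CR CC) (x : Grp K CR) (y : Grp K CC) : Bool :=
  match ofLex x, ofLex y with
  | Sum.inl p, Sum.inl q =>
      if (ofLex p).1 < (ofLex q).1 then true
      else if (ofLex q).1 < (ofLex p).1 then false
      else H (pos (ofLex p).2) (pos (ofLex q).2)
  | Sum.inl p, Sum.inr c =>
      !((decide ((ofLex p).2.val = 0) && D.C1 (ofLex p).1 c) ||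
        (decide ((ofLex p).2.val = 1) && D.C2 (ofLex p).1 c))
  | Sum.inr r, Sum.inl q =>
      (decide ((ofLex q).2.val = 0) && D.R1 (ofLex q).1 r) ||
        (decide ((ofLex q).2.val = 1) && D.R2 (ofLex q).1 r)
  | Sum.inr r, Sum.inr c => D.M r c

section GLemmas

variable [LinearOrder CR] [LinearOrder CC] (D : Data K CR CC)

theorem G_fr_fr (f g : Fin K) (i j : Fin 64) :
    D.G (fr f i) (fr g j) = if f < g then true else if g < f then false else H (pos i) (pos j) := rfl

theorem G_fr_core (f : Fin K) (i : Fin 64) (c : CC) :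
    D.G (fr f i) (core c) =
      !((decide (i.val = 0) && D.C1 f c) || (decide (i.val = 1) && D.C2 f c)) := rfl

theorem G_core_fr (r : CR) (g : Fin K) (j : Fin 64) :
    D.G (core r) (fr g j) =
      ((decide (j.val = 0) && D.R1 g r) || (decide (j.val = 1) && D.R2 g r)) := rfl

theorem G_core_core (r : CR) (c : CC) : D.G (core r) (core c) = D.M r c := rfl

theorem G_fr_fr_true {f g : Fin K} {i j : Fin 64} (h : D.G (fr f i) (fr g j) = true) : f ≤ g := by
  rw [G_fr_fr] at h
  by_contra hlt
  rw [not_le] at hlt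
  rw [if_neg (not_lt.mpr hlt.le), if_pos hlt] at h
  exact Bool.noConfusion h

theorem G_fr_fr_false {f g : Fin K} {i j : Fin 64} (h : D.G (fr f i) (fr g j) = false) : g ≤ f := by
  rw [G_fr_fr] at h
  by_contra hlt
  rw [not_le] at hlt
  rw [if_pos hlt] at h
  exact Bool.noConfusion h

theorem G_core_fr_true {r : CR} {g : Fin K} {j : Fin 64} (h : D.G (core r) (fr g j) = true) :
    (j.val = 0 ∧ D.R1 g r = true) ∨ (j.val = 1 ∧ D.R2 g r = true) := by
  rw [G_core_fr] at h
  by_cases h0 : j.val = 0
  · by_cases h1 : D.R1 g r = true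
    · exact Or.inl ⟨h0, h1⟩
    · simp [h0] at h
      exact absurd h h1
  · by_cases h2 : j.val = 1
    · by_cases h3 : D.R2 g r = true
      · exact Or.inr ⟨h2, h3⟩
      · simp [h2] at h
        exact absurd h h3
    · simp [h0, h2] at h

theorem G_fr_core_false {f : Fin K} {i : Fin 64} {c : CC} (h : D.G (fr f i) (core c) = false) :
    (i.val = 0 ∧ D.C1 f c = true) ∨ (i.val = 1 ∧ D.C2 f c = true) := by
  rw [G_fr_core] at h
  by_cases h0 : i.val = 0
  · by_cases h1 : D.C1 f c = true
    · exact Or.inl ⟨h0, h1⟩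
    · simp [h0] at h
      exact absurd h h1
  · by_cases h2 : i.val = 1
    · by_cases h3 : D.C2 f c = true
      · exact Or.inr ⟨h2, h3⟩
      · simp [h2] at h
        exact absurd h h3
    · simp [h0, h2] at h

/-- On a frame column of position `0` or `1` the core rows read the letter set. -/
theorem G_core_fr_RL {r : CR} {g : Fin K} {j : Fin 64} (hj : j.val = 0 ∨ j.val = 1) :
    D.G (core r) (fr g j) = D.RL g (decide (j.val = 0)) r := by
  rw [G_core_fr]
  rcases hj with hj | hj <;> simp [Data.RL, hj]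

/-- On a frame row of position `0` or `1` the core columns read the complement of the letter set. -/
theorem G_fr_core_CL {c : CC} {f : Fin K} {i : Fin 64} (hi : i.val = 0 ∨ i.val = 1) :
    D.G (fr f i) (core c) = !D.CL f (decide (i.val = 0)) c := by
  rw [G_fr_core]
  rcases hi with hi | hi <;> simp [Data.CL, hi]

end GLemmas

section Rigidity

variable [LinearOrder CR] [LinearOrder CC] (D : Data K CR CC)

/-- Monotone maps that reproduce `H` are strictly monotone (rows). -/
theorem strictMono_rows {φ : Fin 66 → Grp K CR} {ψ : Fin 66 → Grp K CC} (hφ : Monotone φ)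
    (hG : ∀ i j, D.G (φ i) (ψ j) = H i j) : StrictMono φ := by
  rw [Fin.strictMono_iff_lt_succ]
  intro i
  refine lt_of_le_of_ne (hφ (Fin.castSucc_lt_succ).le) ?_
  intro heq
  obtain ⟨j, hj⟩ := H_adj_rows i
  apply hj
  rw [← hG, ← hG, heq]

/-- Monotone maps that reproduce `H` are strictly monotone (columns). -/
theorem strictMono_cols {φ : Fin 66 → Grp K CR} {ψ : Fin 66 → Grp K CC} (hψ : Monotone ψ)
    (hG : ∀ i j, D.G (φ i) (ψ j) = H i j) : StrictMono ψ := by
  rw [Fin.strictMono_iff_lt_succ]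
  intro j
  refine lt_of_le_of_ne (hψ (Fin.castSucc_lt_succ).le) ?_
  intro heq
  obtain ⟨i, hi⟩ := H_adj_cols j
  apply hi
  rw [← hG, ← hG, heq]

/-- The plus pattern does not occur among core lines. -/
def Data.NoPlus : Prop :=
  ∀ r1 r2 r3 : CR, ∀ c1 c2 c3 : CC, r1 < r2 → r2 < r3 → c1 < c2 → c2 < c3 →
    D.M r1 c2 = true → D.M r2 c1 = true → D.M r2 c2 = true → D.M r2 c3 = true → D.M r3 c2 = true →
    D.M r1 c1 = false → D.M r1 c3 = false → D.M r3 c1 = false → D.M r3 c3 = false → False

/-- Two letter sets of rows do not separate three rows as in `Q_Y`. -/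
def Data.NoSepR : Prop :=
  ∀ (g1 : Fin K) (s1 : Bool) (g2 : Fin K) (s2 : Bool) (r r' r'' : CR),
    D.RL g1 s1 r = true → D.RL g1 s1 r' = true → D.RL g1 s1 r'' = false →
    D.RL g2 s2 r = true → D.RL g2 s2 r' = false → D.RL g2 s2 r'' = true → False

/-- Two letter sets of columns do not separate three columns as in `Q_X`. -/
def Data.NoSepC : Prop :=
  ∀ (g1 : Fin K) (s1 : Bool) (g2 : Fin K) (s2 : Bool) (c c' c'' : CC),
    D.CL g1 s1 c = true → D.CL g1 s1 c' = true → D.CL g1 s1 c'' = false →
    D.CL g2 s2 c = true → D.CL g2 s2 c' = false → D.CL g2 s2 c'' = true → False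

/-- Helper: core row/column values at the plus position. -/
theorem no_plus_case (hPlus : D.NoPlus) {φ : Fin 66 → Grp K CR} {ψ : Fin 66 → Grp K CC}
    (hφ : StrictMono φ) (hψ : StrictMono ψ) (hG : ∀ i j, D.G (φ i) (ψ j) = H i j)
    {r1 r2 r3 : CR} {c1 c2 c3 : CC} (h1 : φ 61 = core r1) (h2 : φ 62 = core r2)
    (h3 : φ 63 = core r3) (h4 : ψ 61 = core c1) (h5 : ψ 62 = core c2) (h6 : ψ 63 = core c3) :
    False := by
  have hr12 : r1 < r2 := by
    have : φ 61 < φ 62 := hφ (by decide)
    rwa [h1, h2, core_lt_core] at this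
  have hr23 : r2 < r3 := by
    have : φ 62 < φ 63 := hφ (by decide)
    rwa [h2, h3, core_lt_core] at this
  have hc12 : c1 < c2 := by
    have : ψ 61 < ψ 62 := hψ (by decide)
    rwa [h4, h5, core_lt_core] at this
  have hc23 : c2 < c3 := by
    have : ψ 62 < ψ 63 := hψ (by decide)
    rwa [h5, h6, core_lt_core] at this
  obtain ⟨q11, q12, q13, q21, q22, q23, q31, q32, q33⟩ := H_QM
  have v : ∀ i j r c, φ i = core r → ψ j = core c → D.M r c = H i j := by
    intro i j r c hr hc
    rw [← hG, hr, hc, G_core_core]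
  exact hPlus r1 r2 r3 c1 c2 c3 hr12 hr23 hc12 hc23
    (by rw [v _ _ _ _ h1 h5, q12]) (by rw [v _ _ _ _ h2 h4, q21]) (by rw [v _ _ _ _ h2 h5, q22])
    (by rw [v _ _ _ _ h2 h6, q23]) (by rw [v _ _ _ _ h3 h5, q32]) (by rw [v _ _ _ _ h1 h4, q11])
    (by rw [v _ _ _ _ h1 h6, q13]) (by rw [v _ _ _ _ h3 h4, q31]) (by rw [v _ _ _ _ h3 h6, q33])

/-- If a monotone map is at a core line at index `i` then it stays in the core later. -/
theorem core_later {C : Type*} [LinearOrder C] {φ : Fin 66 → Grp K C} (hφ : Monotone φ)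
    {i j : Fin 66} (hij : i ≤ j) {r : C} (h : φ i = core r) : ∃ s, φ j = core s := by
  rcases grp_cases (φ j) with ⟨f, p, hp⟩ | ⟨s, hs⟩
  · have := hφ hij
    rw [h, hp] at this
    exact absurd this not_core_le_fr
  · exact ⟨s, hs⟩

/-- If a monotone map is at a frame group at index `j` it was in a frame group earlier. -/
theorem frame_earlier {C : Type*} [LinearOrder C] {φ : Fin 66 → Grp K C} (hφ : Monotone φ)
    {i j : Fin 66} (hij : i ≤ j) {f : Fin K} {p : Fin 64} (h : φ j = fr f p) :
    ∃ g q, φ i = fr g q ∧ g ≤ f := by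
  rcases grp_cases (φ i) with ⟨g, q, hq⟩ | ⟨s, hs⟩
  · refine ⟨g, q, hq, ?_⟩
    have := hφ hij
    rw [h, hq, fr_le_fr] at this
    rcases this with h' | ⟨h', _⟩
    · exact h'.le
    · exact h'.le
  · have := hφ hij
    rw [h, hs] at this
    exact absurd this not_core_le_fr

/-- Conclusion of rigidity. -/
structure IsFrameCopy (φ : Fin 66 → Grp K CR) (ψ : Fin 66 → Grp K CC) (f : Fin K)
    (y1 y2 : CR) (x1 x2 : CC) : Prop where
  rows : ∀ i : Fin 64, φ (pos i) = fr f i
  cols : ∀ j : Fin 64, ψ (pos j) = fr f j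
  y1_eq : φ 64 = core y1
  y2_eq : φ 65 = core y2
  x1_eq : ψ 64 = core x1
  x2_eq : ψ 65 = core x2
  y1_mem : D.R1 f y1 = true
  y2_mem : D.R2 f y2 = true
  x1_mem : D.C1 f x1 = true
  x2_mem : D.C2 f x2 = true
  y_lt : y1 < y2
  x_lt : x1 < x2
  M11 : D.M y1 x1 = false
  M12 : D.M y1 x2 = true
  M21 : D.M y2 x1 = true
  M22 : D.M y2 x2 = false

/-- **Rigidity.**  A monotone group-level copy of `H` is a frame copy. -/
theorem rigid (hR : ∀ f r, ¬ (D.R1 f r = true ∧ D.R2 f r = true))
    (hC : ∀ f c, ¬ (D.C1 f c = true ∧ D.C2 f c = true))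
    (hPlus : D.NoPlus) (hSepR : D.NoSepR) (hSepC : D.NoSepC)
    {φ : Fin 66 → Grp K CR} {ψ : Fin 66 → Grp K CC} (hφ : Monotone φ) (hψ : Monotone ψ)
    (hG : ∀ i j, D.G (φ i) (ψ j) = H i j) :
    ∃ f y1 y2 x1 x2, IsFrameCopy D φ ψ f y1 y2 x1 x2 := by
  have hφS := strictMono_rows D hφ hG
  have hψS := strictMono_cols D hψ hG
  -- the plus case, given the core start
  have plus_case : ∀ (i0 j0 : Fin 66), i0 ≤ 61 → j0 ≤ 61 →
      (∃ r, φ i0 = core r) → (∃ c, ψ j0 = core c) → False := by
    intro i0 j0 hi0 hj0 ⟨r, hr⟩ ⟨c, hc⟩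
    obtain ⟨r1, h1⟩ := core_later hφ hi0 hr
    obtain ⟨r2, h2⟩ := core_later hφ (hi0.trans (by decide : (61 : Fin 66) ≤ 62)) hr
    obtain ⟨r3, h3⟩ := core_later hφ (hi0.trans (by decide : (61 : Fin 66) ≤ 63)) hr
    obtain ⟨c1, h4⟩ := core_later hψ hj0 hc
    obtain ⟨c2, h5⟩ := core_later hψ (hj0.trans (by decide : (61 : Fin 66) ≤ 62)) hc
    obtain ⟨c3, h6⟩ := core_later hψ (hj0.trans (by decide : (61 : Fin 66) ≤ 63)) hc
    exact no_plus_case D hPlus hφS hψS hG h1 h2 h3 h4 h5 h6
  rcases grp_cases (ψ 1) with ⟨g1, q1, hψ1⟩ | ⟨c1, hψ1⟩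
  · rcases grp_cases (φ 0) with ⟨f, p0, hφ0⟩ | ⟨r0, hφ0⟩
    · -- Case A: `a ≥ 1`, `b ≥ 2`.
      obtain ⟨g0, q0, hψ0, hg01⟩ := frame_earlier hψ (i := 0) (j := 1) (by decide) hψ1
      have h1 : f ≤ g0 := by
        apply G_fr_fr_true D (i := p0) (j := q0)
        rw [← hφ0, ← hψ0, hG, H_00]
      have h2 : g1 ≤ f := by
        apply G_fr_fr_false D (i := p0) (j := q1)
        rw [← hφ0, ← hψ1, hG]
        exact H_0j 1 (by simp) (by simp)
      have hg0 : g0 = f := le_antisymm (hg01.trans h2) h1
      subst hg0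
      -- all frame columns up to 64 are in `g0`
      have colsF : ∀ j : Fin 66, j.val ≤ 64 → ∀ g q, ψ j = fr g q → g = g0 := by
        intro j hj g q hq
        have hle : g0 ≤ g := by
          obtain ⟨g', q', hq', hg'⟩ := frame_earlier hψ (i := 0) (j := j) (Fin.zero_le _) hq
          rw [hψ0] at hq'
          rw [(fr_inj hq').1]
          exact hg'
        by_cases hj0 : j.val = 0
        · have : j = 0 := Fin.ext hj0
          subst this
          rw [hψ0] at hq
          exact ((fr_inj hq).1).symm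
        · refine le_antisymm ?_ hle
          apply G_fr_fr_false D (i := p0) (j := q)
          rw [← hφ0, ← hq, hG]
          exact H_0j j (by omega) hj
      have rowsF : ∀ i : Fin 66, i.val ≤ 64 → ∀ g q, φ i = fr g q → g = g0 := by
        intro i hi g q hq
        have hle : g0 ≤ g := by
          obtain ⟨g', q', hq', hg'⟩ := frame_earlier hφ (i := 0) (j := i) (Fin.zero_le _) hq
          rw [hφ0] at hq'
          rw [(fr_inj hq').1]
          exact hg'
        refine le_antisymm ?_ hle
        apply G_fr_fr_true D (i := q) (j := q0)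
        rw [← hq, ← hψ0, hG]
        exact H_i0 i hi
      -- no frame line at index 64
      have row64 : ∃ r, φ 64 = core r := by
        rcases grp_cases (φ 64) with ⟨g, q, hq⟩ | h
        · exfalso
          apply frame_no65 φ hφS g0
          intro i hi
          have hi' : i ≤ 64 := by simpa [Fin.le_def] using hi
          obtain ⟨g', q', hq', _⟩ := frame_earlier hφ hi' hq
          refine ⟨q', ?_⟩
          rw [hq', rowsF i hi g' q' hq']
        · exact h
      have col64 : ∃ c, ψ 64 = core c := by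
        rcases grp_cases (ψ 64) with ⟨g, q, hq⟩ | h
        · exfalso
          apply frame_no65 ψ hψS g0
          intro i hi
          have hi' : i ≤ 64 := by simpa [Fin.le_def] using hi
          obtain ⟨g', q', hq', _⟩ := frame_earlier hψ hi' hq
          refine ⟨q', ?_⟩
          rw [hq', colsF i hi g' q' hq']
        · exact h
      have hq01 : q0 < q1 := by
        have : ψ 0 < ψ 1 := hψS (by decide)
        rw [hψ0, hψ1, fr_lt_fr] at this
        rcases this with h | ⟨_, h⟩
        · exact absurd h (by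
            rw [colsF 1 (by simp) g1 q1 hψ1]
            exact lt_irrefl _)
        · exact h
      -- row 63 is a frame row
      have row63 : ∃ g q, φ 63 = fr g q := by
        rcases grp_cases (φ 63) with h | ⟨r, hr⟩
        · exact h
        · exfalso
          have e1 : D.G (core r) (fr g0 q0) = true := by
            rw [← hr, ← hψ0, hG]
            exact H_i0 63 (by simp)
          have e2 : D.G (core r) (fr g1 q1) = true := by
            rw [← hr, ← hψ1, hG]
            exact H_63_1
          rcases G_core_fr_true D e1 with ⟨a1, a2⟩ | ⟨a1, a2⟩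
          · rcases G_core_fr_true D e2 with ⟨b1, b2⟩ | ⟨b1, b2⟩
            · have : q0.val < q1.val := hq01
              omega
            · rw [colsF 1 (by simp) g1 q1 hψ1] at b2
              exact hR g0 r ⟨a2, b2⟩
          · rcases G_core_fr_true D e2 with ⟨b1, b2⟩ | ⟨b1, b2⟩
            · have : q0.val < q1.val := hq01
              omega
            · have : q0.val < q1.val := hq01
              omega
      have rowsFr : ∀ i : Fin 66, i.val ≤ 63 → ∃ p, φ i = fr g0 p := by
        intro i hi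
        obtain ⟨g, q, hq⟩ := row63
        have hi' : i ≤ 63 := by simpa [Fin.le_def] using hi
        obtain ⟨g', q', hq', _⟩ := frame_earlier hφ hi' hq
        refine ⟨q', ?_⟩
        rw [hq', rowsF i (by omega) g' q' hq']
      -- column 63 is a frame column
      have col63 : ∃ g q, ψ 63 = fr g q := by
        rcases grp_cases (ψ 63) with h | ⟨c, hc⟩
        · exact h
        · exfalso
          obtain ⟨p1, hp1⟩ := rowsFr 1 (by simp)
          have hp01 : p0 < p1 := by
            have : φ 0 < φ 1 := hφS (by decide)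
            rw [hφ0, hp1, fr_lt_fr] at this
            rcases this with h | ⟨_, h⟩
            · exact absurd h (lt_irrefl _)
            · exact h
          have e1 : D.G (fr g0 p0) (core c) = false := by
            rw [← hφ0, ← hc, hG]
            exact H_0j 63 (by simp) (by simp)
          have e2 : D.G (fr g0 p1) (core c) = false := by
            rw [← hp1, ← hc, hG]
            exact H_1_63
          have hv : p0.val < p1.val := hp01
          rcases G_fr_core_false D e1 with ⟨a1, a2⟩ | ⟨a1, a2⟩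
          · rcases G_fr_core_false D e2 with ⟨b1, b2⟩ | ⟨b1, b2⟩
            · omega
            · exact hC g0 c ⟨a2, b2⟩
          · rcases G_fr_core_false D e2 with ⟨b1, b2⟩ | ⟨b1, b2⟩
            · omega
            · omega
      have colsFr : ∀ j : Fin 66, j.val ≤ 63 → ∃ p, ψ j = fr g0 p := by
        intro j hj
        obtain ⟨g, q, hq⟩ := col63
        have hj' : j ≤ 63 := by simpa [Fin.le_def] using hj
        obtain ⟨g', q', hq', _⟩ := frame_earlier hψ hj' hq
        refine ⟨q', ?_⟩
        rw [hq', colsF j (by omega) g' q' hq']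
      have hrows := frame_id φ hφS g0 rowsFr
      have hcols := frame_id ψ hψS g0 colsFr
      obtain ⟨y1, hy1⟩ := row64
      obtain ⟨x1, hx1⟩ := col64
      obtain ⟨y2, hy2⟩ := core_later hφ (by decide : (64 : Fin 66) ≤ 65) hy1
      obtain ⟨x2, hx2⟩ := core_later hψ (by decide : (64 : Fin 66) ≤ 65) hx1
      have hr0 : φ 0 = fr g0 (0 : Fin 64) := hrows 0
      have hr1 : φ 1 = fr g0 (1 : Fin 64) := hrows 1
      have hc0 : ψ 0 = fr g0 (0 : Fin 64) := hcols 0
      have hc1 : ψ 1 = fr g0 (1 : Fin 64) := hcols 1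
      obtain ⟨c1, c2, c3, c4⟩ := H_corner
      refine ⟨g0, y1, y2, x1, x2, ⟨hrows, hcols, hy1, hy2, hx1, hx2, ?_, ?_, ?_, ?_, ?_, ?_,
        ?_, ?_, ?_, ?_⟩⟩
      · have e := hG 64 0
        rw [hy1, hc0, H_i0 64 (by simp)] at e
        rcases G_core_fr_true D e with ⟨_, a⟩ | ⟨h, _⟩
        · exact a
        · simp at h
      · have e := hG 65 1
        rw [hy2, hc1, H_65_1] at e
        rcases G_core_fr_true D e with ⟨h, _⟩ | ⟨_, a⟩
        · simp at h
        · exact a
      · have e := hG 0 64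
        rw [hr0, hx1, H_0j 64 (by simp) (by simp)] at e
        rcases G_fr_core_false D e with ⟨_, a⟩ | ⟨h, _⟩
        · exact a
        · simp at h
      · have e := hG 1 65
        rw [hr1, hx2, H_1_65] at e
        rcases G_fr_core_false D e with ⟨h, _⟩ | ⟨_, a⟩
        · simp at h
        · exact a
      · have : φ 64 < φ 65 := hφS (by decide)
        rwa [hy1, hy2, core_lt_core] at this
      · have : ψ 64 < ψ 65 := hψS (by decide)
        rwa [hx1, hx2, core_lt_core] at this
      · have e := hG 64 64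
        rwa [hy1, hx1, G_core_core, c1] at e
      · have e := hG 64 65
        rwa [hy1, hx2, G_core_core, c2] at e
      · have e := hG 65 64
        rwa [hy2, hx1, G_core_core, c3] at e
      · have e := hG 65 65
        rwa [hy2, hx2, G_core_core, c4] at e
    · -- Case B: all rows core, `b ≥ 2`.
      exfalso
      rcases grp_cases (ψ 3) with ⟨g3, q3, hψ3⟩ | ⟨c3, hψ3⟩
      · obtain ⟨g2, q2, hψ2, _⟩ := frame_earlier hψ (i := 2) (j := 3) (by decide) hψ3
        obtain ⟨r2, hr2⟩ := core_later hφ (by decide : (0 : Fin 66) ≤ 2) hφ0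
        obtain ⟨r3, hr3⟩ := core_later hφ (by decide : (0 : Fin 66) ≤ 3) hφ0
        obtain ⟨r4, hr4⟩ := core_later hφ (by decide : (0 : Fin 66) ≤ 4) hφ0
        obtain ⟨e1, e2, e3, e4, e5, e6⟩ := H_QY
        have v : ∀ i j r g q, φ i = core r → ψ j = fr g q → D.G (core r) (fr g q) = H i j := by
          intro i j r g q h h'
          rw [← hG, h, h']
        have a1 := v _ _ _ _ _ hr2 hψ2
        have a2 := v _ _ _ _ _ hr3 hψ2
        have a3 := v _ _ _ _ _ hr4 hψ2
        have b1 := v _ _ _ _ _ hr2 hψ3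
        have b2 := v _ _ _ _ _ hr3 hψ3
        have b3 := v _ _ _ _ _ hr4 hψ3
        rw [e1] at a1
        rw [e2] at a2
        rw [e3] at a3
        rw [e4] at b1
        rw [e5] at b2
        rw [e6] at b3
        have hq2 : q2.val = 0 ∨ q2.val = 1 := by
          rcases G_core_fr_true D a1 with ⟨h, _⟩ | ⟨h, _⟩
          · exact Or.inl h
          · exact Or.inr h
        have hq3 : q3.val = 0 ∨ q3.val = 1 := by
          rcases G_core_fr_true D b1 with ⟨h, _⟩ | ⟨h, _⟩
          · exact Or.inl h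
          · exact Or.inr h
        rw [G_core_fr_RL D hq2] at a1 a2 a3
        rw [G_core_fr_RL D hq3] at b1 b2 b3
        exact hSepR _ _ _ _ r2 r3 r4 a1 a2 a3 b1 b2 b3
      · exact plus_case 0 3 (by decide) (by decide) ⟨r0, hφ0⟩ ⟨c3, hψ3⟩
  · -- Case C: `b ≤ 1`.
    exfalso
    rcases grp_cases (φ 3) with ⟨g3, q3, hφ3⟩ | ⟨r3, hφ3⟩
    · obtain ⟨g2, q2, hφ2, _⟩ := frame_earlier hφ (i := 2) (j := 3) (by decide) hφ3
      obtain ⟨c4, hc4⟩ := core_later hψ (by decide : (1 : Fin 66) ≤ 4) hψ1
      obtain ⟨c5, hc5⟩ := core_later hψ (by decide : (1 : Fin 66) ≤ 5) hψ1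
      obtain ⟨c6, hc6⟩ := core_later hψ (by decide : (1 : Fin 66) ≤ 6) hψ1
      obtain ⟨e1, e2, e3, e4, e5, e6⟩ := H_QX
      have v : ∀ i j g q c, φ i = fr g q → ψ j = core c → D.G (fr g q) (core c) = H i j := by
        intro i j g q c h h'
        rw [← hG, h, h']
      have a1 := v _ _ _ _ _ hφ2 hc4
      have a2 := v _ _ _ _ _ hφ2 hc5
      have a3 := v _ _ _ _ _ hφ2 hc6
      have b1 := v _ _ _ _ _ hφ3 hc4
      have b2 := v _ _ _ _ _ hφ3 hc5
      have b3 := v _ _ _ _ _ hφ3 hc6
      rw [e1] at a1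
      rw [e2] at a2
      rw [e3] at a3
      rw [e4] at b1
      rw [e5] at b2
      rw [e6] at b3
      have hq2 : q2.val = 0 ∨ q2.val = 1 := by
        rcases G_fr_core_false D a1 with ⟨h, _⟩ | ⟨h, _⟩
        · exact Or.inl h
        · exact Or.inr h
      have hq3 : q3.val = 0 ∨ q3.val = 1 := by
        rcases G_fr_core_false D b1 with ⟨h, _⟩ | ⟨h, _⟩
        · exact Or.inl h
        · exact Or.inr h
      rw [G_fr_core_CL D hq2] at a1 a2 a3
      rw [G_fr_core_CL D hq3] at b1 b2 b3
      simp only [Bool.not_eq_eq_eq_not, Bool.not_false, Bool.not_true] at a1 a2 a3 b1 b2 b3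
      exact hSepC _ _ _ _ c4 c5 c6 a1 a2 a3 b1 b2 b3
    · exact plus_case 3 1 (by decide) (by decide) ⟨r3, hφ3⟩ ⟨c1, hψ1⟩

/-- **Converse.** A frame with four core lines in its letter sets and core pattern
`[[0,1],[1,0]]` gives a copy of `H`. -/
theorem G_copy (hR : ∀ f r, ¬ (D.R1 f r = true ∧ D.R2 f r = true))
    (hC : ∀ f c, ¬ (D.C1 f c = true ∧ D.C2 f c = true))
    (f : Fin K) {y1 y2 : CR} {x1 x2 : CC}
    (hy1 : D.R1 f y1 = true) (hy2 : D.R2 f y2 = true)
    (hx1 : D.C1 f x1 = true) (hx2 : D.C2 f x2 = true)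
    (h11 : D.M y1 x1 = false) (h12 : D.M y1 x2 = true) (h21 : D.M y2 x1 = true)
    (h22 : D.M y2 x2 = false) :
    (∀ i j : Fin 64, D.G (fr f i) (fr f j) = H (pos i) (pos j)) ∧
    (∀ i : Fin 64, D.G (fr f i) (core x1) = H (pos i) 64) ∧
    (∀ i : Fin 64, D.G (fr f i) (core x2) = H (pos i) 65) ∧
    (∀ j : Fin 64, D.G (core y1) (fr f j) = H 64 (pos j)) ∧
    (∀ j : Fin 64, D.G (core y2) (fr f j) = H 65 (pos j)) ∧
    D.G (core y1) (core x1) = H 64 64 ∧ D.G (core y1) (core x2) = H 64 65 ∧
    D.G (core y2) (core x1) = H 65 64 ∧ D.G (core y2) (core x2) = H 65 65 := by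
  obtain ⟨c1, c2, c3, c4⟩ := H_corner
  have hx1' : D.C2 f x1 = false := by
    by_contra h
    exact hC f x1 ⟨hx1, by simpa using h⟩
  have hx2' : D.C1 f x2 = false := by
    by_contra h
    exact hC f x2 ⟨by simpa using h, hx2⟩
  have hy1' : D.R2 f y1 = false := by
    by_contra h
    exact hR f y1 ⟨hy1, by simpa using h⟩
  have hy2' : D.R1 f y2 = false := by
    by_contra h
    exact hR f y2 ⟨by simpa using h, hy2⟩
  refine ⟨?_, ?_, ?_, ?_, ?_, ?_, ?_, ?_, ?_⟩
  · intro i j
    rw [G_fr_fr]
    simp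
  · intro i
    rw [G_fr_core, H_col64 (pos i) (by simp), hx1, hx1']
    by_cases h : i.val = 0 <;> simp [h]
  · intro i
    rw [G_fr_core, H_col65 (pos i) (by simp), hx2, hx2']
    by_cases h : i.val = 1 <;> simp [h]
  · intro j
    rw [G_core_fr, H_row64 (pos j) (by simp), hy1, hy1']
    by_cases h : j.val = 0 <;> simp [h]
  · intro j
    rw [G_core_fr, H_row65 (pos j) (by simp), hy2, hy2']
    by_cases h : j.val = 1 <;> simp [h]
  · rw [G_core_core, h11, c1]
  · rw [G_core_core, h12, c2]
  · rw [G_core_core, h21, c3]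
  · rw [G_core_core, h22, c4]

end Rigidity

end S66.Rigid
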